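import Vale.Agent.P200.H.StB

/-! The stages of the construction. -/

open MvPolynomial

namespace Vale.Agent.P200.H

open Vale.Agent.P200.G Vale.Agent.P200.Eq

universe u

variable {k : Type u} [Field k] {n c : ℕ} (hc : c ≤ n) (a : Fin c → ℕ)
  (f : Fin c → MvPolynomial (Fin n) k)

/-- the generators available at stage `m` -/
def stGens (s : St.{u} n) (φ : k →+* s.F) (y : Fin n → MvPolynomial s.O s.F) (m : ℕ) :
    Set (MvPolynomial s.O s.F) :=
  {g | (∃ i : Fin c, (i : ℕ) < m ∧ g = rename s.xs (MvPolynomial.map φ (f i))) ∨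
    (∃ j : Fin n, m + 1 ≤ (j : ℕ) ∧ g = y j) ∨ (g.IsHomogeneous 2 ∧ s.ev g = 0)}

theorem stage_push {s s' : St.{u} n} (μ : Mor s s') (φ : k →+* s.F) (g : MvPolynomial (Fin n) k) :
    μ.push (rename s.xs (MvPolynomial.map φ g)) =
      rename s'.xs (MvPolynomial.map (μ.φF.comp φ) g) := by
  rw [μ.push_rename_xs, map_map]

theorem stage_inv {m : ℕ} (hm : m < c) {s s' : St.{u} n} (φ : k →+* s.F)
    (y : Fin n → MvPolynomial s.O s.F) (h : G.Inv hc a f s φ y (m + 1)) (hpos : 0 < a ⟨m, hm⟩)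
    (μ : Mor s s') (z R : MvPolynomial s'.O s'.F) (hz : z.IsHomogeneous 1)
    (hR : R ∈ Ideal.map μ.push (Ideal.span (stGens f s φ y m))) (τ : s'.F) (hτ : τ ≠ 0)
    (hg : s'.Good (z ^ a ⟨m, hm⟩ -
      (R + C τ * μ.push (rename s.xs (MvPolynomial.map φ (f ⟨m, hm⟩)))))) :
    G.Inv hc a f s' (μ.φF.comp φ)
      (Function.update (fun j => μ.push (y j)) (Fin.castLE hc ⟨m, hm⟩) z) m := by
  classical
  obtain ⟨hy, hpt, hpow⟩ := h
  set j₀ : Fin n := Fin.castLE hc ⟨m, hm⟩ with hj₀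
  have hj₀m : (j₀ : ℕ) = m := rfl
  set y' : Fin n → MvPolynomial s'.O s'.F := Function.update (fun j => μ.push (y j)) j₀ z with hy'
  have hy0 : y' j₀ = z := Function.update_self _ _ _
  have hy1 : ∀ j : Fin n, m + 1 ≤ (j : ℕ) → y' j = μ.push (y j) := fun j hj =>
    Function.update_of_ne (fun e => by rw [e, hj₀m] at hj; omega) _ _
  refine ⟨fun j => ?_, ?_, fun i hi => ?_⟩
  · rcases eq_or_ne j j₀ with rfl | hj
    · rw [hy0]
      exact hz
    · rw [hy', Function.update_of_ne hj]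
      exact μ.push_hom (hy j)
  · intro Ω _ _ χ hχ hf hyy
    let : Algebra s.F Ω := ((algebraMap s'.F Ω).comp μ.φF).toAlgebra
    have hp : ∀ P, aeval χ (μ.push P) = aeval (fun p => χ (μ.e p)) P :=
      μ.aeval_push (fun _ => rfl) χ
    have hχ' : s.Pt Ω fun p => χ (μ.e p) := μ.pt_pull (fun _ => rfl) hχ
    have hf1 : ∀ i : Fin c, (i : ℕ) < m →
        aeval (fun p => χ (μ.e p)) (rename s.xs (MvPolynomial.map φ (f i))) = 0 := fun i hi => by
      rw [← hp, stage_push]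
      exact hf i hi
    have hy2 : ∀ j : Fin n, m + 1 ≤ (j : ℕ) → aeval (fun p => χ (μ.e p)) (y j) = 0 :=
      fun j hj => by
        rw [← hp, ← hy1 j hj]
        exact hyy j (by omega)
    have hR0 : aeval χ R = 0 := by
      have h1 : Ideal.map μ.push (Ideal.span (stGens f s φ y m)) ≤ RingHom.ker (aeval χ) := by
        rw [Ideal.map_le_iff_le_comap, Ideal.span_le]
        intro g hg
        change aeval χ (μ.push g) = 0
        rw [hp]
        rcases hg with ⟨i, hi, rfl⟩ | ⟨j, hj, rfl⟩ | ⟨h2, h3⟩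
        · exact hf1 i hi
        · exact hy2 j hj
        · exact hχ' g h2 h3
      exact h1 hR
    have hz0 : aeval χ z = 0 := by
      rw [← hy0]
      exact hyy j₀ hj₀m.ge
    have hfm : aeval (fun p => χ (μ.e p)) (rename s.xs (MvPolynomial.map φ (f ⟨m, hm⟩))) = 0 := by
      have h1 := hg.2 Ω χ hχ
      rw [map_sub, map_add, map_mul, map_pow, hz0, hR0, zero_pow hpos.ne', zero_add, zero_sub,
        neg_eq_zero, aeval_C, hp, mul_eq_zero] at h1
      exact h1.resolve_left ((map_ne_zero _).2 hτ)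
    refine μ.zero Ω χ hχ (hpt Ω _ hχ' (fun i hi => ?_) hy2)
    rcases Nat.lt_succ_iff_lt_or_eq.1 hi with hi | hi
    · exact hf1 i hi
    · obtain rfl : i = ⟨m, hm⟩ := Fin.ext hi
      exact hfm
  · rcases hi.eq_or_lt with hi | hi
    · obtain rfl : i = ⟨m, hm⟩ := Fin.ext hi.symm
      set J : Ideal (MvPolynomial s'.O s'.F) := Ideal.span
        (Set.range (fun i' => rename s'.xs (MvPolynomial.map (μ.φF.comp φ) (f i'))) ∪
          y' '' Set.Ioi j₀) with hJ
      have h1 : Ideal.map μ.push (Ideal.span (stGens f s φ y m)) ≤ J ⊔ RingHom.ker s'.ev := by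
        rw [Ideal.map_le_iff_le_comap, Ideal.span_le]
        intro g hg
        change μ.push g ∈ J ⊔ RingHom.ker s'.ev
        rcases hg with ⟨i, -, rfl⟩ | ⟨j, hj, rfl⟩ | ⟨-, h3⟩
        · exact Ideal.mem_sup_left (Ideal.subset_span (Or.inl ⟨i, (stage_push μ φ _).symm⟩))
        · exact Ideal.mem_sup_left (Ideal.subset_span (Or.inr ⟨j, hj, hy1 j hj⟩))
        · refine Ideal.mem_sup_right ?_
          rw [RingHom.mem_ker, μ.ev_push, h3, map_zero]
      obtain ⟨P, hP, Q, hQ, hPQ⟩ := Submodule.mem_sup.1 (h1 hR)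
      refine ⟨P + C τ * μ.push (rename s.xs (MvPolynomial.map φ (f ⟨m, hm⟩))),
        J.add_mem hP (J.mul_mem_left _
          (Ideal.subset_span (Or.inl ⟨⟨m, hm⟩, (stage_push μ φ _).symm⟩))), ?_⟩
      have h2 := hg.1
      rw [RingHom.mem_ker] at hQ
      have e : y' j₀ ^ a ⟨m, hm⟩ -
          (P + C τ * μ.push (rename s.xs (MvPolynomial.map φ (f ⟨m, hm⟩)))) =
          (z ^ a ⟨m, hm⟩ -
            (R + C τ * μ.push (rename s.xs (MvPolynomial.map φ (f ⟨m, hm⟩))))) + Q := by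
        rw [hy0, ← hPQ]
        ring
      rw [e, map_add, h2, hQ, add_zero]
    · obtain ⟨P, hP, hP0⟩ := hpow i hi
      refine ⟨μ.push P, ?_, ?_⟩
      · have h1 : Ideal.span (Set.range (fun i' => rename s.xs (MvPolynomial.map φ (f i'))) ∪
            y '' Set.Ioi (Fin.castLE hc i)) ≤ Ideal.comap μ.push (Ideal.span
            (Set.range (fun i' => rename s'.xs (MvPolynomial.map (μ.φF.comp φ) (f i'))) ∪
              y' '' Set.Ioi (Fin.castLE hc i))) := by
          rw [Ideal.span_le]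
          rintro g (⟨i', rfl⟩ | ⟨j, hj, rfl⟩)
          · exact Ideal.subset_span (Or.inl ⟨i', (stage_push μ φ _).symm⟩)
          · refine Ideal.subset_span (Or.inr ⟨j, hj, hy1 j ?_⟩)
            have h2 : (i : ℕ) < (j : ℕ) := hj
            omega
        exact h1 hP
      · rw [hy1 (Fin.castLE hc i) hi, ← map_pow, ← map_sub, μ.ev_push, hP0, map_zero]

theorem stage (hk : Rich k) (hstep : ∀ i, StepP.{u} n (a i)) (hpos : ∀ i, 0 < a i)
    (hmono : Monotone a) (hdeg : ∀ i, (f i).IsHomogeneous (a i)) {m : ℕ}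
    (hm : m < c) (s : St.{u} n) (φ : k →+* s.F) (y : Fin n → MvPolynomial s.O s.F)
    (h : G.Inv hc a f s φ y (m + 1)) :
    ∃ (s' : St.{u} n) (φ' : k →+* s'.F) (y' : Fin n → MvPolynomial s'.O s'.F),
      G.Inv hc a f s' φ' y' m := by
  classical
  have hfh : ∀ i, (rename s.xs (MvPolynomial.map φ (f i)) :
      MvPolynomial s.O s.F).IsHomogeneous (a i) := fun i =>
    ((hdeg i).map φ).rename_isHomogeneous
  let w : Option (({i : Fin c // (i : ℕ) < m} × s.O) ⊕ {j : Fin n // m + 1 ≤ (j : ℕ)}) →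
      MvPolynomial s.O s.F := fun x => x.elim (rename s.xs (MvPolynomial.map φ (f ⟨m, hm⟩)))
    (Sum.elim (fun z => rename s.xs (MvPolynomial.map φ (f z.1.1)) *
      X z.2 ^ (a ⟨m, hm⟩ - a z.1.1)) fun j => y j.1 ^ a ⟨m, hm⟩)
  obtain ⟨s', μ, z, τ, hz, hτ, hg⟩ := hstep ⟨m, hm⟩ s (hk.map φ) _ w (by
      rintro (_ | ⟨⟨i, hi⟩, p⟩ | ⟨j, hj⟩)
      · exact hfh _
      · have h1 := (hfh i).mul (isHomogeneous_X_pow (R := s.F) p (a ⟨m, hm⟩ - a i))
        rwa [Nat.add_sub_cancel' (hmono (show i ≤ ⟨m, hm⟩ from hi.le))] at h1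
      · have h1 := (h.1 j).pow (a ⟨m, hm⟩)
        rwa [one_mul] at h1)
    (fun Ω _ _ χ hχ hw p => by
      by_contra hp
      refine hp (h.2.1 Ω χ hχ (fun i hi => ?_) (fun j hj => ?_) p)
      · rcases Nat.lt_succ_iff_lt_or_eq.1 hi with hi | hi
        · have h2 : aeval χ (rename s.xs (MvPolynomial.map φ (f i)) *
              X p ^ (a ⟨m, hm⟩ - a i)) = 0 := hw (some (Sum.inl (⟨i, hi⟩, p)))
          rw [map_mul, map_pow, aeval_X, mul_eq_zero] at h2
          exact h2.resolve_right (pow_ne_zero _ hp)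
        · obtain rfl : i = ⟨m, hm⟩ := Fin.ext hi
          exact hw none
      · have h2 : aeval χ (y j ^ a ⟨m, hm⟩) = 0 := hw (some (Sum.inr ⟨j, hj⟩))
        rw [map_pow] at h2
        exact pow_eq_zero_iff (hpos _).ne' |>.1 h2) none
  refine ⟨s', _, _, stage_inv hc a f hm φ y h (hpos _) μ z
    (∑ x, C (τ (some x)) * μ.push (w (some x))) hz
    (Ideal.sum_mem _ fun x _ => Ideal.mul_mem_left _ _ (Ideal.mem_map_of_mem _ ?_))
    (τ none) hτ ?_⟩
  · rcases x with ⟨⟨i, hi⟩, p⟩ | ⟨j, hj⟩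
    · exact Ideal.mul_mem_right _ _ (Ideal.subset_span (Or.inl ⟨i, hi, rfl⟩))
    · have h1 : y j ∈ stGens f s φ y m := Or.inr (Or.inl ⟨j, hj, rfl⟩)
      exact Ideal.pow_mem_of_mem _ (Ideal.subset_span h1) _ (hpos _)
  · rw [Fintype.sum_option, add_comm] at hg
    exact hg

end Vale.Agent.P200.H
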