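import Vale.Agent.P200.H.Defs

/-! Transport of blocks and arithmetic of the degree. -/

open MvPolynomial Finset

namespace Vale.Agent.P200.H

open Vale.Agent.P200.G Vale.Agent.P200.Eq

universe u

theorem Rich.map {F F' : Type u} [Field F] [Field F'] (h : Rich F) (φ : F →+* F') : Rich F' :=
  haveI := h.1
  ⟨Infinite.of_injective φ φ.injective, fun m hm => by
    obtain ⟨ζ, hζ⟩ := h.2 m fun h0 => hm (by rw [← map_natCast φ, h0, map_zero])
    exact ⟨φ ζ, hζ.map_of_injective φ.injective⟩⟩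

theorem rich_of_isAlgClosed (k : Type u) [Field k] [IsAlgClosed k] : Rich k :=
  ⟨inferInstance, fun m hm => by
    have := NeZero.mk hm
    have := NeZero.mk (n := m) fun h => hm (by rw [h, Nat.cast_zero])
    exact HasEnoughRootsOfUnity.exists_primitiveRoot k m⟩

theorem Rich.exists_deg {F : Type u} [Field F] (h : Rich F) {d : ℕ} (hd : 0 < d) :
    ∃ (q e d' : ℕ) (ζ : F), ExpChar F q ∧ d = q ^ e * d' ∧ IsPrimitiveRoot ζ d' := by
  obtain ⟨p, hp⟩ := ExpChar.exists F
  obtain ⟨e, m, hm, h1⟩ : ∃ e m : ℕ, (m : F) ≠ 0 ∧ d = p ^ e * m := by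
    cases hp with
    | zero => exact ⟨0, d, Nat.cast_ne_zero.2 hd.ne', by simp⟩
    | prime hp =>
      obtain ⟨e, m, h1, h2⟩ := Nat.exists_eq_pow_mul_and_not_dvd hd.ne' p hp.ne_one
      exact ⟨e, m, fun h => h1 ((CharP.cast_eq_zero_iff F p m).1 h), h2⟩
  obtain ⟨ζ, hζ⟩ := h.2 m hm
  exact ⟨p, e, m, ζ, hp, h1, hζ⟩

theorem sep_of {K : Type u} [Field K] {q e A A' : ℕ} [ExpChar K q] (hq : A = q ^ e * A') {ζ : K}
    (hζ : IsPrimitiveRoot ζ A') {d : ℕ} (hd : d ∣ A) (hlt : d < A) (h : ζ ^ d = 1) :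
    ((A / d : ℕ) : K) = 0 := by
  obtain ⟨d', rfl⟩ := hζ.dvd_of_pow_eq_one d h
  obtain ⟨m, hm⟩ := hd
  have h0 : 0 < A' * d' := Nat.pos_of_ne_zero fun h0 => by
    rw [h0, zero_mul] at hm
    omega
  have h1 : m ≠ 1 := by
    rintro rfl
    omega
  have h2 : m ∣ q ^ e := Dvd.intro_left d' (Nat.eq_of_mul_eq_mul_left (Nat.pos_of_mul_pos_right h0)
    (by rw [← mul_assoc, ← hm, hq, mul_comm]))
  rw [hm, Nat.mul_div_cancel_left _ h0]
  cases ‹ExpChar K q› with
  | zero => exact absurd (by simpa using h2) h1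
  | prime hp =>
    obtain ⟨k, -, rfl⟩ := (Nat.dvd_prime_pow hp).1 h2
    rw [Nat.cast_pow, CharP.cast_eq_zero, zero_pow fun hk => h1 (by rw [hk, pow_zero])]

section

variable {F D : Type u} [Field F] [DivisionRing D] [Algebra F D] {ζ : F} {A A' M : ℕ}

theorem stB_adjoin {F' D' : Type u} [Field F'] [DivisionRing D'] [Algebra F' D'] (φF : F →+* F')
    (φ : D →+* D') (h : ∀ c, φ (algebraMap F D c) = algebraMap F' D' (φF c)) {a x : D}
    (hx : x ∈ Algebra.adjoin F {a}) : φ x ∈ Algebra.adjoin F' {φ a} := by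
  induction hx using Algebra.adjoin_induction with
  | mem x hx => exact Algebra.subset_adjoin (by rw [Set.mem_singleton_iff.1 hx]; rfl)
  | algebraMap c => rw [h]; exact Subalgebra.algebraMap_mem _ _
  | add x y _ _ hx hy => rw [map_add]; exact add_mem hx hy
  | mul x y _ _ hx hy => rw [map_mul]; exact mul_mem hx hy

/-- transport of blocks -/
noncomputable def Blk.map {F' D' : Type u} [Field F'] [DivisionRing D'] [Algebra F' D']
    (B : Blk F D ζ A A' M) (φF : F →+* F') (φ : D →+* D')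
    (h : ∀ c, φ (algebraMap F D c) = algebraMap F' D' (φF c)) : Blk F' D' (φF ζ) A A' M where
  γ r := φ (B.γ r)
  v r := φ (B.v r)
  a r := φ (B.a r)
  g r := MvPolynomial.map φF (B.g r)
  γ0 r := (map_ne_zero φ).2 (B.γ0 r)
  v0 r := (map_ne_zero φ).2 (B.v0 r)
  γA r := by
    obtain ⟨c, hc⟩ := B.γA r
    exact ⟨φF c, by rw [← map_pow, hc, h]⟩
  vA r := by
    obtain ⟨c, hc⟩ := B.vA r
    exact ⟨φF c, by rw [← map_pow, hc, h]⟩
  aa r t := (B.aa r t).map φ
  vγ r := by
    rw [← map_mul, B.vγ, Algebra.smul_def, Algebra.smul_def, map_mul, h, map_mul]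
  va' r t hrt := (B.va' r t hrt).map φ
  vv r t hrt := by
    rw [← map_mul, B.vv r t hrt, Algebra.smul_def, Algebra.smul_def, map_mul, h, map_mul]
  γa r := stB_adjoin φF φ h (B.γa r)
  va r := by
    rw [← map_inv₀, ← map_mul, ← map_mul]
    exact stB_adjoin φF φ h (B.va r)
  av r k h0 hk hc := B.av r k h0 hk (φ.injective (by
    rw [map_mul, map_mul, map_pow]
    exact hc))
  gh r := (B.gh r).map _
  hg r := by
    rw [← amap_inc φF φ h, ← B.hg, map_pow, amap_lin]
    congr 2
    funext i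
    fin_cases i <;> simp

theorem Blk.exists_pull {E : Type u} [DivisionRing E] [Algebra F E] (ι : E →ₐ[F] D)
    (B : Blk F D ζ A A' M) (ha : ∀ r, ∃ e, ι e = B.a r) (hv : ∀ r, ∃ e, ι e = B.v r) :
    ∃ B' : Blk F E ζ A A' M, (∀ r, ι (B'.a r) = B.a r) ∧ (∀ r, ι (B'.v r) = B.v r) ∧
      ∀ r, B'.g r = B.g r := by
  choose a ha using ha
  choose v hv using hv
  have hi : Function.Injective ι := (ι : E →+* D).injective
  have key : ∀ r, ∀ x ∈ Algebra.adjoin F {B.a r}, ∃ y ∈ Algebra.adjoin F {a r}, ι y = x :=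
    fun r x h => by
      rw [← ha, ← AlgHom.map_adjoin_singleton] at h
      exact h
  choose γ hγa hγ using fun r => key r _ (B.γa r)
  refine ⟨{ γ := γ
            v := v
            a := a
            g := B.g
            γ0 := fun r h => B.γ0 r (by rw [← hγ, h, map_zero])
            v0 := fun r h => B.v0 r (by rw [← hv, h, map_zero])
            γA := fun r => (B.γA r).imp fun c hc => hi (by rw [map_pow, hγ, hc, ι.commutes])
            vA := fun r => (B.vA r).imp fun c hc => hi (by rw [map_pow, hv, hc, ι.commutes])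
            aa := fun r t => hi (by rw [map_mul, map_mul, ha, ha]; exact B.aa r t)
            vγ := fun r => hi (by rw [map_smul, map_mul, map_mul, hγ, hv]; exact B.vγ r)
            va' := fun r t h => hi (by rw [map_mul, map_mul, ha, hv]; exact B.va' r t h)
            vv := fun r t h => hi (by rw [map_smul, map_mul, map_mul, hv, hv]; exact B.vv r t h)
            γa := hγa
            va := fun r => ?_
            av := fun r k h0 hk h => B.av r k h0 hk ?_
            gh := B.gh
            hg := fun r => amap_injective (φ := (ι : E →+* D)) hi ?_ }, ha, hv, fun _ => rfl⟩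
  · obtain ⟨y, h1, h2⟩ := key r _ (B.va r)
    rw [← hv, ← ha, ← map_inv₀, ← map_mul, ← map_mul] at h2
    exact hi h2 ▸ h1
  · have h1 := h.map ι
    rwa [map_pow, ha, hv] at h1
  · rw [amap_inc (RingHom.id F) (ι : E →+* D) ι.commutes, map_id, ← B.hg, map_pow, amap_lin]
    congr 2
    funext i
    fin_cases i <;> simp [ha, hv]

end

end Vale.Agent.P200.H
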