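import Vale.Agent.P200.H.Bin
import Vale.Agent.P200.H.StB

/-! Forms become sums of binary products. -/

open MvPolynomial Finset

namespace Vale.Agent.P200.H

open Vale.Agent.P200.G Vale.Agent.P200.Eq

universe u

theorem binz_one {n d : ℕ} (hd : 1 ≤ d) (h : StepP.{u} n d) (s : St.{u} n) (hs : Rich s.F)
    {u : MvPolynomial s.O s.F} (hu : u.IsHomogeneous d) :
    ∃ (s' : St.{u} n) (μ : Mor s s'), ∀ p,
      ∃ b ∈ Bin s'.O s'.F (d + 1), s'.Good (μ.push (X p * u) - b) := by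
  obtain ⟨s', μ, y, τ, hy, hτ, hg⟩ := h s hs (Option s.O) (fun i => i.elim u fun q => X q ^ d)
    (fun i => by
      cases i with
      | none => exact hu
      | some q => exact isHomogeneous_X_pow q d)
    (fun Ω _ _ χ _ h0 p => by
      have h1 : aeval χ (X p ^ d : MvPolynomial s.O s.F) = 0 := h0 (some p)
      rw [map_pow, aeval_X] at h1
      exact pow_eq_zero_iff (by omega) |>.1 h1) none
  have hX := fun q => isHomogeneous_X s'.F (μ.e q)
  refine ⟨s', μ, fun p => ⟨(τ none)⁻¹ • (y ^ d * X (μ.e p) ^ 1 -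
    ∑ q, τ (some q) • (X (μ.e q) ^ d * X (μ.e p) ^ 1)), Submodule.smul_mem _ _ (Submodule.sub_mem _
      (pow_mul_mem_Bin hy (hX p) rfl) (Submodule.sum_mem _ fun q _ =>
        Submodule.smul_mem _ _ (pow_mul_mem_Bin (hX q) (hX p) rfl))), ?_⟩⟩
  have h1 := s'.gd.mul_mem_left (-(C (τ none)⁻¹ * X (μ.e p))) (St.mem_gd.2 hg)
  have h2 : (C (τ none)⁻¹ * C (τ none) : MvPolynomial s'.O s'.F) = 1 := by
    rw [← map_mul, inv_mul_cancel₀ hτ, map_one]
  simp only [Fintype.sum_option, Option.elim, map_pow, Mor.push_X] at h1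
  simp only [map_mul, Mor.push_X, smul_eq_C_mul, pow_one, ← mul_assoc, ← Finset.sum_mul]
  refine St.mem_gd.1 (Eq.mp (congrArg (· ∈ s'.gd) ?_) h1)
  linear_combination X (μ.e p) * μ.push u * h2

theorem binz_all {n d : ℕ} (hd : 1 ≤ d) (h : StepP.{u} n d) (s : St.{u} n) (hs : Rich s.F)
    (T : Finset (s.O →₀ ℕ)) (hT : ∀ m ∈ T, m.degree = d) :
    ∃ (s' : St.{u} n) (μ : Mor s s'), ∀ m ∈ T, ∀ p,
      ∃ b ∈ Bin s'.O s'.F (d + 1), s'.Good (μ.push (X p * monomial m 1) - b) := by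
  classical
  induction T using Finset.induction_on with
  | empty => exact ⟨s, Mor.refl s, fun m hm => absurd hm (Finset.notMem_empty m)⟩
  | insert m T _ ih =>
    obtain ⟨s', μ, H⟩ := ih fun m hm => hT m (mem_insert_of_mem hm)
    obtain ⟨s'', ν, H'⟩ := binz_one hd h s' (hs.map μ.φF)
      (μ.push_hom (isHomogeneous_monomial 1 (hT m (mem_insert_self m T))))
    refine ⟨s'', μ.trans ν, fun m' hm' p => ?_⟩
    rw [Mor.push_trans]
    rcases mem_insert.1 hm' with rfl | hm'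
    · rw [map_mul, Mor.push_X]
      exact H' _
    · obtain ⟨b, hb, hg⟩ := H m' hm' p
      exact ⟨ν.push b, rename_mem_Bin _ (map_mem_Bin _ hb), map_sub ν.push _ _ ▸ ν.good_push hg⟩

theorem binarize {n d : ℕ} (hd : 1 ≤ d) (h : StepP.{u} n d) (s : St.{u} n) (hs : Rich s.F) :
    ∃ (s' : St.{u} n) (μ : Mor s s'), ∀ w : MvPolynomial s.O s.F, w.IsHomogeneous (d + 1) →
      ∃ b ∈ Bin s'.O s'.F (d + 1), s'.Good (μ.push w - b) := by
  obtain ⟨s', μ, H⟩ := binz_all hd h s hs (Finsupp.finite_of_degree_eq d).toFinset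
    fun m hm => (Finsupp.finite_of_degree_eq d).mem_toFinset.1 hm
  refine ⟨s', μ, fun w hw => ?_⟩
  have h1 : ∀ m ∈ w.support,
      ∃ b ∈ Bin s'.O s'.F (d + 1), μ.push (monomial m (coeff m w)) - b ∈ s'.gd := by
    intro m hm
    have h2 : m.degree = d + 1 := by
      by_contra h2
      exact mem_support_iff.1 hm (hw.coeff_eq_zero h2)
    obtain ⟨p, hp⟩ : ∃ p, m p ≠ 0 := by
      by_contra! h3
      rw [show m = 0 from Finsupp.ext h3, map_zero] at h2
      omega
    obtain ⟨m', rfl⟩ : ∃ m', m = Finsupp.single p 1 + m' :=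
      ⟨_, (add_tsub_cancel_of_le (Finsupp.single_le_iff.2 (Nat.one_le_iff_ne_zero.2 hp))).symm⟩
    rw [map_add, Finsupp.degree_single] at h2
    obtain ⟨b, hb, hg⟩ := H m' ((Set.Finite.mem_toFinset _).2 (show m'.degree = d by omega)) p
    generalize coeff (Finsupp.single p 1 + m') w = c
    refine ⟨μ.φF c • b, Submodule.smul_mem _ _ hb, ?_⟩
    rw [show monomial (Finsupp.single p 1 + m') c = C c * (X p * monomial m' 1) by
      rw [X, monomial_mul, C_mul_monomial, mul_one, mul_one], map_mul, Mor.push_C, smul_eq_C_mul,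
      ← mul_sub]
    exact s'.gd.mul_mem_left _ hg
  choose! b hb hg using h1
  refine ⟨∑ m ∈ w.support, b m, Submodule.sum_mem _ hb, St.mem_gd.1 ?_⟩
  conv => enter [2, 1]; rw [w.as_sum, map_sum]
  rw [← Finset.sum_sub_distrib]
  exact Ideal.sum_mem _ hg


end Vale.Agent.P200.H
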