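import Vale.Agent.P200.H.Bin

/-! The relations in the binary span cut out the points. -/

open MvPolynomial Finset

namespace Vale.Agent.P200.H

open Vale.Agent.P200.G Vale.Agent.P200.Eq

universe u

theorem prep_zero {J : Type} {F Ω : Type u} [Field F] [Field Ω] [Algebra F Ω]
    {Q : MvPolynomial J F} {k m : ℕ} (hQ : Q.IsHomogeneous k) (hk : k ≠ 0) {η : J → Ω}
    (h : ∀ j, aeval η (Q * X j ^ m) = 0) : aeval η Q = 0 := by
  by_cases h0 : ∀ j, η j = 0
  · have e : η = 0 := funext h0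
    rw [e, aeval_zero, constantCoeff_eq, hQ.coeff_eq_zero (by simpa using hk.symm), map_zero]
  · push Not at h0
    obtain ⟨j, hj⟩ := h0
    have := h j
    rw [map_mul, map_pow, aeval_X] at this
    exact (mul_eq_zero.1 this).resolve_right (pow_ne_zero _ hj)

theorem prep_of {n : ℕ} (s : St.{u} n) [Infinite s.F] (h3 : (2 : s.F) = 0 → Prep s 3) {d : ℕ}
    (hd : 2 ≤ d) : Prep s d := by
  by_cases h : (2 : s.F) ≠ 0 ∨ Even d
  · refine ⟨s, Mor.refl s, s.O, inferInstance, id, id, fun _ => rfl, fun Ω _ _ η hη =>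
      ⟨fun Q hQ h0 => ?_, fun h j => h j⟩⟩
    have e : rename (id : s.O → s.O) (map (Mor.refl s).φF Q) = Q := Mor.push_refl Q
    rw [e]
    refine prep_zero (m := d - 2) hQ (by norm_num) fun j => ?_
    refine hη _ (binQ h hd hQ (isHomogeneous_X _ j)) ?_
    rw [rename_id_apply]
    exact St.mem_gd.1 (Ideal.mul_mem_right _ _ (St.mem_gd.2 (St.good_two hQ h0)))
  · push Not at h
    obtain ⟨h2, hodd⟩ := h
    have hodd' : Odd d := Nat.not_even_iff_odd.1 hodd
    have hd3 : 3 ≤ d := by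
      obtain ⟨k, hk⟩ := hodd'
      omega
    obtain ⟨s', μ, J, _, κ, e, hκ, H⟩ := h3 h2
    have : Infinite s'.F := Infinite.of_injective μ.φF μ.φF.injective
    have h2' : (2 : s'.F) = 0 := by
      rw [← map_ofNat μ.φF 2, h2, map_zero]
    refine ⟨s', μ, J, inferInstance, κ, e, hκ, fun Ω _ _ η hη => H Ω η fun Q hQ hg => ?_⟩
    refine prep_zero (m := d - 3) (hom_of_mem_Bin hQ) (by norm_num) fun j => ?_
    refine hη _ (binD h2' hodd' hd3 hQ (isHomogeneous_X _ j)) ?_
    rw [map_mul]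
    exact St.mem_gd.1 (Ideal.mul_mem_right _ _ (St.mem_gd.2 hg))

end Vale.Agent.P200.H
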