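import Vale.Agent.P200.G.Graft

/-! Grafting with the inclusion of the new forms exported. -/

open MvPolynomial

namespace Vale.Agent.P200.H

open Vale.Agent.P200.G Vale.Agent.P200.Eq

universe u

theorem graft' {n : ℕ} (s : St.{u} n) (t : St.{u} 2) (φF : s.F →+* t.F) (φ : s.D →+* t.D)
    (halg : ∀ c, φ (algebraMap s.F s.D c) = algebraMap t.F t.D (φF c))
    (hcomm : ∀ e p i, Commute (φ e) (t.ω p i)) (hz : t.Zero)
    (l : Fin 2 → MvPolynomial s.O s.F) (hl : ∀ ε, (l ε).IsHomogeneous 1) :
    ∃ (s' : St.{u} n) (μ : Mor s s') (ψ : t.F →+* s'.F) (κ : t.O → s'.O),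
      (∀ P, t.Good P → s'.Good (rename κ (map ψ P))) ∧
      ∀ ε, s'.Good (X (κ (t.xs ε)) - μ.push (l ε)) := by
  classical
  choose c hc hev using fun ε => s.exists_lin (hl ε)
  set d : Fin 2 → Fin n → s.D := fun ε => ∑ p, c ε p • s.ω p with hd
  have hZ : ∀ ε, (lin fun i => φ (d ε i)) = amap n φ (s.ev (l ε)) := fun ε => by
    rw [hev, amap_lin]
  have hW : ∀ p, (lin fun i => φ (s.ω p i)) = amap n φ (s.ev (X p)) := fun p => by
    rw [s.ev_X, amap_lin]
  obtain ⟨E, _, _, _, ι, hι⟩ := exists_cent (F := t.F) (Set.range φ)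
  have h : ∀ p i, ∃ e, ι e = t.ω p i := fun p i => (hι _).2 (by
    rintro _ ⟨e, rfl⟩
    exact (hcomm e p i).symm)
  have hcl : ∀ (x : t.D) (a : Fin n → s.D), (∀ e, Commute x (φ e)) →
      Commute (cst n x) (lin fun i => φ (a i)) := fun x a hx => by
    rw [Commute, SemiconjBy, cst_mul_lin, lin_mul_cst]
    exact congrArg lin (funext fun i => (hx _).eq)
  obtain ⟨sub, hs0, hs1⟩ := graft_sub ((cst n).comp (ι : E →+* t.D))
    (fun ε => lin fun i => φ (d ε i))
    (by
      rw [hZ, hZ]
      exact ((Commute.all _ _).map s.ev).map _)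
    (fun e ε => hcl _ _ fun x => (hι _).1 ⟨e, rfl⟩ _ ⟨x, rfl⟩)
  let ω' : s.O ⊕ t.O → Fin n → t.D :=
    Sum.elim (fun p i => φ (s.ω p i)) fun p i => ∑ ε, t.ω p ε * φ (d ε i)
  have hr : ∀ p, lin (ω' (Sum.inr p)) = ∑ ε, cst n (t.ω p ε) * lin fun i => φ (d ε i) := fun p => by
    simp only [cst_mul_lin]
    rw [← lin_sum]
    exact congrArg lin (funext fun i => by simp [ω'])
  have hr' : ∀ p, lin (ω' (Sum.inr p)) = sub ((t.res ι h).ev (X p)) := fun p => by
    rw [hr, St.ev_X, hs1]
    refine Finset.sum_congr rfl fun ε _ => ?_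
    congr 1
    exact congrArg (cst n) (t.res_ω ι h p ε).symm
  have hlr : ∀ p q, Commute (lin (ω' (Sum.inl p))) (lin (ω' (Sum.inr q))) := fun p q => by
    rw [hr]
    refine Commute.sum_right _ _ _ fun ε _ => Commute.mul_right ?_ ?_
    · exact (hcl _ _ fun e => (hcomm e q ε).symm).symm
    · change Commute (lin fun i => φ (s.ω p i)) _
      rw [hZ, hW]
      exact ((Commute.all _ _).map s.ev).map _
  obtain ⟨ev', hev'⟩ := exists_aeval (K := t.F) (fun p => lin (ω' p)) (by
    rintro (p | p) (q | q)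
    · change Commute (lin fun i => φ (s.ω p i)) (lin fun i => φ (s.ω q i))
      rw [hW, hW]
      exact ((Commute.all _ _).map s.ev).map _
    · exact hlr p q
    · exact (hlr q p).symm
    · rw [hr', hr']
      exact ((Commute.all _ _).map (t.res ι h).ev).map _)
  let s' : St.{u} n :=
    { F := t.F
      D := t.D
      O := s.O ⊕ t.O
      ω := ω'
      ev := ev'
      ev_X := hev'
      xs := fun i => Sum.inl (s.xs i)
      ω_xs := fun i => by
        funext j
        change φ (s.ω (s.xs i) j) = _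
        rw [s.ω_xs]
        by_cases hj : j = i
        · subst hj; simp
        · simp [hj] }
  have hkey : ∀ Q : MvPolynomial t.O t.F,
      ev' (rename Sum.inr Q) = sub ((t.res ι h).ev Q) := fun Q => by
    induction Q using MvPolynomial.induction_on with
    | C a =>
      rw [rename_C, ← algebraMap_eq, ← algebraMap_eq, AlgHom.commutes, AlgHom.commutes,
        algebraMap_alg, algebraMap_alg, hs0]
      exact congrArg (cst n) (ι.commutes a).symm
    | add p q hp hq => simp only [map_add, hp, hq]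
    | mul_X p i hp => rw [map_mul, map_mul, map_mul, map_mul, hp, rename_X, hev', hr']
  have hpt : ∀ (Ω : Type u) [Field Ω] [Algebra t.F Ω] (χ : s.O ⊕ t.O → Ω), s'.Pt Ω χ →
      t.Pt Ω (χ ∘ Sum.inr) := fun Ω _ _ χ hχ Q hQ h0 => by
    rw [← aeval_rename]
    refine hχ _ hQ.rename_isHomogeneous ?_
    change ev' _ = 0
    rw [hkey, (t.res_ev_eq_zero ι h Q).2 h0, map_zero]
  have hgood : ∀ P, t.Good P → s'.Good (rename Sum.inr P) := fun P hP =>
    ⟨by
      change ev' _ = 0
      rw [hkey, (t.res_ev_eq_zero ι h P).2 hP.1, map_zero], fun Ω _ _ χ hχ => by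
      change aeval χ (rename Sum.inr P) = 0
      rw [aeval_rename]
      exact hP.2 Ω _ (hpt Ω χ hχ)⟩
  have hevl : ∀ P : MvPolynomial s.O s.F,
      ev' (rename Sum.inl (map φF P)) = amap n φ (s.ev P) := fun P => by
    induction P using MvPolynomial.induction_on with
    | C a =>
      rw [map_C, rename_C, ← algebraMap_eq, ← algebraMap_eq, AlgHom.commutes, AlgHom.commutes,
        algebraMap_alg, algebraMap_alg, amap_cst, halg]
    | add p q hp hq => simp only [map_add, hp, hq]
    | mul_X p i hp =>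
      rw [map_mul, map_mul, map_mul, map_mul, map_mul, hp, map_X, rename_X, hev', ← hW]
      rfl
  have hlin : ∀ ε, s'.Good (X (Sum.inr (t.xs ε)) - rename Sum.inl (map φF (l ε))) := fun ε => by
    refine St.good_lin ((isHomogeneous_X _ _).sub ((hl ε).map _).rename_isHomogeneous) ?_
    change ev' _ = 0
    rw [map_sub, hev', hevl, hr, t.ω_xs, ← hZ, sub_eq_zero, Finset.sum_eq_single ε]
    · simp
    · intro b _ hb
      simp [hb]
    · simp
  let μ : Mor s s' :=
    { φF := φF
      φ := φ
      alg := halg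
      e := Sum.inl
      ω_e := fun _ _ => rfl
      xs_e := fun _ => rfl
      comm := fun x hx p i => by
        rcases p with p | p
        · exact (hx p i).map φ
        · change Commute (φ x) (∑ ε, t.ω p ε * φ (d ε i))
          refine Commute.sum_right _ _ _ fun ε _ => (hcomm x p ε).mul_right (Commute.map ?_ φ)
          simp only [hd, Finset.sum_apply, Pi.smul_apply]
          exact Commute.sum_right _ _ _ fun q _ => (hx q i).smul_right _
      zero := fun Ω _ _ χ hχ h0 p => by
        rcases p with p | p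
        · exact h0 p
        · refine hz Ω _ (hpt Ω χ hχ) (fun ε => ?_) p
          have h1 := (hlin ε).2 Ω χ hχ
          have h2 : aeval χ (rename Sum.inl (map φF (l ε)) : MvPolynomial (s.O ⊕ t.O) t.F) = 0 := by
            rw [hc ε]
            simp [smul_eq_C_mul, h0]
          change aeval χ (X (Sum.inr (t.xs ε)) - rename Sum.inl (map φF (l ε)) :
            MvPolynomial (s.O ⊕ t.O) t.F) = 0 at h1
          rw [map_sub, h2, sub_zero, aeval_X] at h1
          exact h1 }
  exact ⟨s', μ, RingHom.id _, Sum.inr, fun P hP => by rw [map_id]; exact hgood P hP, hlin⟩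

end Vale.Agent.P200.H
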