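import Vale.Agent.P200.H.Bin
import Vale.Agent.P200.H.Graft

/-! Cubic relations cut out the points in characteristic two. -/

open MvPolynomial Finset

namespace Vale.Agent.P200.H

open Vale.Agent.P200.G Vale.Agent.P200.Eq

universe u

section

variable {n m : ℕ} {J J' : Type}

theorem prep3_aeval {F F' Ω : Type u} [Field F] [Field F'] [Field Ω] [Algebra F Ω] [Algebra F' Ω]
    {ψ : F →+* F'} (h : ∀ c, algebraMap F Ω c = algebraMap F' Ω (ψ c)) (η : J' → Ω) (i : J → J')
    (P : MvPolynomial J F) : aeval η (rename i (map ψ P)) = aeval (fun j => η (i j)) P := by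
  induction P using MvPolynomial.induction_on with
  | C a => simp [h]
  | add p q hp hq => simp only [map_add, hp, hq]
  | mul_X p j hp => simp only [map_mul, hp, map_X, rename_X, aeval_X]

/-- good relations that vanish at the points -/
def prep3Nl (s : St.{u} n) (κ : J → s.O) : Ideal (MvPolynomial J s.F) where
  carrier := {P | s.Good (rename κ P) ∧ ∀ (Ω : Type u) [Field Ω] [Algebra s.F Ω] (η : J → Ω),
    BPt s κ 3 η → aeval η P = 0}
  add_mem' := fun ha hb => ⟨by rw [map_add]; exact s.gd.add_mem ha.1 hb.1, fun Ω _ _ η h => by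
    rw [map_add, ha.2 Ω η h, hb.2 Ω η h, add_zero]⟩
  zero_mem' := ⟨by rw [map_zero]; exact s.gd.zero_mem, fun _ _ _ _ _ => map_zero _⟩
  smul_mem' := fun c _ hb => ⟨by rw [smul_eq_mul, map_mul]; exact s.gd.mul_mem_left _ hb.1,
    fun Ω _ _ η h => by rw [smul_eq_mul, map_mul, hb.2 Ω η h, mul_zero]⟩

/-- combinations of squares of variables -/
noncomputable def prep3Sq (J : Type) (F : Type u) [Field F] : Submodule F (MvPolynomial J F) :=
  Submodule.span F (Set.range fun j => X j ^ 2)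

/-- reduction to squares -/
def prep3Red (s : St.{u} n) (κ : J → s.O) (P : MvPolynomial J s.F) : Prop :=
  ∃ R ∈ prep3Sq J s.F, P - R ∈ prep3Nl s κ

theorem prep3_lin {s : St.{u} n} {κ : J → s.O} {L : MvPolynomial J s.F} (hL : L.IsHomogeneous 1)
    (h : s.Good (rename κ L)) : L ∈ prep3Nl s κ := by
  refine ⟨h, fun Ω _ _ η hη => ?_⟩
  have h1 := hη _ (pow_mul_mem_Bin hL hL (show 2 + 1 = 3 from rfl)) (by
    rw [map_mul, pow_one]
    exact s.gd.mul_mem_left _ h)
  rw [← pow_add, map_pow] at h1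
  exact pow_eq_zero_iff (by norm_num) |>.1 h1

section

variable {s : St.{u} n} {t : St.{u} m} {ψ : s.F →+* t.F} {ν : s.O → t.O} {κ : J → s.O}
  {κ' : J' → t.O} {i : J → J'}

theorem prep3_good (hg : ∀ P, s.Good P → t.Good (rename ν (map ψ P)))
    (hi : ∀ j, κ' (i j) = ν (κ j)) {P : MvPolynomial J s.F} (h : s.Good (rename κ P)) :
    t.Good (rename κ' (rename i (map ψ P))) := by
  have h1 := hg _ h
  rw [map_rename, rename_rename] at h1
  rw [rename_rename, show κ' ∘ i = ν ∘ κ from funext hi]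
  exact h1

theorem prep3_pt (hg : ∀ P, s.Good P → t.Good (rename ν (map ψ P)))
    (hi : ∀ j, κ' (i j) = ν (κ j)) {Ω : Type u} [Field Ω] [Algebra s.F Ω] [Algebra t.F Ω]
    (h : ∀ c, algebraMap s.F Ω c = algebraMap t.F Ω (ψ c)) {η : J' → Ω} (hη : BPt t κ' 3 η) :
    BPt s κ 3 fun j => η (i j) := fun Q hQ h0 => by
  rw [← prep3_aeval h]
  exact hη _ (rename_mem_Bin i (map_mem_Bin ψ hQ)) (prep3_good hg hi h0)

theorem prep3_red (hg : ∀ P, s.Good P → t.Good (rename ν (map ψ P)))
    (hi : ∀ j, κ' (i j) = ν (κ j)) {P : MvPolynomial J s.F} (h : prep3Red s κ P) :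
    prep3Red t κ' (rename i (map ψ P)) := by
  obtain ⟨R, hR, h1, h2⟩ := h
  refine ⟨rename i (map ψ R), ?_, ?_⟩
  · clear h1 h2
    induction hR using Submodule.span_induction with
    | mem x hx =>
      obtain ⟨j, rfl⟩ := hx
      exact Submodule.subset_span ⟨i j, by simp⟩
    | zero => simp
    | add x y _ _ hx hy => rw [map_add, map_add]; exact add_mem hx hy
    | smul c x _ hx =>
      rw [smul_eq_C_mul, map_mul, map_mul, map_C, rename_C, ← smul_eq_C_mul]
      exact Submodule.smul_mem _ _ hx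
  · rw [← map_sub, ← map_sub]
    refine ⟨prep3_good hg hi h1, fun Ω _ _ η hη => ?_⟩
    let : Algebra s.F Ω := ((algebraMap t.F Ω).comp ψ).toAlgebra
    rw [prep3_aeval fun _ => rfl]
    exact h2 Ω _ (prep3_pt hg hi (fun _ => rfl) hη)

end

theorem prep3_end {s : St.{u} n} {κ : J → s.O} {P : MvPolynomial J s.F} (h : prep3Red s κ P)
    (hP : s.Good (rename κ P)) {Ω : Type u} [Field Ω] [Algebra s.F Ω] {η : J → Ω}
    (hη : BPt s κ 3 η) : aeval η P = 0 := by
  obtain ⟨R, hR, h1, h2⟩ := h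
  have h3 : rename κ R ∈ s.gd := by
    have := s.gd.sub_mem hP h1
    rwa [← map_sub, sub_sub_cancel] at this
  have h4 : (∀ j, R * X j ∈ Bin J s.F 3) ∧ ((∀ j, η j = 0) → aeval η R = 0) := by
    clear h1 h2 h3
    induction hR using Submodule.span_induction with
    | mem x hx =>
      obtain ⟨k, rfl⟩ := hx
      refine ⟨fun j => ?_, fun h0 => by simp [h0]⟩
      simpa using pow_mul_mem_Bin (isHomogeneous_X s.F k) (isHomogeneous_X s.F j)
        (show 2 + 1 = 3 from rfl)
    | zero => simp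
    | add x y _ _ hx hy =>
      exact ⟨fun j => by rw [add_mul]; exact add_mem (hx.1 j) (hy.1 j), fun h0 => by
        rw [map_add, hx.2 h0, hy.2 h0, add_zero]⟩
    | smul c x _ hx =>
      exact ⟨fun j => by rw [smul_mul_assoc]; exact Submodule.smul_mem _ _ (hx.1 j), fun h0 => by
        rw [map_smul, hx.2 h0, smul_zero]⟩
  have h5 : aeval η R = 0 := by
    by_contra h0
    refine h0 (h4.2 fun j => ?_)
    have h6 := hη _ (h4.1 j) (by rw [map_mul]; exact s.gd.mul_mem_right _ h3)
    rw [map_mul, aeval_X] at h6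
    exact (mul_eq_zero.1 h6).resolve_left h0
  have h6 := h2 Ω η hη
  rwa [map_sub, h5, sub_zero] at h6

theorem prep3_two {s : St.{u} n} {κ : J → s.O} {e : J' → J}
    (h : ∀ p q, prep3Red s κ (X (e p) * X (e q))) {Q : MvPolynomial J' s.F}
    (hQ : Q.IsHomogeneous 2) : prep3Red s κ (rename e Q) := by
  rw [← mem_homogeneousSubmodule, ← homogeneousSubmodule_one_pow,
    homogeneousSubmodule_one_eq_span_X, sq, Submodule.span_mul_span] at hQ
  induction hQ using Submodule.span_induction with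
  | mem x hx =>
    obtain ⟨_, ⟨p, rfl⟩, _, ⟨q, rfl⟩, rfl⟩ := hx
    simpa using h p q
  | zero => exact ⟨0, zero_mem _, by simp⟩
  | add x y _ _ hx hy =>
    obtain ⟨R, h1, h2⟩ := hx
    obtain ⟨R', h3, h4⟩ := hy
    exact ⟨R + R', add_mem h1 h3, by rw [map_add, add_sub_add_comm]; exact add_mem h2 h4⟩
  | smul c x _ hx =>
    obtain ⟨R, h1, h2⟩ := hx
    refine ⟨c • R, Submodule.smul_mem _ _ h1, ?_⟩
    rw [map_smul, ← smul_sub, smul_eq_C_mul]
    exact Ideal.mul_mem_left _ _ h2

end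

theorem prep_three {n : ℕ}
    (link4 : ∀ (F E : Type u) [Field F] [Infinite F] [DivisionRing E] [Algebra F E]
      [FiniteDimensional F E], (2 : F) = 0 →
      ∃ (t : St.{u} 2) (φF : F →+* t.F) (φ : E →+* t.D),
        (∀ c, φ (algebraMap F E c) = algebraMap t.F t.D (φF c)) ∧
        (∀ e p i, Commute (φ e) (t.ω p i)) ∧ t.Zero ∧ Quad t)
    (s : St.{u} n) [Infinite s.F] (h2 : (2 : s.F) = 0) : Prep s 3 := by
  classical
  have key : ∀ S : Finset (s.O × s.O), ∃ (s' : St.{u} n) (μ : Mor s s') (J : Type) (_ : Fintype J)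
      (κ : J → s'.O) (e : s.O → J), (∀ p, κ (e p) = μ.e p) ∧
      (∀ (Ω : Type u) [Field Ω] [Algebra s'.F Ω] (η : J → Ω), BPt s' κ 3 η →
        (∀ p, η (e p) = 0) → ∀ j, η j = 0) ∧
      ∀ x ∈ S, prep3Red s' κ (X (e x.1) * X (e x.2)) := by
    intro S
    induction S using Finset.induction_on with
    | empty =>
      exact ⟨s, Mor.refl s, s.O, inferInstance, id, id, fun _ => rfl, fun _ _ _ _ _ h => h, by simp⟩
    | insert x S _ ih =>
      obtain ⟨s', μ, J, _, κ, e, h1, h3, h4⟩ := ih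
      have : Infinite s'.F := Infinite.of_injective _ μ.φF.injective
      obtain ⟨t, φF, φ, k1, k2, k3, K, _, κt, et, c, k4, k5, k6⟩ :=
        link4 s'.F s'.D (by rw [← map_ofNat μ.φF 2, h2, map_zero])
      obtain ⟨s'', ν, ψ, κ', g1, g2⟩ := graft' s' t φF φ k1 k2 k3
        (fun ε => X (μ.e (![x.1, x.2] ε))) fun ε => isHomogeneous_X _ _
      have g3 : ∀ P, s'.Good P → s''.Good (rename ν.e (map ν.φF P)) := fun P hP => ν.good_push hP
      let κ'' : J ⊕ K → s''.O := Sum.elim (fun j => ν.e (κ j)) fun j => κ' (κt j)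
      have hL : ∀ ε, X (Sum.inr (et ε)) - X (Sum.inl (e (![x.1, x.2] ε))) ∈ prep3Nl s'' κ'' := by
        intro ε
        refine prep3_lin ((isHomogeneous_X _ _).sub (isHomogeneous_X _ _)) ?_
        have := g2 ε
        rw [Mor.push_X, ← k4, ← h1] at this
        rw [map_sub, rename_X, rename_X]
        exact this
      refine ⟨s'', μ.trans ν, J ⊕ K, inferInstance, κ'', fun p => Sum.inl (e p),
        fun p => congrArg ν.e (h1 p), fun Ω _ _ η hη h0 => ?_, fun y hy => ?_⟩
      · let : Algebra s'.F Ω := ((algebraMap s''.F Ω).comp ν.φF).toAlgebra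
        let : Algebra t.F Ω := ((algebraMap s''.F Ω).comp ψ).toAlgebra
        have a1 := h3 Ω _ (prep3_pt (i := Sum.inl) g3 (fun _ => rfl) (fun _ => rfl) hη) h0
        have a2 := (k6 Ω _ (prep3_pt (i := Sum.inr) g1 (fun _ => rfl) (fun _ => rfl) hη)).2
          fun ε => by
            have := (hL ε).2 Ω η hη
            rwa [map_sub, aeval_X, aeval_X, h0, sub_zero] at this
        rintro (j | j)
        · exact a1 j
        · exact a2 j
      · rcases Finset.mem_insert.1 hy with rfl | hy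
        · have a1 : prep3Red t κt (X (et 0) * X (et 1)) := by
            refine ⟨_, Submodule.sum_mem _ fun j _ => ?_, k5, fun Ω _ _ η hη => ?_⟩
            · rw [← smul_eq_C_mul]
              exact Submodule.smul_mem _ _ (Submodule.subset_span ⟨j, rfl⟩)
            · simpa [sub_eq_zero] using (k6 Ω η hη).1
          obtain ⟨R, a2, a3⟩ := prep3_red (κ' := κ'') (i := Sum.inr) g1 (fun _ => rfl) a1
          refine ⟨R, a2, ?_⟩
          have a4 := sub_mem (sub_mem a3 (Ideal.mul_mem_right (X (Sum.inr (et 1))) _ (hL 0)))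
            (Ideal.mul_mem_left _ (X (Sum.inl (e y.1))) (hL 1))
          simp only [map_mul, map_X, rename_X, Matrix.cons_val_zero, Matrix.cons_val_one] at a4
          refine (congrArg (· ∈ prep3Nl s'' κ'') ?_).mp a4
          ring
        · simpa using prep3_red (κ' := κ'') (i := Sum.inl) g3 (fun _ => rfl) (h4 y hy)
  obtain ⟨s', μ, J, _, κ, e, h1, h3, h4⟩ := key Finset.univ
  refine ⟨s', μ, J, inferInstance, κ, e, h1, fun Ω _ _ η hη => ⟨fun Q hQ h0 => ?_, h3 Ω η hη⟩⟩
  refine prep3_end (prep3_two (fun p q => h4 (p, q) (Finset.mem_univ _)) (hQ.map _)) ?_ hη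
  rw [rename_rename, show κ ∘ e = μ.e from funext h1]
  exact μ.good_push (St.good_two hQ h0)

end Vale.Agent.P200.H
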