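import Vale.Agent.P200.H.RDefs

/-! Vandermonde systems with commuting nodes in a division ring. -/

open Finset

namespace Vale.Agent.P200.H

open Vale.Agent.P200.G Vale.Agent.P200.Eq

universe u

open Matrix in
theorem vdm_map {R D : Type*} [CommRing R] [DivisionRing D] {A : ℕ} (φ : R →+* D)
    (U : Matrix (Fin A) (Fin A) R) (h : φ U.det ≠ 0) :
    (∃ W, W * U.map φ = 1) ∧ ∃ W, U.map φ * W = 1 := by
  have e : (U.det • (1 : Matrix (Fin A) (Fin A) R)).map φ = diagonal fun _ => φ U.det := by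
    rw [smul_one_eq_diagonal, diagonal_map (map_zero φ)]
  refine ⟨⟨(diagonal fun _ => (φ U.det)⁻¹) * U.adjugate.map φ, ?_⟩,
    U.adjugate.map φ * diagonal fun _ => (φ U.det)⁻¹, ?_⟩
  · rw [Matrix.mul_assoc, ← Matrix.map_mul, adjugate_mul, e, diagonal_mul_diagonal]
    simp only [inv_mul_cancel₀ h, diagonal_one]
  · rw [← Matrix.mul_assoc, ← Matrix.map_mul, mul_adjugate, e, diagonal_mul_diagonal]
    simp only [mul_inv_cancel₀ h, diagonal_one]

open Matrix in
open scoped IsMulCommutative in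
theorem vdm_core {D : Type*} [DivisionRing D] {A : ℕ} (a : Fin A → D)
    (hinj : Function.Injective a) (haa : ∀ k k', Commute (a k) (a k')) :
    (∃ W, W * (Matrix.of fun k i : Fin A => a k ^ i.val) = 1) ∧
    (∃ W, W * (Matrix.of fun i k : Fin A => a k ^ i.val) = 1) ∧
    ∃ W, (Matrix.of fun i k : Fin A => a k ^ i.val) * W = 1 := by
  have : IsMulCommutative (Subring.closure (Set.range a)) :=
    Subring.isMulCommutative_closure (by
      rintro _ ⟨k, rfl⟩ _ ⟨k', rfl⟩
      exact haa k k')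
  let a' : Fin A → Subring.closure (Set.range a) := fun k =>
    ⟨a k, Subring.subset_closure ⟨k, rfl⟩⟩
  have h1 : (vandermonde a').det ≠ 0 :=
    det_vandermonde_ne_zero_iff.2 fun k k' e => hinj (congrArg Subtype.val e)
  have h2 : (Subring.closure (Set.range a)).subtype (vandermonde a').det ≠ 0 :=
    fun e => h1 (Subtype.ext e)
  have h3 := vdm_map (Subring.closure (Set.range a)).subtype (vandermonde a') h2
  have h4 := vdm_map (Subring.closure (Set.range a)).subtype (vandermonde a')ᵀ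
    (by rwa [det_transpose])
  exact ⟨h3.1, h4⟩

theorem vdm_right {D ι : Type*} [DivisionRing D] {A : ℕ} [Fintype ι] (hA : Fintype.card ι = A)
    (a : ι → D) (hinj : Function.Injective a) (haa : ∀ k k', Commute (a k) (a k'))
    (c : Fin A → D) (h : ∀ k, ∑ i, c i * a k ^ i.val = 0) (i : Fin A) : c i = 0 := by
  let e := (Fintype.equivFinOfCardEq hA).symm
  obtain ⟨-, -, W, hW⟩ := vdm_core (a ∘ e) (hinj.comp e.injective) fun _ _ => haa _ _
  have h1 : Matrix.vecMul c (Matrix.of fun i k : Fin A => (a ∘ e) k ^ i.val) = 0 :=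
    funext fun k => h (e k)
  have h2 := congrArg (Matrix.vecMul · W) h1
  simp only [Matrix.vecMul_vecMul, hW, Matrix.vecMul_one, Matrix.zero_vecMul] at h2
  exact congrFun h2 i

theorem vdm_left {D ι : Type*} [DivisionRing D] {A : ℕ} [Fintype ι] (hA : Fintype.card ι = A)
    (a : ι → D) (hinj : Function.Injective a) (haa : ∀ k k', Commute (a k) (a k'))
    (c : Fin A → D) (h : ∀ k, ∑ i, a k ^ i.val * c i = 0) (i : Fin A) : c i = 0 := by
  let e := (Fintype.equivFinOfCardEq hA).symm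
  obtain ⟨⟨W, hW⟩, -⟩ := vdm_core (a ∘ e) (hinj.comp e.injective) fun _ _ => haa _ _
  have h1 : Matrix.mulVec (Matrix.of fun k i : Fin A => (a ∘ e) k ^ i.val) c = 0 :=
    funext fun k => h (e k)
  have h2 := congrArg (Matrix.mulVec W) h1
  simp only [Matrix.mulVec_mulVec, hW, Matrix.one_mulVec, Matrix.mulVec_zero] at h2
  exact congrFun h2 i

theorem vdm_tr {D ι : Type*} [DivisionRing D] {A : ℕ} [Fintype ι] (hA : Fintype.card ι = A)
    (a : ι → D) (hinj : Function.Injective a) (haa : ∀ k k', Commute (a k) (a k'))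
    (c : ι → D) (h : ∀ i : Fin A, ∑ k, a k ^ i.val * c k = 0) (k : ι) : c k = 0 := by
  let e := (Fintype.equivFinOfCardEq hA).symm
  obtain ⟨-, ⟨W, hW⟩, -⟩ := vdm_core (a ∘ e) (hinj.comp e.injective) fun _ _ => haa _ _
  have h1 : Matrix.mulVec (Matrix.of fun i k : Fin A => (a ∘ e) k ^ i.val) (c ∘ e) = 0 :=
    funext fun i => (e.sum_comp fun k => a k ^ i.val * c k).trans (h i)
  have h2 := congrArg (Matrix.mulVec W) h1
  simp only [Matrix.mulVec_mulVec, hW, Matrix.one_mulVec, Matrix.mulVec_zero] at h2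
  obtain ⟨k, rfl⟩ := e.surjective k
  exact congrFun h2 k

theorem vdm_cen {D ι : Type*} [DivisionRing D] {A : ℕ} [Fintype ι] (hA : Fintype.card ι = A)
    (a y : ι → D) (hinj : Function.Injective a) (haa : ∀ k k', Commute (a k) (a k')) :
    ∃ c : Fin A → D, (∀ k, y k = ∑ i, c i * a k ^ i.val) ∧
      ∀ (z : D) (π : ι → ι), (∀ k, z * a k = a (π k) * z) → (∀ k, z * y k = y (π k) * z) →
        ∀ i, Commute z (c i) := by
  let e := (Fintype.equivFinOfCardEq hA).symm
  obtain ⟨-, ⟨W, hW⟩, -⟩ := vdm_core (a ∘ e) (hinj.comp e.injective) fun _ _ => haa _ _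
  have h1 : ∀ k, y k = ∑ i, Matrix.vecMul (y ∘ e) W i * a k ^ i.val := fun k => by
    obtain ⟨k, rfl⟩ := e.surjective k
    have h2 := Matrix.vecMul_vecMul (y ∘ e) W (Matrix.of fun i k : Fin A => (a ∘ e) k ^ i.val)
    rw [hW, Matrix.vecMul_one] at h2
    exact (congrFun h2 k).symm
  refine ⟨_, h1, fun z π ha hy i => ?_⟩
  generalize Matrix.vecMul (y ∘ e) W = c at h1
  refine sub_eq_zero.1 (vdm_right hA a hinj haa (fun i => z * c i - c i * z) (fun k => ?_) i)
  have h2 := hy k
  rw [h1 k, h1 (π k), mul_sum, sum_mul] at h2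
  simp only [sub_mul, sum_sub_distrib, mul_assoc]
  rw [h2, sub_eq_zero]
  refine sum_congr rfl fun i _ => ?_
  rw [mul_assoc, (SemiconjBy.pow_right (ha k) i.val).eq]

theorem Cyc.exists_bd {A : ℕ} [NeZero A] {F L : Type u} [Field F] [Field L] [Algebra F L]
    (Z : Cyc F L A) : ∃ bd : Fin A → L,
      (∀ i j : Fin A, ∑ h : Fin A, sg Z.σ h (bd i * Z.a ^ j.val) = if i = j then 1 else 0) ∧
      ∀ h h' : Fin A, ∑ i : Fin A, sg Z.σ h (Z.a ^ i.val) * sg Z.σ h' (bd i) =
        if h = h' then 1 else 0 := by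
  obtain ⟨⟨W, hW⟩, -⟩ := vdm_core Z.pt Z.pt_inj fun _ _ => Commute.all _ _
  have hV := mul_eq_one_comm.1 hW
  have h1 : ∀ h h' : Fin A, ∑ i : Fin A, sg Z.σ h (Z.a ^ i.val) * sg Z.σ h' (W i 0) =
      if h = h' then 1 else 0 := fun h h' => by
    have h2 := congrArg (sg Z.σ h') (congrFun (congrFun hV (h - h')) 0)
    rw [Matrix.mul_apply, map_sum, Matrix.one_apply] at h2
    simp only [map_mul, map_pow, Matrix.of_apply, Z.sg_pt, sub_add_cancel, sub_eq_zero,
      apply_ite (sg Z.σ h'), map_one, map_zero] at h2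
    simp only [map_pow]
    exact h2
  refine ⟨fun i => W i 0, fun i j => ?_, h1⟩
  have h2 : (Matrix.of fun h i : Fin A => sg Z.σ h (Z.a ^ i.val)) *
      (Matrix.of fun i h : Fin A => sg Z.σ h (W i 0)) = 1 := by
    ext h h'
    rw [Matrix.mul_apply, Matrix.one_apply]
    exact h1 h h'
  have h4 := mul_eq_one_comm.1 h2
  have h3 := congrFun (congrFun h4 i) j
  rw [Matrix.mul_apply, Matrix.one_apply] at h3
  simp only [map_mul]
  exact h3

end Vale.Agent.P200.H
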