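import Vale.Agent.P200.H.Defs
import Vale.Agent.P200.H.Vdm
import Vale.Agent.P200.G.PlBlk

/-! Blocks from a model. -/

open MvPolynomial Finset Matrix

namespace Vale.Agent.P200.H

open Vale.Agent.P200.G Vale.Agent.P200.Eq

universe u

theorem hblk_sum {D : Type*} [AddCommMonoid D] {a d : ℕ} [NeZero a] (hd : d ∣ a) (f : ZMod a → D)
    (hf : ∀ m, f (m + d) = f m) : ∑ m, f m = (a / d) • ∑ j ∈ range d, f j := by
  have h1 : ∑ m, f m = ∑ j ∈ range a, f j :=
    Finset.sum_nbij' (fun m => m.val) (fun j => (j : ZMod a))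
      (fun m _ => mem_range.2 (ZMod.val_lt m)) (fun _ _ => mem_univ _)
      (fun m _ => ZMod.natCast_zmod_val m) (fun j hj => ZMod.val_cast_of_lt (mem_range.1 hj))
      (fun m _ => by rw [ZMod.natCast_zmod_val])
  have h2 : ∀ (e : ℕ) (m : ZMod a), f (m + (d * e : ℕ)) = f m := fun e => by
    induction e with
    | zero => simp
    | succ e ih => intro m; rw [mul_add_one, Nat.cast_add, ← add_assoc, hf, ih]
  have h3 : ∀ e : ℕ, ∑ j ∈ range (d * e), f j = e • ∑ j ∈ range d, f j := fun e => by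
    induction e with
    | zero => simp
    | succ e ih =>
      rw [mul_add_one, sum_range_add, ih, succ_nsmul]
      congr 1
      exact sum_congr rfl fun j _ => by rw [Nat.cast_add, add_comm, h2]
  rw [h1, ← h3, Nat.mul_div_cancel' hd]

theorem hblk_chi {K : Type*} [Field K] {a : ℕ} [NeZero a] {ζ : K} (hζ : ζ ^ a = 1)
    (x y : ZMod a) : chi ζ (x + y) = chi ζ x * chi ζ y := by
  rw [chi, chi, chi, ZMod.val_add, ← pow_add, ← pow_eq_pow_mod _ hζ]

theorem hblk_one {K : Type*} [Field K] {a : ℕ} [NeZero a] {ζ : K} (hζ : ζ ^ a = 1) :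
    chi ζ (1 : ZMod a) = ζ := by
  rw [chi, ZMod.val_one_eq_one_mod, ← pow_eq_pow_mod _ hζ, pow_one]

theorem hblk_zero {K : Type*} [Field K] {a : ℕ} [NeZero a] (ζ : K) :
    chi ζ (0 : ZMod a) = 1 := by
  rw [chi, ZMod.val_zero, pow_zero]

section

variable {K D : Type u} [Field K] [DivisionRing D] [Algebra K D] {M a : ℕ} [NeZero a] {ζ : K}
  (m : Mdl K D ζ a M)

theorem hblk_T (R : Fin M → (Fin 2 →₀ ℕ) → K) :
    m.T R = ∑ s, ∑ β ∈ finsuppAntidiag univ a, R s β • m.T (Pi.single s (Pi.single β 1)) := by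
  simp only [← map_smul, ← map_sum]
  refine sub_eq_zero.1 ?_
  rw [← map_sub]
  refine m.T_zero _ fun t γ hγ => ?_
  simp only [Pi.sub_apply, Finset.sum_apply, Pi.smul_apply, smul_eq_mul]
  rw [Finset.sum_eq_single t (fun s _ hs => by simp [Pi.single_eq_of_ne hs.symm]) (by simp),
    Finset.sum_eq_single_of_mem γ (plblk_mem.2 hγ) fun β _ hβ => by
      simp [Pi.single_eq_of_ne hβ.symm]]
  simp

theorem hblk_va (s : Fin M) (y : D) : Commute (m.w s 0 ^ a) y := by
  have h := m.pow s ![1, 0]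
  simp only [Matrix.cons_val_zero, Matrix.cons_val_one, one_smul, zero_smul, add_zero] at h
  rw [h]
  exact m.T_cen _ y

theorem hblk_x0 (s : Fin M) : m.x s 0 = m.w s 1 * (m.w s 0)⁻¹ * m.w s 0 ^ a := by
  rw [m.x0, mul_assoc, pow_sub₀ _ (m.v0 s) NeZero.one_le, pow_one,
    ((Commute.refl (m.w s 0)).pow_left a).inv_right₀.eq]

theorem hblk_wx (s : Fin M) (ε : Fin 2) (k : ZMod a) :
    m.w s ε * m.x s k = m.x s (k + 1) * m.w s ε := by
  fin_cases ε
  · exact m.vx s k
  · have h : m.w s 1 * m.w s 0 ^ a = m.x s 0 * m.w s 0 := by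
      rw [m.x0, mul_assoc, ← pow_succ, Nat.sub_add_cancel NeZero.one_le]
    refine mul_right_cancel₀ (pow_ne_zero a (m.v0 s)) ?_
    show m.w s 1 * m.x s k * _ = m.x s (k + 1) * m.w s 1 * _
    rw [mul_assoc, ← (hblk_va m s _).eq, ← mul_assoc, h, mul_assoc (m.x s (k + 1)), h, mul_assoc,
      m.vx, ← mul_assoc, ← mul_assoc, (m.xx s 0 (k + 1)).eq]

theorem hblk_comm (s : Fin M) {y : D} {z : K} (hz : z ^ a = 1)
    (h : ∀ ε, y * m.w s ε = z • (m.w s ε * y)) (k : ZMod a) : Commute y (m.x s k) := by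
  have hp : ∀ j : ℕ, y * m.w s 0 ^ j = z ^ j • (m.w s 0 ^ j * y) := fun j => by
    induction j with
    | zero => simp
    | succ j ih =>
      rw [pow_succ, ← mul_assoc, ih, smul_mul_assoc, mul_assoc, h, mul_smul_comm, smul_smul,
        ← pow_succ, mul_assoc]
  rw [← ZMod.natCast_zmod_val k]
  induction k.val with
  | zero =>
    show y * _ = _ * y
    rw [Nat.cast_zero, m.x0, ← mul_assoc, h, smul_mul_assoc, mul_assoc, hp, mul_smul_comm,
      smul_smul, ← pow_succ', Nat.sub_add_cancel NeZero.one_le, hz, one_smul, mul_assoc]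
  | succ j ih =>
    refine mul_right_cancel₀ (m.v0 s) ?_
    rw [Nat.cast_succ, mul_assoc, ← m.vx, ← mul_assoc, h, smul_mul_assoc, mul_assoc, ih.eq,
      ← mul_assoc, m.vx, mul_assoc, mul_assoc, h, mul_smul_comm]

theorem hblk_ne (hζ : ζ ^ a = 1) {s t : Fin M} (h : t ≠ s) (ε : Fin 2) (k : ZMod a) :
    Commute (m.w t ε) (m.x s k) := by
  rcases lt_or_gt_of_ne h with h | h
  · exact hblk_comm m s hζ (fun ε' => m.ww t s ε ε' h) k
  · have h0 : ζ ≠ 0 := fun h0 => by
      rw [h0, zero_pow (NeZero.ne a)] at hζ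
      exact zero_ne_one hζ
    refine hblk_comm m s (z := ζ⁻¹) (by rw [inv_pow, hζ, inv_one]) (fun ε' => ?_) k
    rw [m.ww s t ε' ε h, smul_smul, inv_mul_cancel₀ h0, one_smul]

theorem hblk_pow (s : Fin M) (j : ℕ) (k : ZMod a) :
    m.w s 0 ^ j * m.x s k = m.x s (k + j) * m.w s 0 ^ j := by
  induction j with
  | zero => simp
  | succ j ih =>
    rw [pow_succ', mul_assoc, ih, ← mul_assoc, m.vx, mul_assoc, Nat.cast_succ, add_assoc]

theorem hblk_inj (hζ : ζ ^ a = 1)
    (hsep : ∀ d, d ∣ a → d < a → ζ ^ d = 1 → ((a / d : ℕ) : K) = 0) (s : Fin M) :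
    Function.Injective (m.x s) := by
  intro k k' hk
  by_contra hne
  obtain ⟨p, rfl⟩ : ∃ p, k' = k + p := ⟨k' - k, by ring⟩
  have hp0 : p ≠ 0 := fun h => hne (by rw [h, add_zero])
  have h1 : ∀ j, m.x s (j + p) = m.x s j := fun j => by
    refine mul_right_cancel₀ (pow_ne_zero (j - k).val (m.v0 s)) ?_
    have h2 := hblk_pow m s (j - k).val k
    have h3 := hblk_pow m s (j - k).val (k + p)
    rw [ZMod.natCast_zmod_val] at h2 h3
    rw [← hk, h2, add_right_comm, add_sub_cancel] at h3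
    exact h3.symm
  have h2 : ζ ^ p.val = 1 := by
    have h3 : ∑ j, chi ζ (-(1 * j)) • m.x s j =
        chi ζ p • ∑ j, chi ζ (-(1 * j)) • m.x s j := by
      conv_rhs => rw [← Equiv.sum_comp (Equiv.addRight p), smul_sum]
      refine sum_congr rfl fun j _ => ?_
      rw [Equiv.coe_addRight, h1, smul_smul, ← hblk_chi hζ]
      congr 2
      ring
    have h4 : (1 - chi ζ p) • ∑ j, chi ζ (-(1 * j)) • m.x s j = 0 := by
      rw [sub_smul, one_smul, ← h3, sub_self]
    exact (sub_eq_zero.1 ((smul_eq_zero.1 h4).resolve_right (m.xΓ s 1))).symm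
  have h3 : ∀ (e : ℕ) j, m.x s (j + p * e) = m.x s j := fun e => by
    induction e with
    | zero => simp
    | succ e ih => intro j; rw [Nat.cast_succ, mul_add_one, ← add_assoc, h1, ih]
  have h4 : ((Nat.gcd p.val a : ℕ) : ZMod a) = p * (Nat.gcdA p.val a : ZMod a) := by
    have h5 := congrArg (Int.cast : ℤ → ZMod a) (Nat.gcd_eq_gcd_ab p.val a)
    simpa using h5
  have h5 := hblk_sum (Nat.gcd_dvd_right p.val a) (m.x s) fun j => by
    rw [h4, ← ZMod.natCast_zmod_val (Nat.gcdA p.val a : ZMod a), h3]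
  have h6 := hsep _ (Nat.gcd_dvd_right p.val a)
    ((Nat.gcd_le_left a (ZMod.val_pos.2 hp0)).trans_lt (ZMod.val_lt p))
    (pow_gcd_eq_one.2 ⟨h2, hζ⟩)
  rw [← Nat.cast_smul_eq_nsmul K, h6, zero_smul] at h5
  refine m.xΓ s 0 ?_
  simpa only [zero_mul, neg_zero, hblk_zero, one_smul] using h5

theorem hblk_wγ (hζ : ζ ^ a = 1) (s : Fin M) (ε : Fin 2) :
    m.w s ε * ∑ j, chi ζ (-(1 * j)) • m.x s j =
      ζ • ((∑ j, chi ζ (-(1 * j)) • m.x s j) * m.w s ε) := by
  conv_rhs => rw [← Equiv.sum_comp (Equiv.addRight (1 : ZMod a)), sum_mul, smul_sum]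
  rw [mul_sum]
  refine sum_congr rfl fun j _ => ?_
  rw [Equiv.coe_addRight, mul_smul_comm, hblk_wx, smul_mul_assoc, smul_smul]
  congr 1
  conv_rhs => rw [← hblk_one hζ]
  rw [show chi (chi ζ (1 : ZMod a)) = (chi ζ : ZMod a → K) by rw [hblk_one hζ], ← hblk_chi hζ]
  congr 1
  ring

end

theorem blk_of_mdl' {K D : Type u} [Field K] [Infinite K] [DivisionRing D] [Algebra K D]
    {M a a' : ℕ} [NeZero a] {ζ : K} (hζ : ζ ^ a = 1) (hζ' : ζ ^ a' = 1)
    (hsep : ∀ d, d ∣ a → d < a → ζ ^ d = 1 → ((a / d : ℕ) : K) = 0) (m : Mdl K D ζ a M)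
    (S : Set D) (hS : ∀ y ∈ S, ∀ s ε, Commute (m.w s ε) y)
    (gen : ∀ z : D, (∀ y ∈ S, Commute z y) → (∀ s ε, Commute z (m.w s ε)) → ∀ y, Commute z y) :
    ∃ (F₁ : Type u) (_ : Field F₁) (_ : Algebra F₁ D) (φF : K →+* F₁)
      (B : Blk F₁ D (φF ζ) a a' M) (c : Fin M → (Fin 2 →₀ ℕ) → F₁),
      (∀ x, algebraMap K D x = algebraMap F₁ D (φF x)) ∧
      (∀ s, B.v s = m.w s 0) ∧ (∀ s, B.a s = -(m.w s 1 * (m.w s 0)⁻¹)) ∧
      (∀ s, IsIntegral F₁ (B.a s)) ∧
      (∀ s, B.g s = ∑ β ∈ finsuppAntidiag univ a, monomial β (c s β)) ∧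
      ∀ R, m.T R = algebraMap F₁ D (∑ s, ∑ β ∈ finsuppAntidiag univ a, φF (R s β) * c s β) := by
  obtain ⟨F, iF, iA, hZ⟩ := exists_center D
  obtain ⟨φ, hφ⟩ := plblk_hom (K := K) hZ
  choose c hc using fun s β => hZ _ (m.T_cen (Pi.single s (Pi.single β 1)))
  have hs : ∀ (x : K) (d : D), φ x • d = x • d := fun x d => by
    rw [Algebra.smul_def, Algebra.smul_def, hφ]
  choose z hz using fun s => hZ _ (hblk_va m s)
  have hz0 : ∀ s, z s ≠ 0 := fun s h => pow_ne_zero a (m.v0 s) (by rw [hz, h, map_zero])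
  have hx0 : ∀ s, m.x s 0 = (-z s) • -(m.w s 1 * (m.w s 0)⁻¹) := fun s => by
    rw [hblk_x0, hz, ← Algebra.commutes, ← Algebra.smul_def, neg_smul_neg]
  have ha0 : ∀ s, -(m.w s 1 * (m.w s 0)⁻¹) = (-z s)⁻¹ • m.x s 0 := fun s => by
    rw [hx0, smul_smul, inv_mul_cancel₀ (neg_ne_zero.2 (hz0 s)), one_smul]
  have hxS : ∀ s k, ∀ y ∈ S, Commute y (m.x s k) := fun s k y hy =>
    hblk_comm m s (one_pow a) (fun ε => by rw [one_smul, (hS y hy s ε).eq]) k
  have key : ∀ s (y : ZMod a → D), (∀ ε k, m.w s ε * y k = y (k + 1) * m.w s ε) →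
      (∀ u, (∀ k, Commute u (m.x s k)) → ∀ k, Commute u (y k)) →
      ∃ e : Fin a → F, y 0 = ∑ i, e i • m.x s 0 ^ i.val := fun s y h1 h2 => by
    obtain ⟨e, he, he'⟩ := vdm_cen (ZMod.card a) (m.x s) y (hblk_inj m hζ hsep s) (m.xx s)
    have h3 : ∀ u, (∀ k, Commute u (m.x s k)) → ∀ i, Commute (e i) u := fun u hu i =>
      (he' u id hu (h2 u hu) i).symm
    choose e' he'' using fun i => hZ (e i) (gen _ (fun u hu => h3 u (fun k => hxS s k u hu) i)
      fun t ε => by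
        by_cases ht : t = s
        · rw [ht]
          exact (he' _ (· + 1) (hblk_wx m s ε) (h1 ε) i).symm
        · exact h3 _ (hblk_ne m hζ ht ε) i)
    exact ⟨e', by simp only [he, he'', Algebra.smul_def]⟩
  have hadj : ∀ s (e : Fin a → F), ∑ i, e i • m.x s 0 ^ i.val ∈
      Algebra.adjoin F {-(m.w s 1 * (m.w s 0)⁻¹)} := fun s e =>
    sum_mem fun i _ => Subalgebra.smul_mem _ (Subalgebra.pow_mem _ (by
      rw [hx0]
      exact Subalgebra.smul_mem _ (Algebra.self_mem_adjoin_singleton F _) _) _) _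
  have hγc : ∀ s u, (∀ k, Commute u (m.x s k)) →
      Commute u (∑ j, chi ζ (-(1 * j)) • m.x s j) := fun s u hu =>
    Commute.sum_right _ _ _ fun j _ => (hu j).smul_right _
  have hwa : ∀ r t, r ≠ t → ∀ ε, Commute (m.w r ε) (-(m.w t 1 * (m.w t 0)⁻¹)) := fun r t h ε => by
    rw [ha0]
    exact (hblk_ne m hζ h ε 0).smul_right _
  refine ⟨F, iF, iA, φ,
    { γ := fun s => ∑ j, chi ζ (-(1 * j)) • m.x s j
      v := fun s => m.w s 0
      a := fun s => -(m.w s 1 * (m.w s 0)⁻¹)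
      g := fun s => ∑ β ∈ finsuppAntidiag univ a, monomial β (c s β)
      γ0 := fun s => m.xΓ s 1
      v0 := m.v0
      γA := fun s => hZ _ (gen _ (fun y hy => ((hγc s y fun k => hxS s k y hy).symm).pow_left _)
        fun t ε => ?_)
      vA := fun s => ⟨_, hz s⟩
      aa := fun r t => ?_
      vγ := fun s => by rw [hs, hblk_wγ m hζ]
      va' := fun r t h => hwa r t h 0
      vv := fun s t h => by rw [hs, m.ww s t 0 0 h]
      γa := fun s => ?_
      va := fun s => ?_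
      av := fun s k hk hka hcm => ?_
      gh := fun s => IsHomogeneous.sum _ _ _ fun β hβ =>
        isHomogeneous_monomial _ (plblk_mem.1 hβ)
      hg := fun s => ?_ }, c, hφ, fun _ => rfl, fun _ => rfl, fun s => ?_, fun _ => rfl,
    fun R => ?_⟩
  · by_cases ht : t = s
    · have h0 : ζ ≠ 0 := fun h0 => by
        rw [h0, zero_pow (NeZero.ne a)] at hζ
        exact zero_ne_one hζ
      have h1 := plblk_pow (v := ∑ j, chi ζ (-(1 * j)) • m.x s j) (x := m.w s ε) (z := ζ⁻¹)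
        (by rw [hblk_wγ m hζ, smul_smul, inv_mul_cancel₀ h0, one_smul]) a'
      rw [inv_pow, hζ', inv_one, one_smul] at h1
      rw [ht]
      exact h1
    · exact ((hγc s _ (hblk_ne m hζ ht ε)).symm).pow_left _
  · by_cases h : r = t
    · rw [h]
    · exact ((hwa r t h 1).mul_left (hwa r t h 0).inv_left₀).neg_left
  · obtain ⟨e, he⟩ := key s (fun k => chi ζ k • ∑ j, chi ζ (-(1 * j)) • m.x s j)
      (fun ε k => by
        rw [mul_smul_comm, hblk_wγ m hζ, smul_smul, smul_mul_assoc, hblk_chi hζ, hblk_one hζ])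
      (fun u hu k => (hγc s u hu).smul_right _)
    rw [hblk_zero, one_smul] at he
    rw [he]
    exact hadj s e
  · obtain ⟨e, he⟩ := key s (fun k => m.x s (k - 1))
      (fun ε k => by rw [hblk_wx, sub_add_cancel, add_sub_cancel_right]) (fun u hu k => hu _)
    have h1 : (m.w s 0)⁻¹ * m.x s 0 * m.w s 0 = m.x s (0 - 1) := by
      rw [mul_assoc, inv_mul_eq_iff_eq_mul₀ (m.v0 s), m.vx, sub_add_cancel]
    have h2 := Subalgebra.smul_mem _ (hadj s e) (-z s)⁻¹
    rw [← he, ← h1, ← smul_mul_assoc, ← mul_smul_comm, ← ha0] at h2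
    exact h2
  · have h1 : Commute (m.x s 0) (m.w s 0 ^ k) := by
      rw [hx0]
      exact hcm.smul_left _
    have h2 := hblk_pow m s k 0
    rw [← h1.eq, zero_add] at h2
    have h3 := hblk_inj m hζ hsep s (mul_right_cancel₀ (pow_ne_zero k (m.v0 s)) h2)
    have h4 := congrArg ZMod.val h3
    rw [ZMod.val_zero, ZMod.val_cast_of_lt hka] at h4
    exact hk.ne h4
  · rw [neg_mul, neg_neg, inv_mul_cancel_right₀ (m.v0 s), map_sum]
    simp only [big_inc]
    refine alg_funext (K := K) _ _ _ _ fun ξ => ?_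
    rw [Fin.sum_univ_two]
    simp only [Matrix.cons_val_zero, Matrix.cons_val_one]
    rw [m.pow, hblk_T, Finset.sum_eq_single s (fun t _ ht => by simp [ht]) (by simp)]
    simp only [if_true, hc]
  · obtain ⟨e, he⟩ := key s (fun k => m.x s k ^ a)
      (fun ε k => (SemiconjBy.pow_right (hblk_wx m s ε k) a).eq) (fun u hu k => (hu k).pow_right a)
    have h1 : IsIntegral F (m.x s 0) := by
      refine ⟨Polynomial.X ^ a - ∑ i : Fin a, Polynomial.C (e i) * Polynomial.X ^ i.val,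
        Polynomial.monic_X_pow_sub (Polynomial.degree_sum_fin_lt e), ?_⟩
      rw [← Polynomial.aeval_def]
      simp only [map_sub, map_sum, map_mul, map_pow, Polynomial.aeval_X, Polynomial.aeval_C,
        ← Algebra.smul_def]
      exact sub_eq_zero.2 he
    show IsIntegral F (-(m.w s 1 * (m.w s 0)⁻¹))
    rw [ha0]
    exact h1.smul _
  · rw [hblk_T, map_sum]
    refine sum_congr rfl fun s _ => ?_
    rw [map_sum]
    refine sum_congr rfl fun β _ => ?_
    rw [hc, map_mul, ← hφ, Algebra.smul_def]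

end Vale.Agent.P200.H
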