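import Vale.Agent.P200.H.StB
import Vale.Agent.P200.G.PlFin

/-! Blocks generate a finite-dimensional division algebra. -/

open MvPolynomial Finset Matrix

namespace Vale.Agent.P200.H

open Vale.Agent.P200.G Vale.Agent.P200.Eq

universe u

theorem plfinH_step {F D : Type u} [Field F] [Ring D] [Algebra F D] (S : Set D)
    [FiniteDimensional F (Algebra.adjoin F S)] {x : D} (hx : IsIntegral F x)
    (h : ∀ s ∈ S, ∃ s' ∈ Algebra.adjoin F S, s * x = x * s') :
    FiniteDimensional F (Algebra.adjoin F (insert x S)) := by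
  set A := Algebra.adjoin F S with hA
  have hA' : (Subalgebra.toSubmodule A).FG := Module.Finite.iff_fg.1 ‹FiniteDimensional F A›
  let W : Submodule F D :=
    Subalgebra.toSubmodule (Algebra.adjoin F {x}) * Subalgebra.toSubmodule A
  have : FiniteDimensional F W := Module.Finite.iff_fg.2 (hx.fg_adjoin_singleton.mul hA')
  have hN : ∀ y ∈ A, ∃ y' ∈ A, y * x = x * y' := by
    intro y hy
    induction hy using Algebra.adjoin_induction with
    | mem s hs => exact h s hs
    | algebraMap r => exact ⟨_, A.algebraMap_mem r, Algebra.commutes r x⟩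
    | add a b _ _ ha hb =>
      obtain ⟨a', h1, h2⟩ := ha
      obtain ⟨b', h3, h4⟩ := hb
      exact ⟨a' + b', A.add_mem h1 h3, by rw [mul_add, add_mul, h2, h4]⟩
    | mul a b _ _ ha hb =>
      obtain ⟨a', h1, h2⟩ := ha
      obtain ⟨b', h3, h4⟩ := hb
      exact ⟨a' * b', A.mul_mem h1 h3, by rw [mul_assoc, h4, ← mul_assoc, h2, mul_assoc]⟩
  have hz : ∀ z ∈ Algebra.adjoin F (insert x S), ∀ w ∈ W, w * z ∈ W := by
    intro z hz
    induction hz using Algebra.adjoin_induction with
    | mem s hs =>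
      intro w hw
      refine Submodule.mul_induction_on hw (fun p hp y hy => ?_) fun a b ha hb => ?_
      · rcases hs with rfl | hs
        · obtain ⟨y', h1, h2⟩ := hN y hy
          rw [mul_assoc, h2, ← mul_assoc]
          exact Submodule.mul_mem_mul
            (Subalgebra.mul_mem _ hp (Algebra.self_mem_adjoin_singleton F s)) h1
        · rw [mul_assoc]
          exact Submodule.mul_mem_mul hp (A.mul_mem hy (Algebra.subset_adjoin hs))
      · rw [add_mul]
        exact W.add_mem ha hb
    | algebraMap r =>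
      intro w hw
      rw [← Algebra.commutes, ← Algebra.smul_def]
      exact W.smul_mem r hw
    | add a b _ _ ha hb =>
      intro w hw
      rw [mul_add]
      exact W.add_mem (ha w hw) (hb w hw)
    | mul a b _ _ ha hb =>
      intro w hw
      rw [← mul_assoc]
      exact hb _ (ha w hw)
  have hle : Subalgebra.toSubmodule (Algebra.adjoin F (insert x S)) ≤ W := fun z h' => by
    simpa using hz z h' _ (Submodule.mul_mem_mul (Subalgebra.one_mem _) A.one_mem)
  exact Submodule.finiteDimensional_of_le hle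

theorem plfinH_ind {F D : Type u} [Field F] [Ring D] [Algebra F D] (S : Set D)
    [FiniteDimensional F (Algebra.adjoin F S)] (T : Finset D) (hx : ∀ x ∈ T, IsIntegral F x)
    (h : ∀ x ∈ T, ∀ s ∈ S, ∃ s' ∈ Algebra.adjoin F S, s * x = x * s')
    (h' : ∀ x ∈ T, ∀ y ∈ T, ∃ d : F, x * y = d • (y * x)) :
    FiniteDimensional F (Algebra.adjoin F ((T : Set D) ∪ S)) := by
  classical
  induction T using Finset.induction_on with
  | empty => rwa [Finset.coe_empty, Set.empty_union]
  | insert x T _ ih =>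
    have := ih (fun y hy => hx y (mem_insert_of_mem hy)) (fun y hy => h y (mem_insert_of_mem hy))
      fun y hy z hz => h' y (mem_insert_of_mem hy) z (mem_insert_of_mem hz)
    rw [Finset.coe_insert, Set.insert_union]
    refine plfinH_step _ (hx x (mem_insert_self _ _)) ?_
    rintro s (hs | hs)
    · obtain ⟨d, hd⟩ := h' s (mem_insert_of_mem hs) x (mem_insert_self _ _)
      exact ⟨d • s, Subalgebra.smul_mem _ (Algebra.subset_adjoin (Set.mem_union_left S hs)) d,
        by rw [hd, mul_smul_comm]⟩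
    · obtain ⟨s', h1, h2⟩ := h x (mem_insert_self _ _) s hs
      exact ⟨s', Algebra.adjoin_mono Set.subset_union_right h1, h2⟩

theorem blk_fin' {F E F₁ D : Type u} [Field F] [DivisionRing E] [Algebra F E]
    [FiniteDimensional F E] [Field F₁] [DivisionRing D] [Algebra F₁ D] {ζ : F₁} {A A' M : ℕ}
    (hA : A ≠ 0) (hζ : ζ ≠ 0) (B : Blk F₁ D ζ A A' M) (hint : ∀ r, IsIntegral F₁ (B.a r))
    (φF : F →+* F₁) (φ : E →+* D) (h : ∀ c, φ (algebraMap F E c) = algebraMap F₁ D (φF c))
    (ha : ∀ r x, Commute (B.a r) (φ x)) (hv : ∀ r x, Commute (B.v r) (φ x)) :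
    ∃ (D₁ : Type u) (_ : DivisionRing D₁) (_ : Algebra F₁ D₁) (_ : FiniteDimensional F₁ D₁)
      (φ₁ : E →+* D₁) (B₁ : Blk F₁ D₁ ζ A A' M),
      (∀ c, φ₁ (algebraMap F E c) = algebraMap F₁ D₁ (φF c)) ∧
      (∀ r x, Commute (B₁.a r) (φ₁ x)) ∧ (∀ r x, Commute (B₁.v r) (φ₁ x)) ∧ B₁.g = B.g := by
  classical
  have := plfin_base φF φ h
  have one : ∀ {x y : D}, Commute x y → ∃ d : F₁, x * y = d • (y * x) := fun h =>
    ⟨1, by rw [one_smul, h.eq]⟩
  have := plfinH_ind (F := F₁) (Set.range φ) (univ.image B.a)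
    (by
      simp only [mem_image, mem_univ, true_and]
      rintro x ⟨r, rfl⟩
      exact hint r)
    (by
      simp only [mem_image, mem_univ, true_and]
      rintro x ⟨r, rfl⟩ _ ⟨y, rfl⟩
      exact ⟨_, Algebra.subset_adjoin ⟨y, rfl⟩, (ha r y).eq.symm⟩)
    (by
      simp only [mem_image, mem_univ, true_and]
      rintro x ⟨r, rfl⟩ y ⟨t, rfl⟩
      exact one (B.aa r t))
  have hm : ∀ r, B.a r ∈ ((univ.image B.a : Finset D) : Set D) ∪ Set.range φ := fun r =>
    Or.inl (by simp)
  have := plfinH_ind (F := F₁) (((univ.image B.a : Finset D) : Set D) ∪ Set.range φ)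
    (univ.image B.v)
    (by
      simp only [mem_image, mem_univ, true_and]
      rintro x ⟨r, rfl⟩
      obtain ⟨c, hc⟩ := B.vA r
      exact IsIntegral.of_pow (Nat.pos_of_ne_zero hA) (hc ▸ isIntegral_algebraMap))
    (by
      simp only [mem_image, mem_univ, true_and]
      rintro x ⟨r, rfl⟩ s (hs | ⟨y, rfl⟩)
      · obtain ⟨t, -, rfl⟩ := mem_image.1 hs
        rcases eq_or_ne r t with rfl | htr
        · refine ⟨_, Algebra.adjoin_mono (Set.singleton_subset_iff.2 (hm r)) (B.va r), ?_⟩
          rw [mul_assoc, mul_inv_cancel_left₀ (B.v0 r)]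
        · exact ⟨_, Algebra.subset_adjoin (hm t), (B.va' r t htr).eq.symm⟩
      · exact ⟨_, Algebra.subset_adjoin (Or.inr ⟨y, rfl⟩), (hv r y).eq.symm⟩)
    (by
      simp only [mem_image, mem_univ, true_and]
      rintro x ⟨r, rfl⟩ y ⟨t, rfl⟩
      rcases lt_trichotomy r t with htr | rfl | htr
      · exact ⟨ζ, B.vv r t htr⟩
      · exact one (Commute.refl _)
      · exact ⟨ζ⁻¹, by rw [B.vv t r htr, smul_smul, inv_mul_cancel₀ hζ, one_smul]⟩)
  obtain ⟨D₁, _, _, _, ι, φ₁, h1, h2⟩ := plfin_sub (Algebra.adjoin F₁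
    (((univ.image B.v : Finset D) : Set D) ∪
      (((univ.image B.a : Finset D) : Set D) ∪ Set.range φ))) φ
    fun x => Algebra.subset_adjoin (Or.inr (Or.inr ⟨x, rfl⟩))
  have hι : Function.Injective ι := ι.toRingHom.injective
  obtain ⟨B₁, ha', hv', hg⟩ := B.exists_pull ι
    (fun r => h2 _ (Algebra.subset_adjoin (Or.inr (hm r))))
    fun r => h2 _ (Algebra.subset_adjoin (Or.inl (by simp)))
  have cm : ∀ {x y : D₁}, Commute (ι x) (ι y) → Commute x y := fun h =>
    hι (by rw [map_mul, map_mul, h.eq])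
  exact ⟨D₁, inferInstance, inferInstance, inferInstance, φ₁, B₁,
    fun c => hι (by rw [h1, h, AlgHom.commutes]), fun r x => cm (by rw [ha', h1]; exact ha r x),
    fun r x => cm (by rw [hv', h1]; exact hv r x), funext hg⟩

end Vale.Agent.P200.H
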