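import Vale.Agent.P200.H.Defs

/-! Passing to the double centralizer of the generators. -/

open MvPolynomial Finset

namespace Vale.Agent.P200.H

open Vale.Agent.P200.G Vale.Agent.P200.Eq

universe u

theorem mdl_gen {K E D : Type u} [Field K] [DivisionRing E] [Algebra K E] [DivisionRing D]
    [Algebra K D] {M a : ℕ} [NeZero a] {ζ : K} (j : E →ₐ[K] D) (m : Mdl K D ζ a M) :
    ∃ (D' : Type u) (_ : DivisionRing D') (_ : Algebra K D') (ι : D' →ₐ[K] D) (j' : E →ₐ[K] D')
      (m' : Mdl K D' ζ a M), (∀ x, ι (j' x) = j x) ∧ (∀ s ε, ι (m'.w s ε) = m.w s ε) ∧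
      (∀ R, ι (m'.T R) = m.T R) ∧
      ∀ z : D', (∀ x, Commute z (j' x)) → (∀ s ε, Commute z (m'.w s ε)) → ∀ y, Commute z y := by
  classical
  let S : Set D := Set.range j ∪ Set.range fun p : Fin M × Fin 2 => m.w p.1 p.2
  let C : Subalgebra K D := Subalgebra.centralizer K (Set.centralizer S)
  have hC : ∀ z, z ∈ C ↔ ∀ g ∈ Set.centralizer S, g * z = z * g := fun z =>
    Subalgebra.mem_centralizer_iff K
  have hSC : ∀ z ∈ S, z ∈ C := fun z hz => (hC z).2 fun g hg => (hg z hz).symm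
  have hinv : ∀ z ∈ C, z⁻¹ ∈ C := fun z hz => (hC z⁻¹).2 fun g hg =>
    (Commute.inv_right₀ ((hC z).1 hz g hg : Commute g z)).eq
  have hj : ∀ x, j x ∈ C := fun x => hSC _ (Or.inl ⟨x, rfl⟩)
  have hw : ∀ s ε, m.w s ε ∈ C := fun s ε => hSC _ (Or.inr ⟨(s, ε), rfl⟩)
  have hT : ∀ R, m.T R ∈ C := fun R => (hC _).2 fun g _ => (m.T_cen R g).symm.eq
  have hx : ∀ s k, m.x s k ∈ C := by
    intro s k
    obtain ⟨n, rfl⟩ := ZMod.natCast_zmod_surjective k
    induction n with
    | zero => rw [Nat.cast_zero, m.x0]; exact C.mul_mem (hw s 1) (C.pow_mem (hw s 0) _)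
    | succ n ih =>
      have : m.x s ((n : ZMod a) + 1) = m.w s 0 * m.x s n * (m.w s 0)⁻¹ := by
        rw [m.vx, mul_inv_cancel_right₀ (m.v0 s)]
      rw [Nat.cast_succ, this]
      exact C.mul_mem (C.mul_mem (hw s 0) ih) (hinv _ (hw s 0))
  have hu : ∀ z : C, IsUnit z ∨ z = 0 := by
    intro z
    by_cases h : (z : D) = 0
    · exact Or.inr (Subtype.ext h)
    · exact Or.inl ⟨⟨z, ⟨(z : D)⁻¹, hinv _ z.2⟩, Subtype.ext (mul_inv_cancel₀ h),
        Subtype.ext (inv_mul_cancel₀ h)⟩, rfl⟩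
  let dv : DivisionRing C := DivisionRing.ofIsUnitOrEqZero hu
  let m' : @Mdl K C _ dv (inferInstanceAs (Algebra K C)) ζ a M _ :=
    { w := fun s ε => ⟨m.w s ε, hw s ε⟩
      x := fun s k => ⟨m.x s k, hx s k⟩
      T := m.T.codRestrict (Subalgebra.toSubmodule C) hT
      T_cen := fun R y => Subtype.ext (m.T_cen R y).eq
      T_zero := fun R h => Subtype.ext (m.T_zero R h)
      pow := fun s ξ => Subtype.ext (m.pow s ξ)
      v0 := fun s h => m.v0 s (congrArg Subtype.val h)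
      ww := fun s t ε ε' h => Subtype.ext (m.ww s t ε ε' h)
      x0 := fun s => Subtype.ext (m.x0 s)
      vx := fun s k => Subtype.ext (m.vx s k)
      xx := fun s k k' => Subtype.ext (m.xx s k k').eq
      xΓ := fun s i h => m.xΓ s i (by
        have := congrArg C.val h
        rw [map_sum, map_zero] at this
        exact this) }
  refine ⟨C, dv, inferInstanceAs (Algebra K C), C.val, j.codRestrict C hj, m', fun _ => rfl,
    fun _ _ => rfl, fun _ => rfl, fun z h1 h2 y => ?_⟩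
  refine Subtype.ext ((hC y).1 y.2 z ?_)
  rintro _ (⟨x, rfl⟩ | ⟨p, rfl⟩)
  · exact congrArg Subtype.val (h1 x).symm.eq
  · exact congrArg Subtype.val (h2 p.1 p.2).symm.eq

end Vale.Agent.P200.H
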