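import Vale.Agent.P200.H.PlMod
import Vale.Agent.P200.H.PlGenr
import Vale.Agent.P200.H.PlBlk
import Vale.Agent.P200.H.PlFin

/-! Blocks attached to a family of functionals. -/

open MvPolynomial Finset Matrix

namespace Vale.Agent.P200.H

open Vale.Agent.P200.G Vale.Agent.P200.Eq

universe u

theorem exists_blocks {K : Type u} (E : Type u) [Field K] [Infinite K] [DivisionRing E]
    [Algebra K E] [FiniteDimensional K E] {M a a' r b q e : ℕ} [NeZero a] (ha : 2 ≤ a)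
    [ExpChar K q] (hq : a = q ^ e * a') {ζ : K} (hζ : IsPrimitiveRoot ζ a') (hr : r + 2 * b < M)
    (lam : Fin r → Fin M → (Fin 2 →₀ ℕ) → K)
    (hlam : ∀ (F : Type u) [Field F] [Algebra K F] (c : Fin r → F), c ≠ 0 →
      Few b fun s => Rk1 (fun β => ∑ j, c j * algebraMap K F (lam j s β)) (a - 1))
    (htri : Tri r (Set.range fun j => up a (lam j)))
    (hone : ∀ (s : Fin M) (R : Fin M → (ZMod a → Fin 2) → K), (∀ t, t ≠ s → R t = 0) → R s ≠ 0 →
      Tri (r + 1) (insert R (Set.range fun j => up a (lam j)))) :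
    ∃ (F₁ D : Type u) (_ : Field F₁) (_ : DivisionRing D) (_ : Algebra F₁ D)
      (_ : FiniteDimensional F₁ D) (φF : K →+* F₁) (φ : E →+* D) (B : Blk F₁ D (φF ζ) a a' M)
      (c : Fin M → (Fin 2 →₀ ℕ) → F₁),
      (∀ x, φ (algebraMap K E x) = algebraMap F₁ D (φF x)) ∧
      (∀ s x, Commute (B.a s) (φ x)) ∧ (∀ s x, Commute (B.v s) (φ x)) ∧
      (∀ s, B.g s = ∑ β ∈ finsuppAntidiag univ a, monomial β (c s β)) ∧
      (∀ i, ∑ s, ∑ β ∈ finsuppAntidiag univ a, φF (lam i s β) * c s β = 0) ∧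
      ∀ R, Tri (r + 1) (insert (up a R) (Set.range fun j => up a (lam j))) →
        ∑ s, ∑ β ∈ finsuppAntidiag univ a, φF (R s β) * c s β ≠ 0 := by
  have ha' : a' ≠ 0 := fun h => by rw [h, mul_zero] at hq; omega
  have hζa : ζ ^ a = 1 := by rw [hq, mul_comm, pow_mul, hζ.pow_eq_one, one_pow]
  obtain ⟨D₀, _, _, j₀, m₀, hw₀, hT0, hT1⟩ := exists_mdl' E ha hζa hr lam hlam htri hone
  obtain ⟨D, _, _, ι, j, m, hj, hw, hT, gen⟩ := mdl_gen j₀ m₀
  have hι : Function.Injective ι := ι.toRingHom.injective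
  have hwj : ∀ s ε x, Commute (m.w s ε) (j x) := fun s ε x =>
    hι (by rw [map_mul, map_mul, hw, hj]; exact hw₀ s ε x)
  obtain ⟨F₁, _, _, φF, B, c, halg, hBv, hBa, hint, hBg, hTc⟩ := blk_of_mdl' hζa hζ.pow_eq_one
    (fun d hd hlt h => sep_of hq hζ hd hlt h) m (Set.range j)
    (by rintro _ ⟨x, rfl⟩ s ε; exact hwj s ε x)
    fun z h1 h2 => gen z (fun x => h1 _ ⟨x, rfl⟩) h2
  obtain ⟨D₁, _, _, _, φ₁, B₁, h1, h2, h3, h4⟩ := blk_fin' (NeZero.ne a)
    ((map_ne_zero φF).2 (hζ.ne_zero ha')) B hint φF (j : E →+* D)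
    (fun c => (j.commutes c).trans (halg c))
    (fun s x => by
      rw [hBa]
      exact ((hwj s 1 x).mul_left (hwj s 0 x).inv_left₀).neg_left)
    (fun s x => by rw [hBv]; exact hwj s 0 x)
  refine ⟨F₁, D₁, inferInstance, inferInstance, inferInstance, inferInstance, φF, φ₁, B₁, c, h1, h2,
    h3, fun s => by rw [h4, hBg], fun i => ?_, fun R hR h0 => hT1 R hR ?_⟩
  · refine (algebraMap F₁ D).injective ?_
    rw [← hTc, map_zero]
    exact hι (by rw [hT, hT0, map_zero])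
  · rw [← hT, hTc, h0, map_zero, map_zero]

end Vale.Agent.P200.H
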