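import Vale.Agent.P200.G.PlDefs

/-! Definitions for the construction in arbitrary characteristic. -/

open MvPolynomial Finset

namespace Vale.Agent.P200.H

open Vale.Agent.P200.G Vale.Agent.P200.Eq

universe u

/-- an infinite field with all roots of unity of order prime to the characteristic -/
def Rich (F : Type u) [Field F] : Prop :=
  Infinite F ∧ ∀ m : ℕ, (m : F) ≠ 0 → ∃ ζ : F, IsPrimitiveRoot ζ m

/-- the span of the products of powers of two linear forms -/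
noncomputable def Bin (σ : Type) (F : Type u) [Field F] (d : ℕ) :
    Submodule F (MvPolynomial σ F) :=
  Submodule.span F {q | ∃ (l l' : MvPolynomial σ F) (i j : ℕ),
    l.IsHomogeneous 1 ∧ l'.IsHomogeneous 1 ∧ i + j = d ∧ q = l ^ i * l' ^ j}

variable {n : ℕ}

/-- a common zero of the good relations that lie in `Bin` -/
def BPt (s : St.{u} n) {J : Type} (κ : J → s.O) (d : ℕ) {Ω : Type u} [Field Ω] [Algebra s.F Ω]
    (η : J → Ω) : Prop :=
  ∀ Q ∈ Bin J s.F d, s.Good (rename κ Q) → aeval η Q = 0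

/-- the product of the two coordinates is a sum of squares -/
def Quad (t : St.{u} 2) : Prop :=
  ∃ (J : Type) (_ : Fintype J) (κ : J → t.O) (e : Fin 2 → J) (c : J → t.F),
    (∀ ε, κ (e ε) = t.xs ε) ∧
    t.Good (rename κ (X (e 0) * X (e 1) - ∑ j, C (c j) * X j ^ 2)) ∧
    ∀ (Ω : Type u) [Field Ω] [Algebra t.F Ω] (η : J → Ω), BPt t κ 3 η →
      η (e 0) * η (e 1) = ∑ j, algebraMap t.F Ω (c j) * η j ^ 2 ∧
        ((∀ ε, η (e ε) = 0) → ∀ j, η j = 0)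

/-- after an extension the relations in `Bin` cut out the points -/
def Prep (s : St.{u} n) (d : ℕ) : Prop :=
  ∃ (s' : St.{u} n) (μ : Mor s s') (J : Type) (_ : Fintype J) (κ : J → s'.O) (e : s.O → J),
    (∀ p, κ (e p) = μ.e p) ∧
    ∀ (Ω : Type u) [Field Ω] [Algebra s'.F Ω] (η : J → Ω), BPt s' κ d η →
      (∀ Q : MvPolynomial s.O s.F, Q.IsHomogeneous 2 → s.ev Q = 0 →
        aeval η (rename e (map μ.φF Q)) = 0) ∧ ((∀ p, η (e p) = 0) → ∀ j, η j = 0)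

/-- the step in degree `d` -/
def StepP (n d : ℕ) : Prop :=
  ∀ (s : St.{u} n), Rich s.F → ∀ (ι : Type) [Fintype ι] (w : ι → MvPolynomial s.O s.F),
    (∀ i, (w i).IsHomogeneous d) →
    (∀ (Ω : Type u) [Field Ω] [Algebra s.F Ω] (χ : s.O → Ω), s.Pt Ω χ →
      (∀ i, aeval χ (w i) = 0) → ∀ p, χ p = 0) →
    ∀ i₀ : ι, ∃ (s' : St.{u} n) (μ : Mor s s') (y : MvPolynomial s'.O s'.F) (τ : ι → s'.F),
      y.IsHomogeneous 1 ∧ τ i₀ ≠ 0 ∧ s'.Good (y ^ d - ∑ i, C (τ i) * μ.push (w i))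

/-- `M` cyclic blocks `(t₀ - t₁ aᵣ) vᵣ` of degree `A` with twisting elements of degree `A'` -/
structure Blk (F D : Type u) [Field F] [DivisionRing D] [Algebra F D] (ζ : F) (A A' M : ℕ) where
  γ : Fin M → D
  v : Fin M → D
  a : Fin M → D
  g : Fin M → MvPolynomial (Fin 2) F
  γ0 : ∀ r, γ r ≠ 0
  v0 : ∀ r, v r ≠ 0
  γA : ∀ r, ∃ c, γ r ^ A' = algebraMap F D c
  vA : ∀ r, ∃ c, v r ^ A = algebraMap F D c
  aa : ∀ r t, Commute (a r) (a t)
  vγ : ∀ r, v r * γ r = ζ • (γ r * v r)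
  va' : ∀ r t, r ≠ t → Commute (v r) (a t)
  vv : ∀ r t, r < t → v r * v t = ζ • (v t * v r)
  γa : ∀ r, γ r ∈ Algebra.adjoin F {a r}
  va : ∀ r, (v r)⁻¹ * a r * v r ∈ Algebra.adjoin F {a r}
  av : ∀ r k, 0 < k → k < A → ¬ Commute (a r) (v r ^ k)
  gh : ∀ r, (g r).IsHomogeneous A
  hg : ∀ r, lin ![v r, -(a r * v r)] ^ A = inc F D (Fin 2) (g r)

/-- diagonal matrices of monomials -/
noncomputable def Dm (K : Type u) [Field K] {M a : ℕ} [NeZero a] (s : Fin M) (m : ZMod a) :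
    Matrix (Gp M a) (Gp M a) (MvPolynomial (Var M a 2) K) :=
  Matrix.diagonal fun g => ∏ k, X (s, k, indw (g s + m) k)

/-- the image of the universal matrices in a division ring -/
structure Mdl (K D : Type u) [Field K] [DivisionRing D] [Algebra K D] (ζ : K) (a M : ℕ)
    [NeZero a] where
  w : Fin M → Fin 2 → D
  x : Fin M → ZMod a → D
  T : (Fin M → (Fin 2 →₀ ℕ) → K) →ₗ[K] D
  T_cen : ∀ R y, Commute (T R) y
  T_zero : ∀ R, (∀ s β, β.degree = a → R s β = 0) → T R = 0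
  pow : ∀ s (ξ : Fin 2 → K), (ξ 0 • w s 0 + ξ 1 • w s 1) ^ a =
    T fun t β => if t = s then ∏ ε, ξ ε ^ β ε else 0
  v0 : ∀ s, w s 0 ≠ 0
  ww : ∀ s t ε ε', s < t → w s ε * w t ε' = ζ • (w t ε' * w s ε)
  x0 : ∀ s, x s 0 = w s 1 * w s 0 ^ (a - 1)
  vx : ∀ s m, w s 0 * x s m = x s (m + 1) * w s 0
  xx : ∀ s m m', Commute (x s m) (x s m')
  xΓ : ∀ s i, ∑ m, chi ζ (-(i * m)) • x s m ≠ 0

end Vale.Agent.P200.H
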