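import Vale.Agent.P200.H.LinkFin
import Vale.Agent.P200.H.Defs

/-! The quartic link in characteristic two. -/

open MvPolynomial TensorProduct

namespace Vale.Agent.P200.H

open Vale.Agent.P200.G Vale.Agent.P200.Eq

universe u

section gen

variable {A : ℕ} [NeZero A] {F L : Type u} [Field F] [Field L] [Algebra F L] {Z : Cyc F L A}
  {E : Type u} [DivisionRing E] [Algebra F E] {s : F} {R : Type u} [Ring R] [Algebra F R]

section K

variable {J : Type} {F' : Type u} [Field F'] [Algebra F F']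

/-- elements whose coordinates lie in `N` -/
noncomputable def l4K (Z : Cyc F L A) (N : Submodule F' (MvPolynomial J F')) :
    AddSubgroup (L ⊗[F] MvPolynomial J F') where
  carrier := {t | ∃ q : Fin A → MvPolynomial J F', (∀ i, q i ∈ N) ∧ t = Z.cmb q}
  add_mem' := by
    rintro _ _ ⟨q, hq, rfl⟩ ⟨q', hq', rfl⟩
    exact ⟨q + q', fun i => add_mem (hq i) (hq' i), by
      simp only [Cyc.cmb, Pi.add_apply, tmul_add, Finset.sum_add_distrib]⟩
  zero_mem' := ⟨0, fun _ => zero_mem _, by simp [Cyc.cmb]⟩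
  neg_mem' := by
    rintro _ ⟨q, hq, rfl⟩
    exact ⟨-q, fun i => neg_mem (hq i), by
      simp only [Cyc.cmb, Pi.neg_apply, tmul_neg, Finset.sum_neg_distrib]⟩

theorem l4K_tmul {N : Submodule F' (MvPolynomial J F')} (x : L) {q : MvPolynomial J F'}
    (hq : q ∈ N) : x ⊗ₜ[F] q ∈ l4K Z N := by
  refine ⟨fun i => Z.bL.repr x i • q, fun i => N.smul_of_tower_mem _ hq, ?_⟩
  conv_lhs => rw [← Z.bL.sum_repr x, sum_tmul]
  simp only [Cyc.cmb, smul_tmul, Z.bL_eq]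

theorem l4_deg0 {x : L ⊗[F] MvPolynomial J F'} (hx : x ∈ lfK Z J F' 0) :
    ∃ d : Fin A → F', x = Z.cmb fun i => C (d i) := by
  obtain ⟨q, hq, rfl⟩ := hx
  exact ⟨fun i => coeff 0 (q i), congrArg Z.cmb (funext fun i =>
    totalDegree_eq_zero_iff_eq_C.1 (Nat.le_zero.1 (hq i).totalDegree_le))⟩

theorem l4K_mul {N : Submodule F' (MvPolynomial J F')} {x y : L ⊗[F] MvPolynomial J F'}
    (hx : x ∈ lfK Z J F' 0) (hy : y ∈ l4K Z N) : x * y ∈ l4K Z N := by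
  obtain ⟨d, rfl⟩ := l4_deg0 hx
  obtain ⟨q, hq, rfl⟩ := hy
  simp only [Cyc.cmb, Finset.sum_mul_sum, Algebra.TensorProduct.tmul_mul_tmul]
  refine sum_mem fun i _ => sum_mem fun j _ => l4K_tmul _ ?_
  rw [← smul_eq_C_mul]
  exact N.smul_mem _ (hq j)

theorem l4_sum_sq {Q : Type*} [CommRing Q] (h : (2 : Q) = 0) {ι : Type*} (S : Finset ι)
    (f : ι → Q) : (∑ i ∈ S, f i) ^ 2 = ∑ i ∈ S, f i ^ 2 := by
  classical
  induction S using Finset.induction_on with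
  | empty => simp
  | insert a S ha ih =>
    rw [Finset.sum_insert ha, Finset.sum_insert ha, add_sq, ih, h]
    ring

theorem l4_sq (h2 : (2 : F) = 0) (q : Fin A → MvPolynomial J F') :
    Z.cmb q ^ 2 = ∑ i : Fin A, ((Z.a ^ i.val) ^ 2) ⊗ₜ[F] (q i ^ 2) := by
  have h : (2 : L ⊗[F] MvPolynomial J F') = 0 :=
    (map_ofNat (algebraMap F (L ⊗[F] MvPolynomial J F')) 2).symm.trans (by rw [h2, map_zero])
  rw [Cyc.cmb, l4_sum_sq h]
  simp only [Algebra.TensorProduct.tmul_pow]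

theorem l4_bin (h2 : (2 : F) = 0) {x y : L ⊗[F] MvPolynomial J F'} (hx : x ∈ lfK Z J F' 1)
    (hy : y ∈ lfK Z J F' 1) : x ^ 2 * y ∈ l4K Z (Bin J F' 3) := by
  obtain ⟨q, hq, rfl⟩ := hx
  obtain ⟨q', hq', rfl⟩ := hy
  rw [l4_sq h2]
  simp only [Cyc.cmb, Finset.sum_mul_sum, Algebra.TensorProduct.tmul_mul_tmul]
  exact sum_mem fun i _ => sum_mem fun j _ => l4K_tmul _
    (Submodule.subset_span ⟨q i, q' j, 2, 1, hq i, hq' j, rfl, by rw [pow_one]⟩)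

theorem l4_exists (Z : Cyc F L A) {Ω : Type u} [Field Ω] [Algebra F' Ω] (η : J → Ω) :
    ∃ Ξ : Fin A → (L ⊗[F] MvPolynomial J F' →+* AlgebraicClosure Ω),
      (∀ q, (∀ h, Ξ h (Z.cmb q) = 0) → ∀ i, aeval η (q i) = 0) ∧
      ∀ h x q, aeval η q = 0 → Ξ h (x ⊗ₜ q) = 0 := by
  let : Algebra F Ω := ((algebraMap F' Ω).comp (algebraMap F F')).toAlgebra
  have : IsScalarTower F F' Ω := IsScalarTower.of_algebraMap_eq fun _ => rfl
  have : Module.Finite F L := Module.Finite.of_basis Z.bL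
  let ι : L →ₐ[F] AlgebraicClosure Ω := IsAlgClosed.lift
  let ψ : MvPolynomial J F' →ₐ[F] AlgebraicClosure Ω :=
    (IsScalarTower.toAlgHom F Ω (AlgebraicClosure Ω)).comp ((aeval η).restrictScalars F)
  let Ξ : Fin A → (L ⊗[F] MvPolynomial J F' →ₐ[F] AlgebraicClosure Ω) := fun h =>
    Algebra.TensorProduct.productMap (ι.comp (sg Z.σ h : L →ₐ[F] L)) ψ
  have hΞ : ∀ h q, Ξ h (Z.cmb q) =
      ∑ i, ι (sg Z.σ h Z.a) ^ i.val * algebraMap Ω _ (aeval η (q i)) := fun h q => by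
    simp [Ξ, ψ, Cyc.cmb]
  refine ⟨fun h => Ξ h, fun q hq i => ?_, fun h x q hq => by simp [Ξ, ψ, hq]⟩
  have := Matrix.eq_zero_of_forall_index_sum_pow_mul_eq_zero
    (f := fun h => ι (sg Z.σ h Z.a))
    (fun h h' hh => Z.a_inj ((ι : L →+* AlgebraicClosure Ω).injective hh))
    (v := fun i => algebraMap Ω _ (aeval η (q i))) fun h => (hΞ h q).symm.trans (hq h)
  exact (map_eq_zero (algebraMap Ω (AlgebraicClosure Ω))).1 (congrFun this i)

theorem l4_cmb_zero {Q : Type*} [CommRing Q] {Ξ : L ⊗[F] MvPolynomial J F' →+* Q}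
    {q : Fin A → MvPolynomial J F'} (h : ∀ x i, Ξ (x ⊗ₜ q i) = 0) : Ξ (Z.cmb q) = 0 := by
  rw [Cyc.cmb, map_sum]
  exact Finset.sum_eq_zero fun i _ => h _ i

/-- the form attached to a word -/
noncomputable def l4W (Z : Cyc F L A) (F' : Type u) [Field F'] [Algebra F F'] (e : Fin A → J) :
    L ⊗[F] MvPolynomial J F' := Z.cmb fun i => X (e i)

/-- the constants -/
noncomputable def l4B (Z : Cyc F L A) (J : Type) (b : Fin A → F') :
    L ⊗[F] MvPolynomial J F' := Z.cmb fun i => C (b i)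

/-- the linear factors -/
noncomputable def l4L (Z : Cyc F L A) (F' : Type u) [Field F'] [Algebra F F'] (xs : Fin 2 → J)
    (j : Fin A) : L ⊗[F] MvPolynomial J F' :=
  (1 : L) ⊗ₜ[F] X (xs 0) - Z.pt j ⊗ₜ[F] X (xs 1)

theorem l4W_mem (e : Fin A → J) : l4W Z F' e ∈ lfK Z J F' 1 :=
  lfK_cmb fun _ => isHomogeneous_X _ _

theorem l4B_mem (b : Fin A → F') : l4B Z J b ∈ lfK Z J F' 0 :=
  lfK_cmb fun _ => isHomogeneous_C _ _

theorem l4L_mem (xs : Fin 2 → J) (j : Fin A) : l4L Z F' xs j ∈ lfK Z J F' 1 :=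
  sub_mem (lfK_tmul _ (isHomogeneous_X _ _)) (lfK_tmul _ (isHomogeneous_X _ _))

end K

section core

variable (t : St.{u} 2) [Algebra F t.F] [Algebra F t.D] [IsScalarTower F t.F t.D] {J : Type}
  (κ : J → t.O)

variable (L) in
/-- evaluation after extension of scalars -/
noncomputable def l4EV : L ⊗[F] MvPolynomial J t.F →ₐ[F] L ⊗[F] Alg t.D (Fin 2) :=
  Algebra.TensorProduct.map (AlgHom.id F L) ((t.ev.comp (rename κ)).restrictScalars F)

variable (Z) in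
/-- the ideal generated by the relations of degree at most two -/
noncomputable def l4I : Ideal (L ⊗[F] MvPolynomial J t.F) :=
  Ideal.span {x | ∃ d ≤ 2, x ∈ lfK Z J t.F d ∧ l4EV L t κ x = 0}

theorem l4I_ev {x : L ⊗[F] MvPolynomial J t.F} (hx : x ∈ l4I Z t κ) : l4EV L t κ x = 0 := by
  have : l4I Z t κ ≤ RingHom.ker (l4EV (F := F) L t κ) := by
    refine Ideal.span_le.2 ?_
    rintro x ⟨d, -, -, h⟩
    exact h
  exact this hx

theorem l4_coord {q : Fin A → MvPolynomial J t.F} (h : l4EV L t κ (Z.cmb q) = 0) (i : Fin A) :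
    t.ev (rename κ (q i)) = 0 := by
  rw [l4EV, lf_map_cmb] at h
  exact lf_coord h i

theorem l4_good {q : Fin A → MvPolynomial J t.F} (h : Z.cmb q ∈ l4I Z t κ) (i : Fin A) :
    t.Good (rename κ (q i)) := by
  refine ⟨l4_coord t κ (l4I_ev t κ h) i, fun Ω _ _ χ hχ => ?_⟩
  obtain ⟨Ξ, h1, h2⟩ := l4_exists (F' := t.F) Z (χ ∘ κ)
  rw [aeval_rename]
  refine h1 q (fun k => ?_) i
  have : l4I Z t κ ≤ RingHom.ker (Ξ k) := by
    refine Ideal.span_le.2 ?_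
    rintro _ ⟨d, hd, ⟨q', hq', rfl⟩, h0⟩
    refine l4_cmb_zero fun x j => h2 k x _ ?_
    rw [← aeval_rename]
    exact lf_pt hχ hd (hq' j).rename_isHomogeneous (l4_coord t κ h0 j)
  exact this h

theorem l4_one : (1 : L ⊗[F] MvPolynomial J t.F) ∉ l4I Z t κ := fun h => by
  have h1 := l4I_ev t κ h
  rw [map_one, Algebra.TensorProduct.one_def] at h1
  exact one_ne_zero (lf_one_tmul Z h1)

theorem l4_rel (Λ : Ld Z E s R) (φ : R →ₐ[F] t.D) {K : Type} (w : K → Fin A → Fin A)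
    (e : K → Fin A → J) (he : ∀ k i ε, t.ω (κ (e k i)) ε = φ (Λ.ω (w k) i ε))
    (xs : Fin 2 → J) (hxs : ∀ ε, κ (xs ε) = t.xs ε) (b : Fin A → Fin A → t.F)
    (hb : ∀ j i, φ (Λ.b j i) = algebraMap t.F t.D (b j i)) :
    (∀ k k' m m', ct (w k) + ct (w k') = ct (w m) + ct (w m') →
      l4W Z t.F (e k) * l4W Z t.F (e k') - l4W Z t.F (e m) * l4W Z t.F (e m') ∈ l4I Z t κ) ∧
    (∀ k j, w k = (fun _ => j) →
      l4W Z t.F (e k) - l4B Z J (b j) * l4L Z t.F xs j ∈ l4I Z t κ) ∧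
    ∏ j, l4B Z J (b j) - algebraMap F _ s ∈ l4I Z t κ := by
  set AM := Algebra.TensorProduct.map (AlgHom.id F L) (lfAm φ) with hAM
  have eW : ∀ k, l4EV L t κ (l4W Z t.F (e k)) = AM (Z.cmb fun i => lin (Λ.ω (w k) i)) :=
    fun k => by
      rw [l4EV, l4W, hAM, lf_map_cmb, lf_map_cmb]
      refine congrArg Z.cmb (funext fun i => ?_)
      rw [AlgHom.restrictScalars_apply, AlgHom.comp_apply, rename_X, t.ev_X, lfAm_lin]
      exact congrArg lin (funext (he k i))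
  have eβ : ∀ j, l4EV L t κ (l4B Z J (b j)) = AM (Z.cmb fun i => cst 2 (Λ.b j i)) := fun j => by
    rw [l4EV, l4B, hAM, lf_map_cmb, lf_map_cmb]
    refine congrArg Z.cmb (funext fun i => ?_)
    rw [lfAm_cst, hb, ← algebraMap_alg, ← algebraMap_eq]
    exact (t.ev.comp (rename κ)).commutes _
  have el : ∀ j, l4EV L t κ (l4L Z t.F xs j) =
      AM ((1 : L) ⊗ₜ lin ![(1 : R), 0] - Z.pt j ⊗ₜ lin ![(0 : R), 1]) := fun j => by
    have h0 : t.ev (X (t.xs 0)) = lfAm φ (lin ![(1 : R), 0]) := by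
      rw [t.ev_X, lfAm_lin, t.ω_xs]
      refine congrArg lin (funext fun i => ?_)
      fin_cases i <;> simp
    have h1 : t.ev (X (t.xs 1)) = lfAm φ (lin ![(0 : R), 1]) := by
      rw [t.ev_X, lfAm_lin, t.ω_xs]
      refine congrArg lin (funext fun i => ?_)
      fin_cases i <;> simp
    simp only [l4EV, l4L, hAM, map_sub, Algebra.TensorProduct.map_tmul,
      AlgHom.restrictScalars_apply, AlgHom.comp_apply, rename_X, hxs, h0, h1]
  have hE : ∀ d ≤ 2, ∀ x ∈ lfK Z J t.F d, ∀ y ∈ lfK Z J t.F d,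
      l4EV L t κ x = l4EV L t κ y → x - y ∈ l4I Z t κ := fun d hd x hx y hy h =>
    Ideal.subset_span ⟨d, hd, sub_mem hx hy, by rw [map_sub, h, sub_self]⟩
  refine ⟨fun k k' m m' h => ?_, fun k j h => ?_, ?_⟩
  · refine hE 2 le_rfl _ (lfK_mul (l4W_mem _) (l4W_mem _)) _
      (lfK_mul (l4W_mem _) (l4W_mem _)) ?_
    rw [map_mul, map_mul, eW, eW, eW, eW, ← map_mul, ← map_mul, Λ.ver _ _ _ _ h]
  · refine hE 1 one_le_two _ (l4W_mem _) _ (lfK_mul (l4B_mem _) (l4L_mem _ _)) ?_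
    rw [map_mul, eW, eβ, el, ← map_mul, h, Λ.nrm j]
  · refine hE 0 zero_le_two _ ?_ _ ?_ ?_
    · exact Finset.prod_induction _ (· ∈ lfK Z J t.F 0) (fun _ _ h h' => lfK_mul h h')
        (lfK_tmul 1 (isHomogeneous_one _ _)) fun j _ => l4B_mem _
    · exact lfK_tmul _ (isHomogeneous_one _ _)
    · rw [AlgHom.commutes, ← AM.commutes, ← Λ.prd, ← List.prod_ofFn, map_list_prod, map_list_prod,
        List.map_ofFn, List.map_ofFn]
      exact congrArg (fun f => (List.ofFn f).prod) (funext eβ)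

end core

end gen

variable {F L : Type u} [Field F] [Field L] [Algebra F L] {Z : Cyc F L 4}
  {E : Type u} [DivisionRing E] [Algebra F E] {s : F} {R : Type u} [Ring R] [Algebra F R]

/-- the five words -/
def l4w (k : Fin 5) (p : Fin 4) : Fin 4 := if p.val + k.val < 4 then 0 else 1

theorem l4w_ct : ct (l4w 0) + ct (l4w 4) = ct (l4w 2) + ct (l4w 2) ∧
    ct (l4w 3) + ct (l4w 3) = ct (l4w 2) + ct (l4w 4) ∧
    ct (l4w 1) + ct (l4w 1) = ct (l4w 0) + ct (l4w 2) ∧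
    ct (l4w 1) + ct (l4w 2) = ct (l4w 0) + ct (l4w 3) ∧
    ct (l4w 2) + ct (l4w 3) = ct (l4w 1) + ct (l4w 4) ∧
    l4w 0 = (fun _ => 0) ∧ l4w 4 = fun _ => 1 := by
  decide

theorem l4_pts {K : Type*} [Field K] (x : Fin 5 → K) (f1 : x 0 ^ 2 * x 4 = x 2 ^ 2 * x 0)
    (f3 : x 2 ^ 2 * x 2 = x 3 ^ 2 * x 0) (f4 : x 1 ^ 2 * x 1 = x 0 ^ 2 * x 3)
    (f5 : x 3 ^ 2 * x 3 = x 4 ^ 2 * x 1) :
    x 2 ^ 2 - x 0 * x 4 = 0 ∧ (x 0 = 0 → x 4 = 0 → ∀ k, x k = 0) := by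
  have f6 : x 0 = 0 → x 2 = 0 := fun h0 => by
    rw [h0, mul_zero, ← pow_succ, pow_eq_zero_iff (by norm_num)] at f3
    exact f3
  refine ⟨?_, fun h0 h4 k => ?_⟩
  · by_cases a0 : x 0 = 0
    · rw [f6 a0, a0]
      ring
    · refine mul_left_cancel₀ a0 ?_
      linear_combination -f1
  · rw [h0, zero_pow two_ne_zero, zero_mul, ← pow_succ, pow_eq_zero_iff (by norm_num)] at f4
    rw [h4, zero_pow two_ne_zero, zero_mul, ← pow_succ, pow_eq_zero_iff (by norm_num)] at f5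
    fin_cases k
    exacts [h0, f4, f6 h0, f5, h4]

theorem l4_cub {P : Type*} [CommRing P] (I : Ideal P) (T : Fin 5 → P) (u v : P)
    (e1 : T 0 * T 4 - T 2 * T 2 ∈ I) (e2 : T 3 * T 3 - T 2 * T 4 ∈ I)
    (e3 : T 1 * T 1 - T 0 * T 2 ∈ I) (e4 : T 1 * T 2 - T 0 * T 3 ∈ I)
    (e5 : T 2 * T 3 - T 1 * T 4 ∈ I) (e6 : T 0 - u ∈ I) (e7 : T 4 - v ∈ I) :
    T 0 ^ 2 * T 4 - T 2 ^ 2 * T 0 ∈ I ∧ T 2 ^ 2 * T 2 - T 3 ^ 2 * T 0 ∈ I ∧
    T 1 ^ 2 * T 1 - T 0 ^ 2 * T 3 ∈ I ∧ T 3 ^ 2 * T 3 - T 4 ^ 2 * T 1 ∈ I ∧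
    T 2 ^ 2 - u * v ∈ I := by
  simp only [← Ideal.Quotient.eq, map_mul, map_pow] at *
  refine ⟨?_, ?_, ?_, ?_, ?_⟩
  · rw [sq, mul_assoc, e1, sq, mul_comm]
  · rw [sq, sq, e2, ← e1]
    ring
  · rw [sq, sq, e3, mul_assoc, mul_comm _ (Ideal.Quotient.mk I (T 1)), e4, mul_assoc]
  · rw [sq, sq, e2, mul_right_comm, e5]
    ring
  · rw [← e6, ← e7, e1, sq]

theorem l4_ne {P : Type*} [CommRing P] (I : Ideal P) (h1 : 1 ∉ I) (β : Fin 4 → P) {u v : P}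
    (hu : IsUnit u) (hv : IsUnit v) (h : ∏ j, β j - u ∈ I) : β 0 * β 1 * v ≠ 0 := fun h0 => by
  have h2 : ∏ j, β j * v = 0 := by
    rw [Fin.prod_univ_four]
    linear_combination (β 2 * β 3 * v ^ 3) * h0
  refine h1 (I.eq_top_iff_one.1 (I.eq_top_of_isUnit_mem ?_ ((hu.mul (hv.pow 4)).neg)))
  have h3 : -(u * v ^ 4) = v ^ 4 * (∏ j, β j - u) := by
    rw [Finset.prod_mul_distrib, Finset.prod_const, Finset.card_fin] at h2
    linear_combination -h2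
  rw [h3]
  exact I.mul_mem_left _ h

theorem l4_quad (h2 : (2 : F) = 0) {J : Type} [Fintype J] {F' : Type u} [Field F'] [Algebra F F']
    (xs : Fin 2 → J) (e : Fin 4 → J) {G : L ⊗[F] MvPolynomial J F'} (hG : G ∈ lfK Z J F' 0)
    (h0 : G * (Z.pt 0 + Z.pt 1) ⊗ₜ[F] (1 : MvPolynomial J F') ≠ 0) :
    ∃ (q : Fin 4 → MvPolynomial J F') (i : Fin 4) (a : F') (c : J → F'),
      l4W Z F' e ^ 2 - G * (l4L Z F' xs 0 * l4L Z F' xs 1) = Z.cmb q ∧
      X (xs 0) * X (xs 1) - ∑ j, C (c j) * X j ^ 2 = C a * q i := by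
  obtain ⟨d, hd⟩ := l4_deg0 (lfK_mul hG (lfK_tmul (Z.pt 0 + Z.pt 1) (isHomogeneous_one J F')))
  obtain ⟨i, hi⟩ : ∃ i, d i ≠ 0 := by
    by_contra hc
    push Not at hc
    refine h0 ?_
    rw [hd]
    simp [Cyc.cmb, hc]
  let SQ : Submodule F' (MvPolynomial J F') := Submodule.span F' (Set.range fun j => X j ^ 2)
  have hSQ : ∀ j, (X j ^ 2 : MvPolynomial J F') ∈ SQ := fun j => Submodule.subset_span ⟨j, rfl⟩
  have hS : l4W Z F' e ^ 2 - G * (1 : L) ⊗ₜ[F] (X (xs 0) ^ 2) -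
      G * (Z.pt 0 * Z.pt 1) ⊗ₜ[F] (X (xs 1) ^ 2) ∈ l4K Z SQ := by
    refine sub_mem (sub_mem ?_ (l4K_mul hG (l4K_tmul _ (hSQ _))))
      (l4K_mul hG (l4K_tmul _ (hSQ _)))
    rw [l4W, l4_sq h2]
    exact sum_mem fun i _ => l4K_tmul _ (hSQ _)
  obtain ⟨q, hq, hq'⟩ := hS
  obtain ⟨c, hc⟩ := (Submodule.mem_span_range_iff_exists_fun F').1 (hq i)
  refine ⟨fun i => q i + C (d i) * (X (xs 0) * X (xs 1)), i, (d i)⁻¹,
    fun j => -((d i)⁻¹ * c j), ?_, ?_⟩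
  · have h1 : (Z.cmb fun i => q i + C (d i) * (X (xs 0) * X (xs 1))) =
        Z.cmb q + (Z.cmb fun i => C (d i)) *
          (1 : L) ⊗ₜ[F] (X (xs 0) * X (xs 1) : MvPolynomial J F') := by
      simp only [Cyc.cmb, tmul_add, Finset.sum_add_distrib, Finset.sum_mul,
        Algebra.TensorProduct.tmul_mul_tmul, mul_one]
    have h3 : l4L Z F' xs 0 * l4L Z F' xs 1 = (1 : L) ⊗ₜ[F] (X (xs 0) ^ 2) +
        (Z.pt 0 * Z.pt 1) ⊗ₜ[F] (X (xs 1) ^ 2) - (Z.pt 0 + Z.pt 1) ⊗ₜ[F] 1 *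
          (1 : L) ⊗ₜ[F] (X (xs 0) * X (xs 1) : MvPolynomial J F') := by
      simp only [l4L, mul_sub, sub_mul, Algebra.TensorProduct.tmul_mul_tmul, mul_one, one_mul,
        add_tmul, add_mul, sq, mul_comm (X (xs 1) : MvPolynomial J F') (X (xs 0))]
      abel
    rw [h1, ← hd, ← hq', h3]
    ring
  · beta_reduce
    rw [← hc, mul_add, ← mul_assoc, ← map_mul, inv_mul_cancel₀ hi, map_one, one_mul,
      Finset.mul_sum]
    simp only [map_neg, map_mul, neg_mul, Finset.sum_neg_distrib, smul_eq_C_mul, mul_assoc]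
    ring

theorem l4_main (h2 : (2 : F) = 0) (hs : s ≠ 0) (t : St.{u} 2) [Algebra F t.F] [Algebra F t.D]
    [IsScalarTower F t.F t.D] (Λ : Ld Z E s R) (φ : R →ₐ[F] t.D) {J : Type} [Fintype J]
    (κ : J → t.O) (e : Fin 5 → Fin 4 → J)
    (he : ∀ k i ε, t.ω (κ (e k i)) ε = φ (Λ.ω (l4w k) i ε))
    (xs : Fin 2 → J) (hxs : ∀ ε, κ (xs ε) = t.xs ε) (hJ : ∀ j, (∃ ε, j = xs ε) ∨ ∃ k i, j = e k i)
    (b : Fin 4 → Fin 4 → t.F) (hb : ∀ j i, φ (Λ.b j i) = algebraMap t.F t.D (b j i)) :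
    Quad t := by
  obtain ⟨r1, r2, r3⟩ := l4_rel t κ Λ φ l4w e he xs hxs b hb
  obtain ⟨c1, c2, c3, c4, c5, c6, c7⟩ := l4w_ct
  obtain ⟨g1, g3, g4, g5, g6⟩ := l4_cub _ (fun k => l4W Z t.F (e k)) _ _ (r1 0 4 2 2 c1)
    (r1 3 3 2 4 c2) (r1 1 1 0 2 c3) (r1 1 2 0 3 c4) (r1 2 3 1 4 c5) (r2 0 0 c6) (r2 4 1 c7)
  have hL : (2 : L) = 0 := (map_ofNat (algebraMap F L) 2).symm.trans (by rw [h2, map_zero])
  have hp : Z.pt 0 + Z.pt 1 ≠ 0 := fun h => by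
    have : Z.pt 0 = Z.pt 1 := by linear_combination h - Z.pt 1 * hL
    exact absurd (Z.pt_inj this) (by decide)
  obtain ⟨q, i, a, c, hQ, hP⟩ := l4_quad h2 xs (e 2) (lfK_mul (l4B_mem (b 0)) (l4B_mem (b 1)))
    (l4_ne _ (l4_one t κ) (fun j => l4B Z J (b j)) ((IsUnit.mk0 _ hs).map _)
      ((IsUnit.mk0 _ hp).map (Algebra.TensorProduct.includeLeftRingHom
        (R := F) (B := MvPolynomial J t.F))) r3)
  rw [mul_mul_mul_comm] at hQ
  refine ⟨J, inferInstance, κ, xs, c, hxs, ?_, fun Ω _ _ η hη => ?_⟩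
  · rw [hP, map_mul]
    exact Ideal.mul_mem_left t.gd _ (l4_good t κ (hQ ▸ g6) i)
  obtain ⟨Ξ, h1, h3⟩ := l4_exists (F' := t.F) Z η
  have key : ∀ h, ∀ x ∈ l4K Z (Bin J t.F 3), x ∈ l4I Z t κ → Ξ h x = 0 := by
    rintro h _ ⟨q, hq, rfl⟩ hI
    exact l4_cmb_zero fun x j => h3 h x _ (hη _ (hq j) (l4_good t κ hI j))
  have kc : ∀ h a b c d, l4W Z t.F (e a) ^ 2 * l4W Z t.F (e b) -
      l4W Z t.F (e c) ^ 2 * l4W Z t.F (e d) ∈ l4I Z t κ →
      Ξ h (l4W Z t.F (e a)) ^ 2 * Ξ h (l4W Z t.F (e b)) =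
        Ξ h (l4W Z t.F (e c)) ^ 2 * Ξ h (l4W Z t.F (e d)) := fun h a b c d hh => by
    have := key h _ (sub_mem (l4_bin h2 (l4W_mem _) (l4W_mem _))
      (l4_bin h2 (l4W_mem _) (l4W_mem _))) hh
    simpa only [map_sub, map_mul, map_pow, sub_eq_zero] using this
  have kn : ∀ h k j, l4w k = (fun _ => j) →
      Ξ h (l4W Z t.F (e k)) = Ξ h (l4B Z J (b j) * l4L Z t.F xs j) := fun h k j hh => by
    have hx := sub_mem (l4W_mem (Z := Z) (e k)) (lfK_mul (l4B_mem (b j)) (l4L_mem xs j))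
    have := key h _ (l4_bin h2 hx hx) (Ideal.mul_mem_left _ _ (r2 k j hh))
    rw [← pow_succ, map_pow, pow_eq_zero_iff (by norm_num), map_sub, sub_eq_zero] at this
    exact this
  have f := fun h => l4_pts (fun k => Ξ h (l4W Z t.F (e k))) (kc h 0 4 2 0 g1) (kc h 2 2 3 0 g3)
    (kc h 1 1 0 3 g4) (kc h 3 3 4 1 g5)
  refine ⟨?_, fun h0 j => ?_⟩
  · have := h1 q (fun h => by
      rw [← hQ, map_sub, map_mul, ← kn h 0 0 c6, ← kn h 4 1 c7, map_pow]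
      exact (f h).1) i
    have h5 := congrArg (aeval η) hP
    rw [map_mul (aeval η) (C _), this, mul_zero] at h5
    simpa only [map_sub, map_mul, map_sum, map_pow, aeval_X, aeval_C, sub_eq_zero] using h5
  have hl0 : ∀ h j, Ξ h (l4B Z J (b j) * l4L Z t.F xs j) = 0 := fun h j => by
    rw [map_mul, l4L, map_sub, h3 h _ _ (by rw [aeval_X, h0]),
      h3 h _ _ (by rw [aeval_X, h0]), sub_self, mul_zero]
  rcases hJ j with ⟨ε, rfl⟩ | ⟨k, i, rfl⟩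
  · exact h0 ε
  · simpa only [aeval_X] using h1 (fun i => X (e k i)) (fun h => (f h).2
      ((kn h 0 0 c6).trans (hl0 h 0)) ((kn h 4 1 c7).trans (hl0 h 1)) k) i

theorem linkFin4 (h2 : (2 : F) = 0) (hs : s ≠ 0) (Λ : Ld Z E s R) (hR : DomFin R)
    (g : MvPolynomial (Fin 2) F)
    (hg : map (algebraMap F L) g = C (algebraMap F L s) * ∏ j, (X 0 - C (Z.pt j) * X 1)) :
    ∃ (t : St.{u} 2) (φF : F →+* t.F) (φ : E →+* t.D),
      (∀ c, φ (algebraMap F E c) = algebraMap t.F t.D (φF c)) ∧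
      (∀ e p i, Commute (φ e) (t.ω p i)) ∧ t.Zero ∧ Quad t := by
  obtain ⟨F', D, _, _, _, _, φF, φ, -, hφ, hz⟩ := exists_loc (F := F) hR
  choose b hb using fun j i => hz (Λ.b j i) (Λ.b_cent j i)
  let ω : Fin 2 ⊕ (Fin 4 → Fin 4) × Fin 4 → Fin 2 → D :=
    Sum.elim (fun ε => Pi.single ε 1) fun p ε => φ (Λ.ω p.1 p.2 ε)
  have h1 : ∀ (ε i : Fin 2) (x : D), Commute ((Pi.single ε 1 : Fin 2 → D) i) x := fun ε i x => by
    rw [Pi.single_apply]
    split_ifs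
    exacts [Commute.one_left x, Commute.zero_left x]
  obtain ⟨ev, hev⟩ := exists_aeval (K := F') (fun p => lin (ω p)) fun p q => by
    rcases p with ε | p
    · exact commute_lin fun i j => h1 ε i _
    rcases q with ε | q
    · exact commute_lin fun i j => (h1 ε j _).symm
    have := (Λ.ω_comm p.1 p.2 q.1 q.2).map (amap 2 φ)
    rwa [amap_lin, amap_lin] at this
  let t : St.{u} 2 :=
    { F := F', D := D, O := Fin 2 ⊕ (Fin 4 → Fin 4) × Fin 4, ω := ω, ev := ev, ev_X := hev,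
      xs := Sum.inl, ω_xs := fun _ => rfl }
  let : Algebra F t.F := φF.toAlgebra
  let : Algebra F t.D := Algebra.compHom D φF
  have : IsScalarTower F t.F t.D := IsScalarTower.of_algebraMap_eq fun _ => rfl
  obtain ⟨h3, -⟩ := lf_main t Λ { φ with commutes' := hφ } (fun w i => Sum.inr (w, i))
    (fun _ _ _ => rfl) b hb (by
      rintro (ε | p)
      exacts [Or.inl ⟨ε, rfl⟩, Or.inr ⟨p.1, p.2, rfl⟩]) hg
  refine ⟨t, φF, φ.comp (Λ.jE : E →+* R), fun c => ?_, ?_, h3,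
    l4_main h2 hs t Λ { φ with commutes' := hφ } (J := Fin 2 ⊕ Fin 5 × Fin 4)
      (Sum.map id fun p => (l4w p.1, p.2)) (fun k i => Sum.inr (k, i)) (fun _ _ _ => rfl)
      Sum.inl (fun _ => rfl) (by
        rintro (ε | p)
        exacts [Or.inl ⟨ε, rfl⟩, Or.inr ⟨p.1, p.2, rfl⟩]) b hb⟩
  · exact (congrArg φ (Λ.jE.commutes c)).trans (hφ c)
  · rintro x (ε | p) i
    · exact (h1 ε i _).symm
    · exact ((Λ.ω_E p.1 p.2 i x).map φ).symm

end Vale.Agent.P200.H
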