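import Vale.Agent.P200.G.PlTri

/-! Existence of triangular systems. -/

open MvPolynomial Finset Matrix

namespace Vale.Agent.P200.H

open Vale.Agent.P200.G Vale.Agent.P200.Eq

universe u

variable {M a n : ℕ} {K : Type u} [Field K]

theorem plTri_aux' {p b : ℕ} (B : Finset (Fin M)) (hM : p + b + B.card ≤ M)
    (ρ : Fin p → Fin M → (ZMod a → Fin n) → K)
    (h : ∀ c : Fin p → K, c ≠ 0 → Few b fun s => ∀ f, ∑ j, c j * ρ j s f = 0) (q : ℕ)
    (hq : q ≤ p) :
    ∃ (bb : Fin q → Fin M) (f : Fin q → ZMod a → Fin n)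
      (R : Fin q → Fin M → (ZMod a → Fin n) → K), Function.Injective bb ∧
      (∀ j, R j ∈ Submodule.span K (Set.range ρ)) ∧ (∀ j, R j (bb j) (f j) ≠ 0) ∧
      (∀ j j', j' < j → R j (bb j') (f j') = 0) ∧ ∀ j, bb j ∉ B := by
  classical
  induction q with
  | zero =>
    exact ⟨Fin.elim0, Fin.elim0, Fin.elim0, fun j => j.elim0, fun j => j.elim0, fun j => j.elim0,
      fun j => j.elim0, fun j => j.elim0⟩
  | succ q ih =>
    obtain ⟨bb, f, R, h1, h2, h3, h4, h5⟩ := ih (Nat.le_of_succ_le hq)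
    obtain ⟨c, c0, hc⟩ := plTri_ker hq fun i j => ρ j (bb i) (f i)
    have h7 := h c c0 (univ.filter fun s => ∀ g, ∑ j, c j * ρ j s g = 0)
      fun s hs => (mem_filter.1 hs).2
    obtain ⟨s, -, hs⟩ := exists_mem_notMem_of_card_lt_card
      (s := ((univ.filter fun s => ∀ g, ∑ j, c j * ρ j s g = 0) ∪ B) ∪ univ.image bb) (t := univ) (by
        have h8 := card_union_le (univ.filter fun s => ∀ g, ∑ j, c j * ρ j s g = 0) B
        have h9 := card_union_le ((univ.filter fun s => ∀ g, ∑ j, c j * ρ j s g = 0) ∪ B)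
          (univ.image bb)
        have h10 := card_image_le (s := (univ : Finset (Fin q))) (f := bb)
        rw [card_univ, Fintype.card_fin] at h10 ⊢
        omega)
    rw [mem_union, mem_union, mem_filter, not_or, not_or] at hs
    obtain ⟨g, h9⟩ := not_forall.1 fun e => hs.1.1 ⟨mem_univ _, e⟩
    have e : ∀ t g, (∑ j, c j • ρ j) t g = ∑ j, c j * ρ j t g := fun t g => by
      simp only [Finset.sum_apply, Pi.smul_apply, smul_eq_mul]
    obtain ⟨bb', f', R', k1, k2, k3, k4, k5, -⟩ := plTri_snoc (Q := fun t => t ∉ B) h1 h2 h3 h4 h5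
      (s := s) (g := g) (S := ∑ j, c j • ρ j) (fun j hj => hs.2 (mem_image.2 ⟨j, mem_univ _, hj⟩))
      (Submodule.sum_mem _ fun j _ => Submodule.smul_mem _ _ (Submodule.subset_span ⟨j, rfl⟩))
      (by rwa [e]) (fun j => by rw [e, hc]) hs.1.2
    exact ⟨bb', f', R', k1, k2, k3, k4, k5⟩

theorem tri_of' {p b : ℕ} (hM : p + b ≤ M) (ρ : Fin p → Fin M → (ZMod a → Fin n) → K)
    (h : ∀ c : Fin p → K, c ≠ 0 → Few b fun s => ∀ f, ∑ j, c j * ρ j s f = 0) :
    Tri p (Set.range ρ) := by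
  obtain ⟨bb, f, R, h1, h2, h3, h4, -⟩ := plTri_aux' ∅ (by simpa using hM) ρ h p le_rfl
  exact ⟨bb, f, R, h1, h2, h3, h4⟩

theorem tri_one' {p b : ℕ} (hM : p + b < M) (ρ : Fin p → Fin M → (ZMod a → Fin n) → K)
    (h : ∀ c : Fin p → K, c ≠ 0 → Few b fun s => ∀ f, ∑ j, c j * ρ j s f = 0)
    (s : Fin M) (R : Fin M → (ZMod a → Fin n) → K) (h0 : ∀ t, t ≠ s → R t = 0) (h1 : R s ≠ 0) :
    Tri (p + 1) (insert R (Set.range ρ)) := by
  obtain ⟨bb, f, S, k1, k2, k3, k4, k5⟩ := plTri_aux' {s} (by rw [card_singleton]; exact hM) ρ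
    h p le_rfl
  obtain ⟨g, hg⟩ := Function.ne_iff.1 h1
  have k6 : ∀ j, bb j ≠ s := fun j e => k5 j (mem_singleton.2 e)
  obtain ⟨bb', f', R', l1, l2, l3, l4, -⟩ := plTri_snoc (T := insert R (Set.range ρ))
    (Q := fun _ => True) k1 (fun j => Submodule.span_mono (Set.subset_insert _ _) (k2 j)) k3 k4
    (fun _ => trivial) (s := s) (g := g) (S := R) k6 (Submodule.subset_span (Set.mem_insert _ _)) hg
    (fun j => by rw [h0 _ (k6 j)]; rfl) trivial
  exact ⟨bb', f', R', l1, l2, l3, l4⟩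

end Vale.Agent.P200.H
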