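import Vale.Agent.P200.H.Link
import Vale.Agent.P200.H.Link4
import Vale.Agent.P200.H.Blocks
import Vale.Agent.P200.H.PlTri

/-! A free quartic link. -/

open MvPolynomial Finset

namespace Vale.Agent.P200.H

open Vale.Agent.P200.G Vale.Agent.P200.Eq

universe u

theorem link4 (F E : Type u) [Field F] [Infinite F] [DivisionRing E] [Algebra F E]
    [FiniteDimensional F E] (h2 : (2 : F) = 0) :
    ∃ (t : St.{u} 2) (φF : F →+* t.F) (φ : E →+* t.D),
      (∀ c, φ (algebraMap F E c) = algebraMap t.F t.D (φF c)) ∧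
      (∀ e p i, Commute (φ e) (t.ω p i)) ∧ t.Zero ∧ Quad t := by
  have : Fact (Nat.Prime 2) := ⟨Nat.prime_two⟩
  have : CharP F 2 := (CharP.charP_iff_prime_eq_zero Nat.prime_two).2 (by exact_mod_cast h2)
  have : ExpChar F 2 := ExpChar.prime Nat.prime_two
  obtain ⟨F₁, D, _, _, _, _, φF, φ, B, c, halg, ha, hv, -⟩ :=
    exists_blocks (K := F) E (M := 1) (a := 4) (a' := 1) (r := 0) (b := 0) (q := 2) (e := 2)
      (by norm_num) (by norm_num) IsPrimitiveRoot.one (by norm_num) Fin.elim0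
      (fun _ _ _ c hc => absurd (Subsingleton.elim c 0) hc)
      (tri_of' (b := 0) (by norm_num) _ fun c hc => absurd (Subsingleton.elim c 0) hc)
      fun s R h0 h1 => tri_one' (b := 0) (by norm_num) _
        (fun c hc => absurd (Subsingleton.elim c 0) hc) s R h0 h1
  obtain ⟨E₁, _, _, _, ι, hι⟩ := exists_cent (F := F₁) (Set.range B.a ∪ Set.range B.v)
  obtain ⟨ψ, hψ⟩ := exists_cores (ι : E₁ →+* D) φ fun x => (hι (φ x)).2 (by
    rintro z (⟨r, rfl⟩ | ⟨r, rfl⟩)
    · exact (ha r x).symm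
    · exact (hv r x).symm)
  have halg' : ∀ c, ψ (algebraMap F E c) = algebraMap F₁ E₁ (φF c) := fun c =>
    (ι : E₁ →+* D).injective (by
      rw [hψ, halg]
      exact (ι.commutes _).symm)
  have : Infinite F₁ := Infinite.of_injective _ φF.injective
  obtain ⟨L, _, _, Z, s, R, _, _, Λ, hs, hR, hg⟩ := exists_ld_blk ι (by norm_num) B 0
    (fun x => ((hι _).1 ⟨x, rfl⟩ _ (Or.inl ⟨0, rfl⟩)).symm)
    (fun x => ((hι _).1 ⟨x, rfl⟩ _ (Or.inr ⟨0, rfl⟩)).symm)
  obtain ⟨t, φF', φ', h1, h3, h4, h5⟩ := linkFin4 (by rw [← map_ofNat φF 2, h2, map_zero]) hs Λ hR _ hg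
  exact ⟨t, φF'.comp φF, φ'.comp ψ, fun c => by
    rw [RingHom.comp_apply, halg', h1, RingHom.comp_apply], fun x => h3 _, h4, h5⟩

end Vale.Agent.P200.H
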