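import Vale.Agent.P200.H.StepB
import Vale.Agent.P200.H.Binz
import Vale.Agent.P200.H.Prep
import Vale.Agent.P200.H.Prep3
import Vale.Agent.P200.H.Quad

/-! The step in every degree. -/

open MvPolynomial Finset

namespace Vale.Agent.P200.H

open Vale.Agent.P200.G Vale.Agent.P200.Eq

universe u

theorem stepP (n : ℕ) {d : ℕ} (hd : 1 ≤ d) : StepP.{u} n d := by
  induction d, hd using Nat.le_induction with
  | base =>
    intro s _ ι _ w hw _ i₀
    classical
    refine ⟨s, Mor.refl s, w i₀, Pi.single i₀ 1, hw i₀, by simp, St.mem_gd.1 ?_⟩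
    rw [Finset.sum_eq_single i₀ (fun i _ hi => by simp [hi]) (by simp)]
    simp
  | succ d hd ih =>
    intro s hs ι _ w hw h0 i₀
    obtain ⟨s₁, μ, hμ⟩ := binarize hd ih s hs
    choose b hb hg using fun i => hμ (w i) (hw i)
    have hs₁ := hs.map μ.φF
    have := hs₁.1
    obtain ⟨s₂, ν, y, τ, hy, hτ, hy'⟩ := step_bin (by omega) s₁ hs₁
      (prep_of s₁ (prep_three (fun F E _ _ _ _ _ => link4 F E) s₁) (by omega)) b hb
      (fun Ω _ _ χ hχ h => by
        let : Algebra s.F Ω := ((algebraMap s₁.F Ω).comp μ.φF).toAlgebra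
        refine μ.zero Ω χ hχ (h0 Ω _ (μ.pt_pull (fun _ => rfl) hχ) fun i => ?_)
        have h1 := (hg i).2 Ω χ hχ
        rwa [map_sub, h i, sub_zero, μ.aeval_push fun _ => rfl] at h1) i₀
    refine ⟨s₂, μ.trans ν, y, τ, hy, hτ, St.mem_gd.1 ?_⟩
    have h1 : ∑ i, C (τ i) * ν.push (μ.push (w i) - b i) ∈ s₂.gd :=
      Ideal.sum_mem _ fun i _ => Ideal.mul_mem_left _ _ (St.mem_gd.2 (ν.good_push (hg i)))
    have h2 := s₂.gd.sub_mem (St.mem_gd.2 hy') h1
    simp only [map_sub, mul_sub, Finset.sum_sub_distrib, Mor.push_trans] at h2 ⊢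
    convert h2 using 1
    ring

end Vale.Agent.P200.H
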