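import Vale.Agent.P200.H.Defs

/-! The span of binary products. -/

open MvPolynomial Finset

namespace Vale.Agent.P200.H

open Vale.Agent.P200.G Vale.Agent.P200.Eq

universe u

variable {σ τ : Type} {F : Type u} [Field F] {d : ℕ}

theorem pow_mul_mem_Bin {l l' : MvPolynomial σ F} (hl : l.IsHomogeneous 1)
    (hl' : l'.IsHomogeneous 1) {i j : ℕ} (h : i + j = d) : l ^ i * l' ^ j ∈ Bin σ F d :=
  Submodule.subset_span ⟨l, l', i, j, hl, hl', h, rfl⟩

theorem hom_of_mem_Bin {q : MvPolynomial σ F} (h : q ∈ Bin σ F d) : q.IsHomogeneous d := by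
  refine (Submodule.span_le (p := homogeneousSubmodule σ F d)).2 ?_ h
  rintro _ ⟨l, l', i, j, hl, hl', rfl, rfl⟩
  simpa using (hl.pow i).mul (hl'.pow j)

theorem aeval_mem_Bin (z : σ → MvPolynomial τ F) (hz : ∀ x, (z x).IsHomogeneous 1)
    {q : MvPolynomial σ F} (h : q ∈ Bin σ F d) : aeval z q ∈ Bin τ F d := by
  refine (Submodule.span_le (p := (Bin τ F d).comap (aeval z).toLinearMap)).2 ?_ h
  rintro _ ⟨l, l', i, j, hl, hl', e, rfl⟩
  show aeval z (l ^ i * l' ^ j) ∈ Bin τ F d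
  rw [map_mul, map_pow, map_pow]
  exact pow_mul_mem_Bin (hl.aeval z hz) (hl'.aeval z hz) e

theorem rename_mem_Bin (f : σ → τ) {q : MvPolynomial σ F} (h : q ∈ Bin σ F d) :
    rename f q ∈ Bin τ F d := by
  rw [rename_eq_aeval]
  exact aeval_mem_Bin _ (fun x => isHomogeneous_X _ _) h

theorem map_mem_Bin {F' : Type u} [Field F'] (φ : F →+* F') {q : MvPolynomial σ F}
    (h : q ∈ Bin σ F d) : map φ q ∈ Bin σ F' d := by
  induction h using Submodule.span_induction with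
  | mem x hx =>
    obtain ⟨l, l', i, j, hl, hl', e, rfl⟩ := hx
    rw [map_mul, map_pow, map_pow]
    exact pow_mul_mem_Bin (hl.map φ) (hl'.map φ) e
  | zero => simp
  | add x y _ _ hx hy => simpa using add_mem hx hy
  | smul r x _ hx =>
    rw [smul_eq_C_mul, map_mul, map_C, ← smul_eq_C_mul]
    exact Submodule.smul_mem _ _ hx

theorem finite_Bin [Finite σ] : FiniteDimensional F (Bin σ F d) :=
  haveI := Module.Finite.iff_fg.2 (homogeneousSubmodule_fg σ F d)
  Submodule.finiteDimensional_of_le (S₂ := homogeneousSubmodule σ F d) fun _ h => hom_of_mem_Bin h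

theorem bin_lin {N : ℕ} (c : Fin N → F) :
    (∑ x, C (c x) * X x : MvPolynomial (Fin N) F).IsHomogeneous 1 :=
  IsHomogeneous.sum _ _ _ fun x _ => (isHomogeneous_X F x).C_mul _

theorem pen_mem_Bin {N : ℕ} (P : Fin 2 → Fin N → F) {β : Fin 2 →₀ ℕ} (h : β.degree = d) :
    pen P β ∈ Bin (Fin N) F d := by
  rw [pen, Fin.prod_univ_two]
  refine pow_mul_mem_Bin (bin_lin _) (bin_lin _) ?_
  rw [← h, Finsupp.degree_eq_sum, Fin.sum_univ_two]

theorem bin_exists {N : ℕ} {l : MvPolynomial (Fin N) F} (hl : l.IsHomogeneous 1) :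
    ∃ c : Fin N → F, l = ∑ x, C (c x) * X x := by
  have h : l ∈ homogeneousSubmodule (Fin N) F 1 := hl
  rw [homogeneousSubmodule_one_eq_span_X, Submodule.mem_span_range_iff_exists_fun] at h
  obtain ⟨c, hc⟩ := h
  exact ⟨c, by simp only [← hc, smul_eq_C_mul]⟩

theorem Bin_le_span {N : ℕ} : Bin (Fin N) F d ≤
    Submodule.span F {q | ∃ (P : Fin 2 → Fin N → F) (β : Fin 2 →₀ ℕ), β.degree = d ∧ q = pen P β} := by
  refine Submodule.span_mono ?_
  rintro _ ⟨l, l', i, j, hl, hl', e, rfl⟩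
  obtain ⟨c, rfl⟩ := bin_exists hl
  obtain ⟨c', rfl⟩ := bin_exists hl'
  refine ⟨![c, c'], Finsupp.equivFunOnFinite.symm ![i, j], ?_, ?_⟩
  · rw [Finsupp.degree_eq_sum, Fin.sum_univ_two]
    exact e
  · rw [pen, Fin.prod_univ_two]
    rfl

theorem bin_coeff [Infinite F] {A : Type*} [AddCommGroup A] [Module F A] (V : Submodule F A)
    {N : ℕ} {v : ℕ → A} (h : ∀ t : F, ∑ j ∈ range N, t ^ j • v j ∈ V) {i : ℕ} (hi : i < N) :
    v i ∈ V := by
  by_contra hv
  obtain ⟨φ, h1, h2⟩ := V.exists_dual_map_eq_bot_of_notMem hv inferInstance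
  have h3 : ∑ j ∈ range N, Polynomial.monomial j (φ (v j)) = 0 :=
    Polynomial.funext fun t => by
      have := Submodule.mem_map_of_mem (f := φ) (h t)
      rw [h2, Submodule.mem_bot, map_sum] at this
      simpa [Polynomial.eval_finsetSum, mul_comm] using this
  have h4 := congrArg (Polynomial.coeff · i) h3
  simp [Polynomial.coeff_monomial, hi] at h4
  exact h1 h4

theorem bin_der [Infinite F] (h2 : (2 : F) = 0) {k i : ℕ} (hk : Even k)
    {x m l : MvPolynomial σ F} (hx : x.IsHomogeneous 1) (hm : m.IsHomogeneous 1)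
    (hl : l.IsHomogeneous 1) : x ^ i * m * l ^ k ∈ Bin σ F (i + (k + 1)) := by
  have h := bin_coeff (Bin σ F (i + (k + 1))) (N := k + 1 + 1) (i := 1)
    (v := fun j => (((k + 1).choose j : ℕ) : F) • (x ^ i * m ^ j * l ^ (k + 1 - j)))
    (fun t => by
      have := pow_mul_mem_Bin (i := i) (j := k + 1) hx ((hm.C_mul t).add hl) rfl
      rw [add_pow, mul_sum] at this
      refine (congrArg (· ∈ Bin σ F (i + (k + 1))) (sum_congr rfl fun j _ => ?_)).mp this
      simp only [smul_eq_C_mul, map_pow, map_natCast]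
      ring) (by omega)
  obtain ⟨r, rfl⟩ := hk
  rwa [Nat.choose_one_right, pow_one, Nat.add_sub_cancel, Nat.cast_add, Nat.cast_add,
    ← two_mul (r : F), h2, zero_mul, zero_add, Nat.cast_one, one_smul] at h

theorem binQ [Infinite F] (h : (2 : F) ≠ 0 ∨ Even d) (hd : 2 ≤ d) {Q l : MvPolynomial σ F}
    (hQ : Q.IsHomogeneous 2) (hl : l.IsHomogeneous 1) : Q * l ^ (d - 2) ∈ Bin σ F d := by
  obtain ⟨k, rfl⟩ := Nat.exists_eq_add_of_le hd
  rw [Nat.add_sub_cancel_left]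
  have h1 : Q ∈ homogeneousSubmodule σ F 2 := hQ
  rw [← homogeneousSubmodule_one_pow, sq] at h1
  refine Submodule.mul_induction_on (C := fun Q => Q * l ^ k ∈ Bin σ F (2 + k)) h1
    (fun x hx y hy => ?_) fun x y hx hy => by simpa only [add_mul] using add_mem hx hy
  by_cases h2 : (2 : F) = 0
  · have := bin_der (i := 1) h2 ((Nat.even_add.1 (h.resolve_left (not_not.2 h2))).1 even_two)
      hx hy hl
    rwa [pow_one, show 1 + (k + 1) = 2 + k by omega] at this
  · refine (Submodule.smul_mem_iff _ h2).1 ?_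
    rw [show (2 : F) • (x * y * l ^ k) = (x + y) ^ 2 * l ^ k - x ^ 2 * l ^ k - y ^ 2 * l ^ k by
      rw [two_smul]
      ring]
    exact sub_mem (sub_mem (pow_mul_mem_Bin (IsHomogeneous.add hx hy) hl rfl)
      (pow_mul_mem_Bin hx hl rfl)) (pow_mul_mem_Bin hy hl rfl)

theorem binD [Infinite F] (h2 : (2 : F) = 0) (hd : Odd d) (h3 : 3 ≤ d) {Q l : MvPolynomial σ F}
    (hQ : Q ∈ Bin σ F 3) (hl : l.IsHomogeneous 1) : Q * l ^ (d - 3) ∈ Bin σ F d := by
  obtain ⟨k, rfl⟩ := Nat.exists_eq_add_of_le h3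
  rw [Nat.add_sub_cancel_left]
  have hk : Even k := (Nat.odd_add.1 hd).1 (by decide)
  have key : ∀ {x y : MvPolynomial σ F}, x.IsHomogeneous 1 → y.IsHomogeneous 1 →
      x ^ 2 * y * l ^ k ∈ Bin σ F (3 + k) := fun hx hy => by
    have := bin_der (i := 2) h2 hk hx hy hl
    rwa [show 2 + (k + 1) = 3 + k by omega] at this
  refine (Submodule.span_le (p := (Bin σ F (3 + k)).comap (LinearMap.mulRight F (l ^ k)))).2 ?_ hQ
  rintro _ ⟨x, y, i, j, hx, hy, e, rfl⟩
  show x ^ i * y ^ j * l ^ k ∈ Bin σ F (3 + k)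
  obtain ⟨rfl, rfl⟩ | ⟨rfl, rfl⟩ | ⟨rfl, rfl⟩ | ⟨rfl, rfl⟩ :
      (i = 0 ∧ j = 3) ∨ (i = 1 ∧ j = 2) ∨ (i = 2 ∧ j = 1) ∨ (i = 3 ∧ j = 0) := by omega
  · rw [show x ^ 0 * y ^ 3 = y ^ 2 * y by ring]
    exact key hy hy
  · rw [show x ^ 1 * y ^ 2 = y ^ 2 * x by ring]
    exact key hy hx
  · rw [pow_one]
    exact key hx hy
  · rw [show x ^ 3 * y ^ 0 = x ^ 2 * x by ring]
    exact key hx hx

end Vale.Agent.P200.H
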