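import Vale.Agent.P200.H.DomC

/-! The weight subring over the finite group has no zero divisors. -/

open Finset TensorProduct

namespace Vale.Agent.P200.H

open Vale.Agent.P200.G Vale.Agent.P200.Eq

universe u

variable {A : ℕ} [NeZero A] {F L : Type u} [Field F] [Field L] [Algebra F L] {Z : Cyc F L A}
  (P : Pk Z) {E D : Type u} [DivisionRing E] [Algebra F E] [FiniteDimensional F E]
  [DivisionRing D] [Algebra F D] [FiniteDimensional F D] (I : Inp Z E D)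

namespace Dom0

open Classical in
/-- a subspace under a condition -/
noncomputable def cnd {k : Type u} [Field k] [Algebra F k] (p : Prop) (N : Submodule F k) :
    Submodule F k := if p then N else ⊥

theorem mem_cnd {k : Type u} [Field k] [Algebra F k] {p : Prop} {N : Submodule F k} {f : k} :
    f ∈ cnd p N ↔ f ∈ N ∧ (¬ p → f = 0) := by
  by_cases h : p
  · simp [cnd, h]
  · simp only [cnd, if_neg h, Submodule.mem_bot]
    exact ⟨fun e => ⟨e ▸ zero_mem _, fun _ => e⟩, fun e => e.2 h⟩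

theorem cnd_pos {k : Type u} [Field k] [Algebra F k] {p : Prop} (h : p) (N : Submodule F k) :
    cnd p N = N := if_pos h

theorem cnd_neg {k : Type u} [Field k] [Algebra F k] {p : Prop} (h : ¬ p) (N : Submodule F k) :
    cnd p N = ⊥ := if_neg h

/-- order at least `m`, supported on `n = 0` -/
noncomputable def Fm (m : ℕ) (g : Gw A) : Submodule F P.k :=
  cnd (g.n = 0) ((P.T.Fil m).restrictScalars F)

/-- order at least `m`, supported on `n = 0`, `k + h = r` -/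
noncomputable def Nr (r : Fin A) (m : ℕ) (g : Gw A) : Submodule F P.k :=
  cnd (g.n = 0 ∧ g.k + g.h = r) ((P.T.Fil m).restrictScalars F)

/-- the weight condition -/
noncomputable def Eg (g : Gw A) : Submodule F P.k := P.N g

theorem mem_Eg {g : Gw A} {f : P.k} : f ∈ Eg P g ↔ f ∈ P.W (ixo A) (g • ixo A) := Iff.rfl

theorem Nr_zero (m : ℕ) : Nr P 0 m = P.Nc m := by
  funext g
  by_cases h : g.n = 0 ∧ g.k + g.h = 0
  · rw [Nr, cnd_pos h, Pk.Nc, if_pos h]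
  · rw [Nr, cnd_neg h, Pk.Nc, if_neg h]

theorem mul_n {g g' : Gw A} (h : g.n = 0) (h' : g'.n = 0) : (g * g').n = 0 := by
  funext j
  rw [Gw.mul_n, h, h']
  rfl

theorem fil_zero {f : P.k} : f ∈ P.T.Fil 0 ↔ f ∈ P.T.O :=
  (P.T.mem_Fil 0 f).trans ⟨fun h => h.1, fun h => ⟨h, fun _ h' => absurd h' (Nat.not_lt_zero _)⟩⟩

theorem fil_anti {m m' : ℕ} (h : m ≤ m') {f : P.k} (hf : f ∈ P.T.Fil m') : f ∈ P.T.Fil m :=
  (P.T.mem_Fil m f).2 ⟨((P.T.mem_Fil m' f).1 hf).1,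
    fun μ hμ => ((P.T.mem_Fil m' f).1 hf).2 μ (hμ.trans_le h)⟩

theorem cnd_mul {p p' p'' : Prop} {m m' : ℕ} {g : Gw A} (hg : p → g.n = 0) (h : p → p' → p'') :
    ∀ f ∈ cnd p ((P.T.Fil m).restrictScalars F), ∀ f' ∈ cnd p' ((P.T.Fil m').restrictScalars F),
      f * P.α g f' ∈ cnd p'' ((P.T.Fil (m + m')).restrictScalars F) := by
  intro f hf f' hf'
  by_cases hp : p
  · by_cases hp' : p'
    · rw [cnd_pos (h hp hp')]
      exact P.T.fil_mul m m' f (mem_cnd.1 hf).1 _ (P.α_fil g (hg hp) m' f' (mem_cnd.1 hf').1)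
    · rw [(mem_cnd.1 hf').2 hp', map_zero, mul_zero]
      exact zero_mem _
  · rw [(mem_cnd.1 hf).2 hp, zero_mul]
    exact zero_mem _

variable (E) (s : F)

omit [FiniteDimensional F E] in
theorem Fm_mul {m m' : ℕ} {x y : P.X E s} (hx : x ∈ P.Sub E s (Fm P m))
    (hy : y ∈ P.Sub E s (Fm P m')) : x * y ∈ P.Sub E s (Fm P (m + m')) :=
  P.Sub_mul E s (fun _ _ => cnd_mul P id mul_n) hx hy

omit [FiniteDimensional F E] in
theorem Nr_mul {r r' r'' : Fin A} (hr : r + r' = r'') {m m' m'' : ℕ} (hm : m + m' = m'')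
    {x y : P.X E s} (hx : x ∈ P.Sub E s (Nr P r m)) (hy : y ∈ P.Sub E s (Nr P r' m')) :
    x * y ∈ P.Sub E s (Nr P r'' m'') := by
  subst hr hm
  refine P.Sub_mul E s (fun g g' => cnd_mul P And.left fun h h' => ⟨mul_n h.1 h'.1, ?_⟩) hx hy
  rw [Gw.mul_k, Gw.mul_h, add_add_add_comm, h.2, h'.2]

omit [FiniteDimensional F E] in
theorem Nr_le (r : Fin A) (m : ℕ) : P.Sub E s (Nr P r m) ≤ P.Sub E s (Fm P m) :=
  P.Sub_mono E s fun _ _ hf =>
    mem_cnd.2 ⟨(mem_cnd.1 hf).1, fun h => (mem_cnd.1 hf).2 fun h' => h h'.1⟩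

omit [FiniteDimensional F E] in
theorem Fm_anti {m m' : ℕ} (h : m ≤ m') : P.Sub E s (Fm P m') ≤ P.Sub E s (Fm P m) :=
  P.Sub_mono E s fun _ _ hf => mem_cnd.2 ⟨fil_anti P h (mem_cnd.1 hf).1, (mem_cnd.1 hf).2⟩

omit [FiniteDimensional F E] in
theorem Nr_of {r : Fin A} {m m' : ℕ} {x : P.X E s} (h : x ∈ P.Sub E s (Nr P r m))
    (h' : x ∈ P.Sub E s (Fm P m')) : x ∈ P.Sub E s (Nr P r m') := by
  intro g
  have h1 := h g
  have h2 := h' g
  by_cases hg : g.n = 0 ∧ g.k + g.h = r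
  · rwa [Nr, cnd_pos hg, ← cnd_pos hg.1 (Submodule.restrictScalars F _)]
  · rw [Nr, cnd_neg hg] at h1 ⊢
    exact h1

/-- the units of the cyclic subgroup -/
noncomputable def U (r : Fin A) : P.X E s := CP.sgl (P.cd E s) (gs r) 1

omit [FiniteDimensional F E] in
theorem U_mem (r : Fin A) : U P E s r ∈ P.Sub E s (Nr P r 0) := by
  refine P.sgl_mem_Sub E s (tmul_mem_TE ?_ 1)
  rw [Nr, cnd_pos ⟨rfl, zero_add r⟩]
  exact (fil_zero P).2 (one_mem _)

omit [FiniteDimensional F E] in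
theorem U_mul {r r' : Fin A} (h : r + r' = 0) : U P E s r * U P E s r' = 1 := by
  have h1 : gs r * gs r' = 1 := Gw.ext (mul_n rfl rfl) (add_zero 0) h
  have h2 : (P.cd E s).τ (gs r) (gs r') = 1 := by simp [Pk.cd_τ, gs]
  rw [U, U, CP.sgl_mul_sgl, h1, h2, map_one, mul_one, one_smul, CP.one_def]

variable {E}

theorem domR {r r' : Fin A} {m m' : ℕ} {x y : P.X E I.s} (hx : x ∈ P.Sub E I.s (Nr P r m))
    (hx' : x ∉ P.Sub E I.s (Nr P r (m + 1))) (hy : y ∈ P.Sub E I.s (Nr P r' m'))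
    (hy' : y ∉ P.Sub E I.s (Nr P r' (m' + 1))) :
    x * y ∉ P.Sub E I.s (Nr P (r + r') (m + m' + 1)) := by
  intro h
  have h1 := domC P I (m := m) (m' := m') (x := U P E I.s (-r) * x) (y := y * U P E I.s (-r'))
  simp only [← Nr_zero] at h1
  refine h1 (Nr_mul P E I.s (neg_add_cancel r) (zero_add m) (U_mem P E I.s _) hx) (fun h2 => hx' ?_)
    (Nr_mul P E I.s (add_neg_cancel r') (add_zero m') hy (U_mem P E I.s _)) (fun h2 => hy' ?_) ?_
  · have h3 := Nr_mul P E I.s (add_zero r) (zero_add _) (U_mem P E I.s r) h2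
    rwa [← mul_assoc, U_mul P E I.s (add_neg_cancel r), one_mul] at h3
  · have h3 := Nr_mul P E I.s (zero_add r') (add_zero _) h2 (U_mem P E I.s r')
    rwa [mul_assoc, U_mul P E I.s (neg_add_cancel r'), mul_one] at h3
  · rw [mul_assoc, ← mul_assoc x]
    exact Nr_mul P E I.s (neg_add_cancel r) (zero_add _) (U_mem P E I.s _)
      (Nr_mul P E I.s (add_neg_cancel_right r r') (add_zero _) h (U_mem P E I.s _))

theorem eig_fil {g : Gw A} (hn : g.n = 0) {m : ℕ} (hg : (g.k + g.h).val ≠ m % A) {f : P.k}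
    (hf : f ∈ P.T.Fil m) (he : f ∈ Eg P g) : f ∈ P.T.Fil (m + 1) := by
  obtain ⟨h1, h2⟩ := (P.T.mem_Fil m f).1 hf
  refine (P.T.mem_Fil _ f).2 ⟨h1, fun μ hμ => ?_⟩
  rcases (Nat.lt_succ_iff.1 hμ).lt_or_eq with h | h
  · exact h2 μ h
  · by_contra h0
    have h3 := P.ord _ _ f ((mem_Eg P).1 he) h1 μ h0
    have h4 : (g • ixo A).1 + (g • ixo A).2 = g.k + g.h := by
      simp [Gw.smul_def, ixo, hn, pd, add_comm]
    have h5 : ((ixo A).1 + (ixo A).2).val = 0 := by simp [ixo]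
    rw [h4, h5, h, add_zero, Nat.ModEq, Nat.mod_eq_of_lt (Fin.is_lt _)] at h3
    exact hg h3.symm

omit [FiniteDimensional F E] in
/-- the leading part of a nonzero element -/
theorem exists_lead {s : F} {x : P.X E s} (h0 : x ∈ P.Sub E s (Fm P 0))
    (he : x ∈ P.Sub E s (Eg P)) (hx : x ≠ 0) : ∃ (r : Fin A) (m : ℕ) (x0 x1 : P.X E s),
      x = x0 + x1 ∧ x0 ∈ P.Sub E s (Nr P r m) ∧ x0 ∉ P.Sub E s (Nr P r (m + 1)) ∧
        x1 ∈ P.Sub E s (Fm P (m + 1)) := by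
  classical
  let b := Module.Basis.ofVectorSpace F E
  have hex : ∃ m, x ∉ P.Sub E s (Fm P (m + 1)) := by
    by_contra hall
    rw [not_exists] at hall
    refine hx (CP.ext fun g => (b.baseChange P.k).repr.injective (Finsupp.ext fun i => ?_))
    have h1 : ∀ m, (b.baseChange P.k).repr (x.co g) i ∈ P.T.Fil (m + 1) := fun m =>
      (mem_cnd.1 ((mem_TE_iff b _).1 (not_not.1 (hall m) g) i)).1
    rw [CP.co_zero, Finsupp.zero_apply, map_zero, Finsupp.zero_apply]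
    exact P.T.ty_inj _ ((P.T.mem_Fil _ _).1 (h1 0)).1
      (funext fun μ => ((P.T.mem_Fil _ _).1 (h1 _)).2 μ (Nat.lt_succ_self _))
  obtain ⟨m, hm, hm'⟩ : ∃ m, x ∈ P.Sub E s (Fm P m) ∧ x ∉ P.Sub E s (Fm P (m + 1)) := by
    refine ⟨Nat.find hex, ?_, Nat.find_spec hex⟩
    rcases Nat.eq_zero_or_pos (Nat.find hex) with h | h
    · rwa [h]
    · have h1 := not_not.1 (Nat.find_min hex (Nat.sub_one_lt h.ne'))
      rwa [Nat.sub_add_cancel h] at h1
  let r : Fin A := ⟨m % A, Nat.mod_lt _ (Nat.pos_of_ne_zero (NeZero.ne A))⟩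
  let x0 : P.X E s := CP.ofCo _ (x.co.filter fun g => g.k + g.h = r)
  have hx0 : ∀ g, x0.co g = if g.k + g.h = r then x.co g else 0 := fun g =>
    Finsupp.filter_apply _ _ g
  have h1 : x - x0 ∈ P.Sub E s (Fm P (m + 1)) := by
    intro g
    rw [CP.co_sub, Finsupp.sub_apply, hx0]
    split_ifs with hg
    · rw [sub_self]
      exact zero_mem _
    · rw [sub_zero]
      refine (mem_TE_iff b _).2 fun i => ?_
      have h2 := mem_cnd.1 ((mem_TE_iff b _).1 (hm g) i)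
      refine mem_cnd.2 ⟨?_, h2.2⟩
      by_cases hn : g.n = 0
      · exact eig_fil P hn (fun e => hg (Fin.ext e)) h2.1 ((mem_TE_iff b _).1 (he g) i)
      · rw [h2.2 hn]
        exact zero_mem _
  refine ⟨r, m, x0, x - x0, (add_sub_cancel _ _).symm, fun g => ?_, fun h => hm' ?_, h1⟩
  · rw [hx0]
    split_ifs with hg
    · refine TE_mono (fun f hf => ?_) (hm g)
      exact mem_cnd.2 ⟨(mem_cnd.1 hf).1, fun h => (mem_cnd.1 hf).2 fun h' => h ⟨h', hg⟩⟩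
    · exact zero_mem _
  · have h2 := add_mem (Nr_le P E s r _ h) h1
    rwa [add_sub_cancel] at h2

theorem dom_int {x y : P.X E I.s} (hx : x ∈ P.Sub E I.s (Fm P 0)) (hx' : x ∈ P.Sub E I.s (Eg P))
    (hy : y ∈ P.Sub E I.s (Fm P 0)) (hy' : y ∈ P.Sub E I.s (Eg P)) (h : x * y = 0) :
    x = 0 ∨ y = 0 := by
  by_contra hne
  rw [not_or] at hne
  obtain ⟨r, m, x0, x1, rfl, a1, a2, a3⟩ := exists_lead P hx hx' hne.1
  obtain ⟨r', m', y0, y1, rfl, b1, b2, b3⟩ := exists_lead P hy hy' hne.2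
  refine domR P I a1 a2 b1 b2 (Nr_of P E I.s (Nr_mul P E I.s rfl rfl a1 b1) ?_)
  have e : x0 * y0 = -(x0 * y1 + x1 * y0 + x1 * y1) := by
    rw [eq_neg_iff_add_eq_zero, ← h, add_mul, mul_add, mul_add]
    abel
  rw [e]
  refine neg_mem (add_mem (add_mem ?_ ?_) ?_)
  · exact Fm_anti P E I.s (by omega) (Fm_mul P E I.s (Nr_le P E I.s r m a1) b3)
  · exact Fm_anti P E I.s (by omega) (Fm_mul P E I.s a3 (Nr_le P E I.s r' m' b1))
  · exact Fm_anti P E I.s (by omega) (Fm_mul P E I.s a3 b3)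

/-- invariant denominators -/
def Den (z : P.k) : Prop := z ∈ P.T.O ∧ z ≠ 0 ∧ z ∈ P.W (ixo A) (ixo A)

theorem Den.mul {z z' : P.k} (h : Den P z) (h' : Den P z') : Den P (z * z') :=
  ⟨mul_mem h.1 h'.1, mul_ne_zero h.2.1 h'.2.1, P.W_mul _ _ _ _ h.2.2 _ h'.2.2⟩

theorem Den.act {z : P.k} (h : Den P z) {g : Gw A} (hg : g.n = 0) : Den P (P.α g z) := by
  refine ⟨(fil_zero P).1 (P.α_fil g hg 0 z ((fil_zero P).2 h.1)), (map_ne_zero _).2 h.2.1, ?_⟩
  obtain ⟨f, hf, h0⟩ := P.W_ne (ixo A) (g • ixo A)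
  have h1 := P.W_mul _ _ _ _ (P.W_mul _ _ _ _ hf _ (P.W_act g _ _ z h.2.2)) _ (P.W_inv _ _ _ hf)
  rwa [mul_right_comm, mul_inv_cancel₀ h0, one_mul] at h1

theorem exists_den {x y : Ix A} {f : P.k} (hf : f ∈ P.W x y) : ∃ z, Den P z ∧ z * f ∈ P.T.O := by
  obtain ⟨z, h1, h2, h3, h4⟩ := P.den x y f hf
  exact ⟨z, ⟨h2, h3, h1⟩, h4⟩

/-- integral eigenvectors -/
noncomputable def Ms (g : Gw A) : Submodule F P.k := Fm P 0 g ⊓ Eg P g

theorem Ms_mul {z : P.k} (hz : Den P z) (g : Gw A) {f : P.k} (hf : f ∈ Ms P g) :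
    z * f ∈ Ms P g := by
  refine ⟨mem_cnd.2 ⟨P.T.fil_mul 0 0 z ((fil_zero P).2 hz.1) f (mem_cnd.1 hf.1).1, fun h => ?_⟩, ?_⟩
  · rw [(mem_cnd.1 hf.1).2 h, mul_zero]
  · exact (mem_Eg P).2 (P.W_mul _ _ _ _ hz.2.2 _ ((mem_Eg P).1 hf.2))

theorem N0_Ms {g : Gw A} (hg : g.n = 0) {f z : P.k} (hf : f ∈ P.N0 g) (hz : Den P z)
    (hzf : z * f ∈ P.T.O) : z * f ∈ Ms P g := by
  refine ⟨mem_cnd.2 ⟨(fil_zero P).2 hzf, fun h => absurd hg h⟩, (mem_Eg P).2 ?_⟩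
  rw [Pk.N0, if_pos hg] at hf
  exact P.W_mul _ _ _ _ hz.2.2 _ hf

theorem N0_ne {g : Gw A} (hg : g.n ≠ 0) {f : P.k} (hf : f ∈ P.N0 g) : f = 0 := by
  rwa [Pk.N0, if_neg hg, Submodule.mem_bot] at hf

variable (E)

/-- scalars -/
noncomputable def sc (z : P.k) : P.X E s := CP.base (P.cd E s) (z ⊗ₜ 1)

omit [FiniteDimensional F E] in
theorem sc_mul (z z' : P.k) : sc P E s (z * z') = sc P E s z * sc P E s z' := by
  rw [sc, sc, sc, ← map_mul, Algebra.TensorProduct.tmul_mul_tmul, mul_one]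

omit [FiniteDimensional F E] in
theorem sc_one : sc P E s 1 = 1 := map_one (CP.base (P.cd E s))

omit [FiniteDimensional F E] in
theorem sc_mul_sgl (z f : P.k) (g : Gw A) (e : E) :
    sc P E s z * CP.sgl (P.cd E s) g (f ⊗ₜ e) = CP.sgl (P.cd E s) g ((z * f) ⊗ₜ e) := by
  rw [sc, CP.base_apply, CP.sgl_mul_sgl, one_mul, (P.cd E s).τ_one_left, one_smul, map_one,
    AlgEquiv.one_apply, Algebra.TensorProduct.tmul_mul_tmul, one_mul]

omit [FiniteDimensional F E] in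
theorem sgl_mul_sc (z f : P.k) (g : Gw A) (e : E) :
    CP.sgl (P.cd E s) g (f ⊗ₜ e) * sc P E s z = CP.sgl (P.cd E s) g ((P.α g z * f) ⊗ₜ e) := by
  rw [sc, CP.base_apply, CP.sgl_mul_sgl, mul_one, (P.cd E s).τ_one_right, one_smul, Pk.cd_α_tmul,
    Algebra.TensorProduct.tmul_mul_tmul, mul_one, mul_comm f]

omit [FiniteDimensional F E] in
theorem sc_mul_mem {z : P.k} (hz : Den P z) {x : P.X E s} (hx : x ∈ P.Sub E s (Ms P)) :
    sc P E s z * x ∈ P.Sub E s (Ms P) ∧ x * sc P E s z ∈ P.Sub E s (Ms P) := by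
  refine P.Sub_induction E s (p := fun x => sc P E s z * x ∈ P.Sub E s (Ms P) ∧
    x * sc P E s z ∈ P.Sub E s (Ms P)) ?_ ?_ ?_ hx
  · rw [mul_zero, zero_mul]
    exact ⟨zero_mem _, zero_mem _⟩
  · intro x y _ _ h h'
    rw [mul_add, add_mul]
    exact ⟨add_mem h.1 h'.1, add_mem h.2 h'.2⟩
  · intro g f hf e
    rw [sc_mul_sgl, sgl_mul_sc]
    refine ⟨P.sgl_mem_Sub E s (tmul_mem_TE (Ms_mul P hz g hf) e),
      P.sgl_mem_Sub E s (tmul_mem_TE ?_ e)⟩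
    by_cases hg : g.n = 0
    · exact Ms_mul P (hz.act P hg) g hf
    · rw [(mem_cnd.1 hf.1).2 hg, mul_zero]
      exact zero_mem _

omit [FiniteDimensional F E] in
theorem clear {x : P.X E s} (hx : x ∈ P.Sub E s P.N0) :
    (∃ z, Den P z ∧ sc P E s z * x ∈ P.Sub E s (Ms P)) ∧
      ∃ z, Den P z ∧ x * sc P E s z ∈ P.Sub E s (Ms P) := by
  have h1 : Den P 1 := ⟨one_mem _, one_ne_zero, P.W_one _⟩
  refine P.Sub_induction E s (p := fun x => (∃ z, Den P z ∧ sc P E s z * x ∈ P.Sub E s (Ms P)) ∧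
    ∃ z, Den P z ∧ x * sc P E s z ∈ P.Sub E s (Ms P)) ?_ ?_ ?_ hx
  · exact ⟨⟨1, h1, by rw [mul_zero]; exact zero_mem _⟩, 1, h1, by rw [zero_mul]; exact zero_mem _⟩
  · rintro x y _ _ ⟨⟨z, hz, a⟩, w, hw, b⟩ ⟨⟨z', hz', a'⟩, w', hw', b'⟩
    refine ⟨⟨z * z', hz.mul P hz', ?_⟩, w * w', hw.mul P hw', ?_⟩
    · rw [mul_add]
      refine add_mem ?_ ?_
      · rw [mul_comm z, sc_mul, mul_assoc]
        exact (sc_mul_mem P E s hz' a).1
      · rw [sc_mul, mul_assoc]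
        exact (sc_mul_mem P E s hz a').1
    · rw [add_mul]
      refine add_mem ?_ ?_
      · rw [sc_mul, ← mul_assoc]
        exact (sc_mul_mem P E s hw' b).2
      · rw [mul_comm w, sc_mul, ← mul_assoc]
        exact (sc_mul_mem P E s hw b').2
  · intro g f hf e
    simp only [sc_mul_sgl, sgl_mul_sc]
    by_cases hg : g.n = 0
    · have hf' : f ∈ P.N g := by rwa [Pk.N0, if_pos hg] at hf
      obtain ⟨z, hz, hzf⟩ := exists_den P hf'
      have h2 := P.sgl_mem_Sub E s (tmul_mem_TE (N0_Ms P hg hf hz hzf) e)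
      have h3 : g⁻¹.n = 0 := by
        funext j
        rw [Gw.inv_n, hg]
        rfl
      refine ⟨⟨z, hz, h2⟩, P.α g⁻¹ z, hz.act P h3, ?_⟩
      rwa [← AlgEquiv.mul_apply, ← map_mul, mul_inv_cancel, map_one, AlgEquiv.one_apply]
    · simp only [N0_ne P hg hf, mul_zero, zero_tmul, CP.sgl_zero]
      exact ⟨⟨1, h1, zero_mem _⟩, 1, h1, zero_mem _⟩

end Dom0

theorem dom0 {x y : P.X E I.s} (hx : x ∈ P.Sub E I.s P.N0) (hy : y ∈ P.Sub E I.s P.N0)
    (h : x * y = 0) : x = 0 ∨ y = 0 := by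
  obtain ⟨z, hz, hzx⟩ := (Dom0.clear P E I.s hx).1
  obtain ⟨w, hw, hyw⟩ := (Dom0.clear P E I.s hy).2
  have l1 : P.Sub E I.s (Dom0.Ms P) ≤ P.Sub E I.s (Dom0.Fm P 0) :=
    P.Sub_mono E I.s fun _ => inf_le_left
  have l2 : P.Sub E I.s (Dom0.Ms P) ≤ P.Sub E I.s (Dom0.Eg P) :=
    P.Sub_mono E I.s fun _ => inf_le_right
  have h1 := Dom0.dom_int P I (l1 hzx) (l2 hzx) (l1 hyw) (l2 hyw)
    (by rw [mul_assoc, ← mul_assoc x, h, zero_mul, mul_zero])
  refine h1.imp (fun h2 => ?_) fun h2 => ?_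
  · rw [← one_mul x, ← Dom0.sc_one P E I.s, ← inv_mul_cancel₀ hz.2.1, Dom0.sc_mul, mul_assoc, h2,
      mul_zero]
  · rw [← mul_one y, ← Dom0.sc_one P E I.s, ← mul_inv_cancel₀ hw.2.1, Dom0.sc_mul, ← mul_assoc, h2,
      zero_mul]

end Vale.Agent.P200.H
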