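import Vale.Agent.P200.H.TE
import Vale.Agent.P200.G.GL

/-! The valuation property at the origin. -/

open Finset TensorProduct

namespace Vale.Agent.P200.H

open Vale.Agent.P200.G Vale.Agent.P200.Eq

universe u

variable {A : ℕ} [NeZero A] {F L : Type u} [Field F] [Field L] [Algebra F L] {Z : Cyc F L A}
  (P : Pk Z) {E D : Type u} [DivisionRing E] [Algebra F E] [FiniteDimensional F E]
  [DivisionRing D] [Algebra F D] [FiniteDimensional F D] (I : Inp Z E D)

omit [NeZero A] in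
theorem domC_gc_inj {m m' : Fin A} (h : gc m = gc m') : m = m' := congrArg Gw.k h

theorem domC_gc_mul (m m' : Fin A) : gc m * gc m' = gc (m + m') := by
  refine Gw.ext (funext fun j => ?_) rfl ?_
  · simp [gc]
  · simp only [gc, Gw.mul_h, neg_add]

theorem domC_gc_zero : gc (0 : Fin A) = 1 := by
  refine Gw.ext rfl rfl ?_
  simp [gc]

theorem domC_eq_gc {g : Gw A} (h : g.n = 0 ∧ g.k + g.h = 0) : g = gc g.k :=
  Gw.ext h.1 rfl (eq_neg_of_add_eq_zero_right h.2)

theorem domC_Nc_gc (m : ℕ) (j : Fin A) : P.Nc m (gc j) = (P.T.Fil m).restrictScalars F := by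
  unfold Pk.Nc
  rw [if_pos ⟨rfl, add_neg_cancel j⟩]

theorem domC_fil_zero {f : P.k} : f ∈ P.T.Fil 0 ↔ f ∈ P.T.O := by
  rw [P.T.mem_Fil]
  exact ⟨fun h => h.1, fun h => ⟨h, fun μ hμ => absurd hμ (Nat.not_lt_zero _)⟩⟩

theorem domC_one_mem : (1 : P.k) ∈ P.Nc 0 1 := by
  rw [← domC_gc_zero, domC_Nc_gc]
  exact (domC_fil_zero P).2 (one_mem _)

theorem domC_Nc_le (m : ℕ) (g : Gw A) : P.Nc m g ≤ P.Nc 0 g := by
  intro f hf
  unfold Pk.Nc at *
  split_ifs at hf ⊢ with h
  · exact (domC_fil_zero P).2 ((P.T.mem_Fil m f).1 hf).1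
  · exact hf

omit [FiniteDimensional F E] in
/-- membership in terms of coordinates -/
theorem domC_mem {ι : Type*} (b : Module.Basis ι F E) (s : F) {x : P.X E s}
    (hx : x ∈ P.Sub E s (P.Nc 0)) (m : ℕ) : x ∈ P.Sub E s (P.Nc m) ↔
      ∀ j i μ, Finsupp.weight P.T.wt μ < m →
        P.T.ty ((b.baseChange P.k).repr (x.co (gc j)) i) μ = 0 := by
  constructor
  · intro h j i μ hμ
    have h1 := (mem_TE_iff b _).1 (h (gc j)) i
    rw [domC_Nc_gc] at h1
    exact ((P.T.mem_Fil m _).1 h1).2 μ hμ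
  · intro h g
    by_cases hg : g.n = 0 ∧ g.k + g.h = 0
    · rw [domC_eq_gc hg]
      refine (mem_TE_iff b _).2 fun i => ?_
      have h1 := (mem_TE_iff b _).1 (hx (gc g.k)) i
      rw [domC_Nc_gc] at h1 ⊢
      exact (P.T.mem_Fil m _).2 ⟨(domC_fil_zero P).1 h1, fun μ hμ => h _ i μ hμ⟩
    · have h1 := hx g
      unfold Pk.Nc at h1 ⊢
      rw [if_neg hg] at h1 ⊢
      exact h1

omit [FiniteDimensional F E] in
theorem domC_coord {ι : Type*} (b : Module.Basis ι F E) (s : F) {x : P.X E s}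
    (hx : x ∈ P.Sub E s (P.Nc 0)) (j : Fin A) (i : ι) :
    (b.baseChange P.k).repr (x.co (gc j)) i ∈ P.T.O := by
  have h1 := (mem_TE_iff b _).1 (hx (gc j)) i
  rw [domC_Nc_gc] at h1
  exact (domC_fil_zero P).1 h1

/-- the value at the origin -/
noncomputable def domCev (E : Type u) [DivisionRing E] [Algebra F E] :
    P.k ⊗[F] E →ₗ[F] L ⊗[F] E :=
  TensorProduct.map (((LinearMap.proj 0 : (Mon P.V → L) →ₗ[L] L) ∘ₗ P.T.ty).restrictScalars F)
    LinearMap.id

omit [FiniteDimensional F E] in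
theorem domCev_tmul (f : P.k) (e : E) : domCev P E (f ⊗ₜ e) = P.T.ty f 0 ⊗ₜ e := rfl

omit [FiniteDimensional F E] in
theorem domCev_repr {ι : Type*} (b : Module.Basis ι F E) (r : P.k ⊗[F] E) (i : ι) :
    (b.baseChange L).repr (domCev P E r) i = P.T.ty ((b.baseChange P.k).repr r i) 0 := by
  induction r using TensorProduct.induction_on with
  | zero => simp
  | add x y hx hy => simp only [map_add, Finsupp.add_apply, Pi.add_apply, hx, hy]
  | tmul f e =>
    rw [domCev_tmul, Module.Basis.baseChange_repr_tmul, Module.Basis.baseChange_repr_tmul,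
      LinearMap.map_smul_of_tower, Pi.smul_apply]

/-- the residue map -/
noncomputable def domCres : P.X E I.s →ₗ[F] D where
  toFun x := ∑ m : Fin A,
    Algebra.TensorProduct.lift I.jL I.ι I.comm (domCev P E (x.co (gc m))) * I.v ^ m.val
  map_add' x y := by
    simp only [CP.co_add, Finsupp.add_apply, map_add, add_mul, sum_add_distrib]
  map_smul' a x := by
    simp only [CP.co_smul, Finsupp.smul_apply, map_smul, smul_mul_assoc, smul_sum,
      RingHom.id_apply]

omit [FiniteDimensional F E] [FiniteDimensional F D] in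
theorem domCres_sgl (m : Fin A) (r : P.k ⊗[F] E) :
    domCres P I (CP.sgl (P.cd E I.s) (gc m) r) =
      Algebra.TensorProduct.lift I.jL I.ι I.comm (domCev P E r) * I.v ^ m.val := by
  classical
  change ∑ m' : Fin A, _ = _
  rw [sum_eq_single m]
  · rw [CP.co_sgl, Finsupp.single_eq_same]
  · intro m' _ hm
    rw [CP.co_sgl, Finsupp.single_eq_of_ne fun h => hm (domC_gc_inj h), map_zero, map_zero,
      zero_mul]
  · intro h
    exact absurd (mem_univ m) h

omit [FiniteDimensional F E] [FiniteDimensional F D] in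
theorem domC_v_pow (n : ℕ) (x : L) : I.v ^ n * I.jL ((Z.σ ^ n) x) = I.jL x * I.v ^ n := by
  induction n with
  | zero => simp
  | succ n ih =>
    rw [pow_succ, pow_succ', AlgEquiv.mul_apply, mul_assoc, I.vσ, ← mul_assoc, ih, mul_assoc]

omit [FiniteDimensional F E] [FiniteDimensional F D] in
theorem domC_v_sg (m : Fin A) (y : L) :
    I.v ^ m.val * I.jL y = I.jL (sg Z.σ (-m) y) * I.v ^ m.val := by
  have h := domC_v_pow I m.val (sg Z.σ (-m) y)
  have e : (Z.σ ^ m.val) (sg Z.σ (-m) y) = y := by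
    change sg Z.σ m (sg Z.σ (-m) y) = y
    rw [← Z.sg_add, add_neg_cancel, Z.sg_zero]
  rwa [e] at h

omit [FiniteDimensional F E] [FiniteDimensional F D] in
theorem domC_v_add (m m' : Fin A) :
    I.v ^ m.val * I.v ^ m'.val = I.s ^ ((m.val + m'.val) / A) • I.v ^ (m + m').val := by
  rw [← pow_add, Fin.val_add, Algebra.smul_def, map_pow, ← I.vA, ← pow_mul, ← pow_add,
    Nat.div_add_mod]

omit [FiniteDimensional F E] [FiniteDimensional F D] in
theorem domCres_one : domCres P I 1 = 1 := by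
  rw [CP.one_def, ← domC_gc_zero, domCres_sgl, Algebra.TensorProduct.one_def, domCev_tmul,
    P.T.ty_one, ← Algebra.TensorProduct.one_def, map_one]
  simp

omit [FiniteDimensional F E] [FiniteDimensional F D] in
theorem domCres_mul {x y : P.X E I.s} (hx : x ∈ P.Sub E I.s (P.Nc 0))
    (hy : y ∈ P.Sub E I.s (P.Nc 0)) : domCres P I (x * y) = domCres P I x * domCres P I y := by
  refine Pk.Sub_induction P E I.s
    (p := fun x => domCres P I (x * y) = domCres P I x * domCres P I y) ?_ ?_ ?_ hx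
  · rw [zero_mul, map_zero, zero_mul]
  · intro x x' _ _ h1 h2
    rw [add_mul, map_add, map_add, h1, h2, add_mul]
  · intro g f hf e
    by_cases hg : g.n = 0 ∧ g.k + g.h = 0
    swap
    · unfold Pk.Nc at hf
      rw [if_neg hg, Submodule.mem_bot] at hf
      rw [hf, zero_tmul, CP.sgl_zero, zero_mul, map_zero, zero_mul]
    obtain ⟨m, rfl⟩ : ∃ m, g = gc m := ⟨_, domC_eq_gc hg⟩
    rw [domC_Nc_gc] at hf
    have hf0 : f ∈ P.T.O := (domC_fil_zero P).1 hf
    refine Pk.Sub_induction P E I.s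
      (p := fun y => domCres P I (CP.sgl (P.cd E I.s) (gc m) (f ⊗ₜ e) * y) =
        domCres P I (CP.sgl (P.cd E I.s) (gc m) (f ⊗ₜ e)) * domCres P I y) ?_ ?_ ?_ hy
    · rw [mul_zero, map_zero, mul_zero]
    · intro y y' _ _ h1 h2
      rw [mul_add, map_add, map_add, h1, h2, mul_add]
    · intro g' f' hf' e'
      by_cases hg' : g'.n = 0 ∧ g'.k + g'.h = 0
      swap
      · unfold Pk.Nc at hf'
        rw [if_neg hg', Submodule.mem_bot] at hf'
        rw [hf', zero_tmul, CP.sgl_zero, mul_zero, map_zero, mul_zero]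
      obtain ⟨m', rfl⟩ : ∃ m', g' = gc m' := ⟨_, domC_eq_gc hg'⟩
      rw [domC_Nc_gc] at hf'
      have hf1 : f' ∈ P.T.O := (domC_fil_zero P).1 hf'
      have hf2 : P.α (gc m) f' ∈ P.T.O := (domC_fil_zero P).1 (P.α_fil (gc m) rfl 0 f' hf')
      rw [CP.sgl_mul_sgl, domC_gc_mul, domCres_sgl, domCres_sgl, domCres_sgl, Pk.cd_α_tmul,
        Algebra.TensorProduct.tmul_mul_tmul, map_smul, map_smul, domCev_tmul, domCev_tmul,
        domCev_tmul, P.T.ty_mul_zero f hf0 _ hf2, P.α_res (gc m) rfl f' hf1]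
      simp only [Algebra.TensorProduct.lift_tmul, map_mul]
      have e1 : (P.cd E I.s).τ (gc m) (gc m') = I.s ^ ((m.val + m'.val) / A) := rfl
      have e2 : (gc m).h = -m := rfl
      have e3 : I.v ^ m.val * I.ι e' = I.ι e' * I.v ^ m.val := ((I.v_ι e').pow_left m.val).eq
      rw [e1, e2, smul_mul_assoc, ← mul_smul_comm, ← domC_v_add]
      calc I.jL (P.T.ty f 0) * I.jL (sg Z.σ (-m) (P.T.ty f' 0)) * (I.ι e * I.ι e') *
            (I.v ^ m.val * I.v ^ m'.val)
          = I.jL (P.T.ty f 0) * (I.jL (sg Z.σ (-m) (P.T.ty f' 0)) * I.ι e) *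
            (I.ι e' * I.v ^ m.val) * I.v ^ m'.val := by simp only [mul_assoc]
        _ = I.jL (P.T.ty f 0) * I.ι e * (I.jL (sg Z.σ (-m) (P.T.ty f' 0)) * I.v ^ m.val) *
            I.ι e' * I.v ^ m'.val := by
          rw [(I.comm _ e).eq, ← e3]
          simp only [mul_assoc]
        _ = I.jL (P.T.ty f 0) * I.ι e * I.v ^ m.val * (I.jL (P.T.ty f' 0) * I.ι e' *
            I.v ^ m'.val) := by
          rw [← domC_v_sg]
          simp only [mul_assoc]

omit [FiniteDimensional F D] in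
theorem domCres_ker {x : P.X E I.s} (hx : x ∈ P.Sub E I.s (P.Nc 0)) (h : domCres P I x = 0) :
    x ∈ P.Sub E I.s (P.Nc 1) := by
  have h1 := I.ind (fun m => domCev P E (x.co (gc m))) h
  refine (domC_mem P (Module.finBasis F E) I.s hx 1).2 fun j i μ hμ => ?_
  have h2 : μ = 0 := by
    ext v
    have := Finsupp.le_weight P.T.wt (P.T.wt_pos v).ne' μ
    rw [Finsupp.zero_apply]
    omega
  rw [h2, ← domCev_repr, h1 j, map_zero, Finsupp.zero_apply]

omit [FiniteDimensional F E] in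
theorem domC_repr_base {ι : Type*} (b : Module.Basis ι F E) (s : F) (a : P.k) (x : P.X E s)
    (g : Gw A) (i : ι) :
    (b.baseChange P.k).repr ((CP.base (P.cd E s) (a ⊗ₜ 1) * x).co g) i =
      a * (b.baseChange P.k).repr (x.co g) i := by
  have e : (a ⊗ₜ[F] (1 : E)) * x.co g = a • x.co g := by
    rw [Algebra.smul_def]
    rfl
  rw [CP.co_base_mul, e, map_smul, Finsupp.smul_apply, smul_eq_mul]

omit [FiniteDimensional F E] in
theorem domC_base_mem (s : F) {a : P.k} (ha : a ∈ P.T.O) :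
    CP.base (P.cd E s) (a ⊗ₜ 1) ∈ P.Sub E s (P.Nc 0) := by
  refine P.sgl_mem_Sub E s (tmul_mem_TE ?_ 1)
  rw [← domC_gc_zero, domC_Nc_gc]
  exact (domC_fil_zero P).2 ha

/-- an element of order zero is invertible modulo elements of positive order -/
theorem domC_div {x : P.X E I.s} (hx : x ∈ P.Sub E I.s (P.Nc 0)) (hx' : x ∉ P.Sub E I.s (P.Nc 1)) :
    ∃ x' ∈ P.Sub E I.s (P.Nc 0), x' * x - 1 ∈ P.Sub E I.s (P.Nc 1) := by
  let S : Subalgebra F D := ((P.Sub E I.s (P.Nc 0)).map (domCres P I)).toSubalgebra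
    ⟨1, P.one_mem_Sub E I.s (domC_one_mem P), domCres_one P I⟩
    (by
      rintro _ _ ⟨y, hy, rfl⟩ ⟨z, hz, rfl⟩
      exact ⟨y * z, P.Sub_mul E I.s (P.Nc_mul 0 0) hy hz, domCres_mul P I hy hz⟩)
  have h0 : domCres P I x ≠ 0 := fun h => hx' (domCres_ker P I hx h)
  have h1 : domCres P I x ∈ S := ⟨x, hx, rfl⟩
  obtain ⟨x', h2, h3⟩ := (Algebra.IsIntegral.isIntegral (R := F) (domCres P I x)).inv_mem h1
  refine ⟨x', h2, domCres_ker P I (sub_mem (P.Sub_mul E I.s (P.Nc_mul 0 0) h2 hx)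
    (P.one_mem_Sub E I.s (domC_one_mem P))) ?_⟩
  rw [map_sub, domCres_mul P I h2 hx, domCres_one, h3, inv_mul_cancel₀ h0, sub_self]

theorem domC {m m' : ℕ} {x y : P.X E I.s} (hx : x ∈ P.Sub E I.s (P.Nc m))
    (hx' : x ∉ P.Sub E I.s (P.Nc (m + 1))) (hy : y ∈ P.Sub E I.s (P.Nc m'))
    (hy' : y ∉ P.Sub E I.s (P.Nc (m' + 1))) : x * y ∉ P.Sub E I.s (P.Nc (m + m' + 1)) := by
  classical
  let b := Module.finBasis F E
  let R := P.alg E I.s (P.Nc 0) (domC_one_mem P) (P.Nc_mul 0 0)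
  let δ0 : L →+* P.X E I.s := ((CP.base (P.cd E I.s)).toRingHom.comp
    (Algebra.TensorProduct.includeLeftRingHom : P.k →+* P.k ⊗[F] E)).comp (algebraMap L P.k)
  have hδ0 : ∀ c, δ0 c = CP.base (P.cd E I.s) (algebraMap L P.k c ⊗ₜ 1) := fun c => rfl
  let δ : L →+* R := δ0.codRestrict R fun c => domC_base_mem P I.s (P.T.O.algebraMap_mem c)
  let sym : R →+ ((Fin A × Fin (Module.finrank F E)) × Mon P.V → L) :=
    { toFun := fun z p => P.T.ty ((b.baseChange P.k).repr (z.1.co (gc p.1.1)) p.1.2) p.2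
      map_zero' := by
        funext p
        simp
      map_add' := fun z w => by
        funext p
        simp }
  have hsym : ∀ (z : R) p,
      sym z p = P.T.ty ((b.baseChange P.k).repr (z.1.co (gc p.1.1)) p.1.2) p.2 := fun z p => rfl
  have hF : ∀ (z : R) n, Fil P.T.wt n (sym z) ↔ z.1 ∈ P.Sub E I.s (P.Nc n) := by
    intro z n
    rw [domC_mem P b I.s z.2]
    exact ⟨fun h j i μ hμ => h ((j, i), μ) hμ, fun h p hp => h p.1.1 p.1.2 p.2 hp⟩
  have hx0 : x ∈ R := P.Sub_mono E I.s (domC_Nc_le P m) hx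
  have hy0 : y ∈ R := P.Sub_mono E I.s (domC_Nc_le P m') hy
  have key := gl_val δ P.T.wt P.T.wt_pos sym ?_ ?_ ?_ ?_ ?_ (x := ⟨x, hx0⟩) (y := ⟨y, hy0⟩)
    ((hF _ _).2 hx) (fun h => hx' ((hF _ _).1 h)) ((hF _ _).2 hy) (fun h => hy' ((hF _ _).1 h))
  · exact fun h => key ((hF _ _).2 h)
  · intro c z p
    have e : (δ c * z).1 = CP.base (P.cd E I.s) (algebraMap L P.k c ⊗ₜ 1) * z.1 := rfl
    rw [hsym, hsym, e, domC_repr_base, ← Algebra.smul_def, map_smul, Pi.smul_apply, smul_eq_mul]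
  · intro n n' z w hz hw
    rw [hF] at hz hw ⊢
    exact P.Sub_mul E I.s (P.Nc_mul n n') hz hw
  · rintro ⟨⟨j, i⟩, μ⟩
    obtain ⟨f, hf, hf1, hf2⟩ := P.T.ty_mon μ
    have hm : CP.sgl (P.cd E I.s) (gc j) (f ⊗ₜ b i) ∈ R := by
      refine P.sgl_mem_Sub E I.s (tmul_mem_TE ?_ _)
      rw [domC_Nc_gc]
      exact (domC_fil_zero P).2 hf
    refine ⟨⟨_, hm⟩, ?_, ?_⟩
    · rw [hsym]
      simp only [CP.co_sgl, Finsupp.single_eq_same, Module.Basis.baseChange_repr_tmul,
        Module.Basis.repr_self, one_smul]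
      exact hf1
    · rintro ⟨⟨j', i'⟩, μ'⟩ hne
      rw [hsym]
      simp only [CP.co_sgl]
      by_cases hj : j' = j
      · subst hj
        rw [Finsupp.single_eq_same, Module.Basis.baseChange_repr_tmul, Module.Basis.repr_self]
        by_cases hi : i' = i
        · subst hi
          rw [Finsupp.single_eq_same, one_smul]
          exact hf2 μ' fun h => hne (by rw [h])
        · rw [Finsupp.single_eq_of_ne hi, zero_smul, map_zero, Pi.zero_apply]
      · rw [Finsupp.single_eq_of_ne fun h => hj (domC_gc_inj h), map_zero, Finsupp.zero_apply,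
          map_zero, Pi.zero_apply]
  · intro v
    obtain ⟨a, ha, ha'⟩ := P.T.ty_shift v
    refine ⟨⟨_, domC_base_mem P I.s ha⟩, fun z p => ?_⟩
    have e : ((⟨_, domC_base_mem P I.s ha⟩ : R) * z).1 =
        CP.base (P.cd E I.s) (a ⊗ₜ 1) * z.1 := rfl
    rw [hsym, e, domC_repr_base]
    exact ha' _ (domC_coord P b I.s z.2 _ _) _
  · intro z hz
    rw [hF] at hz
    obtain ⟨x', h1, h2⟩ := domC_div P I z.2 hz
    exact ⟨⟨x', h1⟩, (hF _ _).2 h2⟩

end Vale.Agent.P200.H
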