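import Vale.Agent.P200.H.Defs

/-! Dual bases relative to a subspace. -/

open MvPolynomial Finset

namespace Vale.Agent.P200.H

open Vale.Agent.P200.G Vale.Agent.P200.Eq

universe u

theorem dual_lin {K E : Type*} [Field K] [AddCommGroup E] [Module K E] (V U : Submodule K E)
    [FiniteDimensional K V] {b : E} (hbU : b ∉ U) :
    ∃ (r : ℕ) (lam : Fin r → E →ₗ[K] K) (θ : E →ₗ[K] K) (β : Fin r → E),
      (∀ j, β j ∈ V) ∧ (∀ j j', lam j (β j') = if j = j' then 1 else 0) ∧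
      (∀ j, θ (β j) = 0) ∧ (∀ j, lam j b = 0) ∧ θ b = 1 ∧ (∀ j, ∀ u ∈ U, lam j u = 0) ∧
      ∀ f ∈ V, f - θ f • b - ∑ j, lam j f • β j ∈ U := by
  set U' := U ⊔ K ∙ b
  let B := Module.finBasis K (V.map U'.mkQ)
  choose β hβ hB using fun j => Submodule.mem_map.1 (B j).2
  choose l hl using fun j => (B.coord j).exists_extend
  obtain ⟨t, ht0, ht1⟩ := LinearMap.exists_extend_of_notMem (0 : U →ₗ[K] K) hbU 1
  have ht : ∀ u ∈ U, t u = 0 := fun u hu => LinearMap.congr_fun ht0 ⟨u, hu⟩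
  have hl' : ∀ j (x : V.map U'.mkQ), l j x = B.repr x j := fun j x => LinearMap.congr_fun (hl j) x
  have h0 : ∀ j, ∀ u ∈ U', l j (U'.mkQ u) = 0 := fun j u hu => by
    rw [Submodule.mkQ_apply, (Submodule.Quotient.mk_eq_zero _).2 hu, map_zero]
  have hb : b ∈ U' := Submodule.mem_sup_right (Submodule.mem_span_singleton_self b)
  have hd : ∀ j j', l j (U'.mkQ (β j')) = if j = j' then 1 else 0 := fun j j' => by
    rw [hB, hl', B.repr_self, Finsupp.single_apply]
    simp only [eq_comm]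
  let θ : E →ₗ[K] K := t - ∑ j, t (β j) • (l j ∘ₗ U'.mkQ)
  have hθ : ∀ x, θ x = t x - ∑ j, t (β j) * l j (U'.mkQ x) := fun x => by
    simp only [θ, LinearMap.sub_apply, LinearMap.sum_apply, LinearMap.smul_apply,
      LinearMap.comp_apply, smul_eq_mul]
  have hθβ : ∀ j, θ (β j) = 0 := fun j => by simp [hθ, -Submodule.mkQ_apply, hd]
  have hθ' : ∀ u ∈ U', θ u = t u := fun u hu => by simp [hθ, -Submodule.mkQ_apply, h0 _ u hu]
  refine ⟨_, fun j => l j ∘ₗ U'.mkQ, θ, β, hβ, hd, hθβ, fun j => h0 j b hb,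
    (hθ' b hb).trans ht1, fun j u hu => h0 j u (Submodule.mem_sup_left hu), fun f hf => ?_⟩
  have h1 : f - ∑ j, l j (U'.mkQ f) • β j ∈ U' := by
    rw [← Submodule.Quotient.mk_eq_zero, ← Submodule.mkQ_apply, map_sub, map_sum, sub_eq_zero]
    have := congrArg Subtype.val (B.sum_repr ⟨U'.mkQ f, Submodule.mem_map_of_mem hf⟩)
    rw [AddSubmonoidClass.coe_finsetSum] at this
    refine this.symm.trans (sum_congr rfl fun j _ => ?_)
    rw [map_smul, hB, ← hl']
    rfl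
  have h2 := hθ' _ h1
  obtain ⟨u, hu, _, hc, he⟩ := Submodule.mem_sup.1 h1
  obtain ⟨c, rfl⟩ := Submodule.mem_span_singleton.1 hc
  conv_rhs at h2 => rw [← he, map_add, ht u hu, map_smul, ht1]
  simp only [map_sub, map_sum, map_smul, hθβ, mul_zero, sum_const_zero, sub_zero, zero_add,
    smul_eq_mul, mul_one] at h2
  rw [sub_right_comm, h2]
  simp only [LinearMap.comp_apply]
  rw [← he, add_sub_cancel_right]
  exact hu

theorem dual_fn {K : Type*} [Field K] {N : ℕ} (ψ : MvPolynomial (Fin N) K →ₗ[K] K) :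
    fn (fun γ => ψ (monomial γ 1)) = ψ := by
  refine (basisMonomials (Fin N) K).ext fun γ => ?_
  simp only [coe_basisMonomials, fn_monomial, one_mul]

theorem exists_dual' {K : Type u} [Field K] {N : ℕ} (V U : Submodule K (MvPolynomial (Fin N) K))
    [FiniteDimensional K V] (hU : U ≤ V) {b : MvPolynomial (Fin N) K} (hb : b ∈ V) (hbU : b ∉ U) :
    ∃ (r : ℕ) (lam : Fin r → (Fin N →₀ ℕ) → K) (θ : (Fin N →₀ ℕ) → K)
      (β : Fin r → MvPolynomial (Fin N) K),
      (∀ j, β j ∈ V) ∧ (∀ j j', fn (lam j) (β j') = if j = j' then 1 else 0) ∧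
      (∀ j, fn θ (β j) = 0) ∧ (∀ j, fn (lam j) b = 0) ∧ fn θ b = 1 ∧
      (∀ j, ∀ u ∈ U, fn (lam j) u = 0) ∧
      ∀ f ∈ V, f - fn θ f • b - ∑ j, fn (lam j) f • β j ∈ U := by
  have _ := hU
  have _ := hb
  obtain ⟨r, lam, θ, β, h⟩ := dual_lin V U hbU
  refine ⟨r, fun j γ => lam j (monomial γ 1), fun γ => θ (monomial γ 1), β, ?_⟩
  simpa only [dual_fn] using h

end Vale.Agent.P200.H
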