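import Vale.Agent.P200.H.Raw2
import Vale.Agent.P200.H.Tay

/-! Denominators and Taylor coefficients of weight vectors. -/

open Finset Polynomial Matrix

namespace Vale.Agent.P200.H

open Vale.Agent.P200.G Vale.Agent.P200.Eq

universe u

variable {A : ℕ} [NeZero A] {L : Type u} [Field L] (T : Tay L (Kh A L) (Vr A))

/-- a stable subspace that meets the span of eigenvectors contains an eigenvector -/
theorem grd_eig {K ι G : Type*} [AddCommGroup K] [Module L K] (θ : G → K →ₗ[L] K) (m : ι → K)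
    (χ : ι → G → L) (hm : ∀ i g, θ g (m i) = χ i g • m i) (I : Submodule L K)
    (hI : ∀ g, ∀ q ∈ I, θ g q ∈ I) (s : Finset ι) : ∀ c : ι → L, ∑ i ∈ s, c i • m i ∈ I →
      ∑ i ∈ s, c i • m i ≠ 0 → ∃ q ∈ I, q ≠ 0 ∧ ∃ i, ∀ g, θ g q = χ i g • q := by
  classical
  induction s using Finset.induction_on with
  | empty => exact fun c _ h => absurd sum_empty h
  | insert a s ha ih =>
    intro c h1 h2
    by_cases h : ∀ g, θ g (∑ i ∈ insert a s, c i • m i) = χ a g • ∑ i ∈ insert a s, c i • m i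
    · exact ⟨_, h1, h2, a, h⟩
    obtain ⟨g, hg⟩ := not_forall.1 h
    have e : θ g (∑ i ∈ insert a s, c i • m i) - χ a g • ∑ i ∈ insert a s, c i • m i =
        ∑ i ∈ s, (c i * (χ i g - χ a g)) • m i := by
      rw [map_sum, smul_sum, ← sum_sub_distrib, sum_insert ha, map_smul, hm, smul_comm, sub_self,
        zero_add]
      refine sum_congr rfl fun i _ => ?_
      rw [map_smul, hm, smul_comm (χ a g), ← smul_sub, ← sub_smul, smul_smul]
    exact ih _ (e ▸ I.sub_mem (hI g _ h1) (I.smul_mem _ h1)) (e ▸ sub_ne_zero.2 hg)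

theorem grd_smul {x y : Ix A} {f : Kh A L} (hf : f ∈ Wt L x y) {ϑ : Ix A → Lˣ}
    {θ : Kh A L ≃ₐ[L] Kh A L} (h : IsTor ϑ θ) : θ f = (((ϑ x)⁻¹ * ϑ y : Lˣ) : L) • f := by
  rw [Units.val_mul, mul_smul, ← hf ϑ θ h, smul_smul, Units.inv_mul, one_smul]

theorem grd_ne (hA : 3 ≤ A)
    (hp : ∀ p : MvPolynomial (Vr A) L, algebraMap _ (Kh A L) p ∈ T.O ∧
      ∀ μ, T.ty (algebraMap _ (Kh A L) p) μ = p.coeff μ)
    (hi : ∀ f ∈ T.O, T.ty f 0 ≠ 0 → f⁻¹ ∈ T.O) (x y : Ix A) :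
    ∃ f ∈ Wt L x y, f ∈ T.O ∧ f ≠ 0 := by
  let r : Ix A → Ix A → Prop := fun x y => ∃ f ∈ Wt L x y, f ∈ T.O ∧ f ≠ 0
  have ht : ∀ {x y z}, r x y → r y z → r x z := fun ⟨f, hf, h0⟩ ⟨g, hg, h1⟩ =>
    ⟨f * g, Wt_mul hf hg, mul_mem h0.1 h1.1, mul_ne_zero h0.2 h1.2⟩
  have h1 : ∀ j i, r (j, i) (j + i, 0) := fun j i =>
    ⟨_, Phig_mem_Wt j i (j + i), (hp _).1, (nf_Phig j).2.2 i⟩
  have h1' : ∀ j i, r (j + i, 0) (j, i) := fun j i => by
    refine ⟨_, Wt_inv (Phig_mem_Wt j i (j + i)), hi _ (hp _).1 ?_,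
      inv_ne_zero ((nf_Phig j).2.2 i)⟩
    rw [Phig, Fl.map, map_apply, (hp _).2, Phip, of_apply, if_pos rfl]
    split_ifs <;> simp
  let o : Fin A := ⟨1, by omega⟩
  let t : Fin A := ⟨2, by omega⟩
  have ho : o = 1 := by
    apply Fin.ext
    rw [Fin.val_one', Nat.mod_eq_of_lt (by omega)]
  have hto : t = 1 + 1 := by
    apply Fin.ext
    rw [← ho, Fin.val_add]
    exact (Nat.mod_eq_of_lt (by omega)).symm
  have h2 : ∀ j, r (j, o) (j + t, 0) := fun j => by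
    refine ⟨_, Phig_mem_Wt j o (j + t), (hp _).1, ?_⟩
    have hv : 0 < o.val ∧ o ≤ t := ⟨Nat.one_pos, by rw [Fin.le_def]; exact Nat.le_succ 1⟩
    have := Phig_apply (L := L) (⟨(j, o, t), hv⟩ : Vr A)
    have hne : o ≠ t := fun h => by
      have := congrArg Fin.val h
      simp [o, t] at this
    dsimp only at this
    rw [this, if_neg hne, zero_add, Xg]
    exact (map_ne_zero_iff _ (IsFractionRing.injective _ _)).2 (MvPolynomial.X_ne_zero _)
  have h3 : ∀ c : Fin A, r (c, 0) (c + 1, 0) := fun c => by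
    have a1 := ht (h1' (c - 1) o) (h2 (c - 1))
    rwa [ho, hto, ← add_assoc, sub_add_cancel] at a1
  have h4 : ∀ (c : Fin A) (m : ℕ), r (c, 0) (c + m • (1 : Fin A), 0) := fun c m => by
    induction m with
    | zero => exact ⟨1, by rw [zero_nsmul, add_zero]; exact Wt_one _, one_mem _, one_ne_zero⟩
    | succ m ih =>
      rw [succ_nsmul, ← add_assoc]
      exact ht ih (h3 _)
  have h5 : ∀ c c' : Fin A, r (c, 0) (c', 0) := fun c c' => by
    have := h4 c (c' - c).val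
    rwa [← natCast_zsmul, val_zsmul_one, add_sub_cancel] at this
  exact ht (h1 x.1 x.2) (ht (h5 _ _) (h1' y.1 y.2))

theorem wt_den (hA : 3 ≤ A)
    (hp : ∀ p : MvPolynomial (Vr A) L, algebraMap _ (Kh A L) p ∈ T.O ∧
      ∀ μ, T.ty (algebraMap _ (Kh A L) p) μ = p.coeff μ)
    (hi : ∀ f ∈ T.O, T.ty f 0 ≠ 0 → f⁻¹ ∈ T.O) {x y : Ix A} {f : Kh A L} (hf : f ∈ Wt L x y) :
    ∃ z ∈ Wt L (ixo A) (ixo A), z ∈ T.O ∧ z ≠ 0 ∧ z * f ∈ T.O := by
  let G := {g : (Ix A → Lˣ) × (Kh A L ≃ₐ[L] Kh A L) // IsTor g.1 g.2}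
  let Φ : Vr A → Kh A L := fun v => Phig A L v.1.1 v.1.2.1 (v.1.1 + v.1.2.2)
  let R := Algebra.adjoin L (Set.range Φ)
  have hΦ : ∀ v, Φ v ∈ R := fun v => Algebra.subset_adjoin ⟨v, rfl⟩
  have hRO : R ≤ T.O := Algebra.adjoin_le (by
    rintro _ ⟨v, rfl⟩
    exact (hp _).1)
  have hRθ : ∀ g : G, ∀ q ∈ R, g.1.2 q ∈ R := fun g q hq =>
    Algebra.adjoin_le (S := R.comap (g.1.2 : Kh A L →ₐ[L] Kh A L)) (by
      rintro _ ⟨v, rfl⟩
      change g.1.2 (Φ v) ∈ R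
      rw [grd_smul (Phig_mem_Wt _ _ _) g.2]
      exact R.smul_mem (hΦ v) _) hq
  have hRp : ∀ p : MvPolynomial (Vr A) L, algebraMap _ (Kh A L) p ∈ R := fun p => by
    induction p using MvPolynomial.induction_on with
    | C a => exact R.algebraMap_mem a
    | add p q hp hq =>
      rw [map_add]
      exact add_mem hp hq
    | mul_X p v hp =>
      rw [map_mul]
      refine mul_mem hp ?_
      have h1 := hΦ v
      rw [show Φ v = _ from Phig_apply v] at h1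
      refine (add_mem_cancel_left ?_).1 h1
      split_ifs
      exacts [one_mem _, zero_mem _]
  let M : Submonoid (Kh A L) :=
    { carrier := {m | ∃ u ∈ T.O, u ≠ 0 ∧ ∀ g : G, ∃ χ : L, g.1.2 m = χ • m ∧ χ • g.1.2 u = u}
      one_mem' := ⟨1, one_mem _, one_ne_zero, fun g => ⟨1, by simp⟩⟩
      mul_mem' := by
        rintro m m' ⟨u, h1, h2, h3⟩ ⟨u', h1', h2', h3'⟩
        refine ⟨u * u', mul_mem h1 h1', mul_ne_zero h2 h2', fun g => ?_⟩
        obtain ⟨χ, a1, a2⟩ := h3 g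
        obtain ⟨χ', b1, b2⟩ := h3' g
        exact ⟨χ * χ', by rw [map_mul, a1, b1, smul_mul_smul_comm],
          by rw [map_mul, ← smul_mul_smul_comm, a2, b2]⟩ }
  have hM : Subalgebra.toSubmodule R ≤ Submodule.span L (M : Set (Kh A L)) := by
    rw [Algebra.adjoin_eq_span]
    refine Submodule.span_mono (Submonoid.closure_le.2 ?_)
    rintro _ ⟨v, rfl⟩
    obtain ⟨u, h1, h2, h3⟩ := grd_ne T hA hp hi (v.1.1 + v.1.2.2, 0) (v.1.1, v.1.2.1)
    refine ⟨u, h2, h3, fun g => ⟨_, grd_smul (Phig_mem_Wt _ _ _) g.2, ?_⟩⟩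
    rw [grd_smul h1 g.2, smul_smul, ← Units.val_mul, mul_assoc, mul_inv_cancel_left,
      inv_mul_cancel, Units.val_one, one_smul]
  let I : Submodule L (Kh A L) := Subalgebra.toSubmodule R ⊓
    (Subalgebra.toSubmodule R).comap (LinearMap.mulRight L f)
  have hI : ∀ g : G, ∀ q ∈ I, g.1.2.toLinearMap q ∈ I := fun g q hq => by
    refine ⟨hRθ g q hq.1, ?_⟩
    have h1 := R.smul_mem (hRθ g _ hq.2) ((((g.1.1 x)⁻¹ * g.1.1 y)⁻¹ : Lˣ) : L)
    rwa [LinearMap.mulRight_apply, map_mul, grd_smul hf g.2, mul_smul_comm, smul_smul,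
      Units.inv_mul, one_smul] at h1
  obtain ⟨p, q, hq, rfl⟩ := IsFractionRing.div_surjective (MvPolynomial (Vr A) L) f
  have h0 : algebraMap _ (Kh A L) q ≠ 0 := IsFractionRing.to_map_ne_zero_of_mem_nonZeroDivisors hq
  obtain ⟨n, c, m, e⟩ := Submodule.mem_span_set'.1 (hM (hRp q))
  choose u h1 h2 χ h3 h4 using fun i => (m i).2
  obtain ⟨z, hz, z0, i, hi⟩ := grd_eig (fun g : G => g.1.2.toLinearMap) (fun i => (m i : Kh A L))
    χ h3 I hI univ c (e ▸ ⟨hRp q, by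
      change _ * _ ∈ R
      rw [mul_div_cancel₀ _ h0]
      exact hRp p⟩) (e ▸ h0)
  refine ⟨u i * z, fun ϑ θ h => ?_, mul_mem (h1 i) (hRO hz.1), mul_ne_zero (h2 i) z0, ?_⟩
  · have a1 : θ z = _ := hi ⟨(ϑ, θ), h⟩
    have a2 : _ • θ _ = _ := h4 i ⟨(ϑ, θ), h⟩
    rw [map_mul, a1, mul_smul_comm, ← smul_mul_assoc (χ i _), a2]
  · rw [mul_assoc]
    exact mul_mem (h1 i) (hRO hz.2)

theorem grd_zpow {G ι : Type*} [CommGroup G] (t : G) (s : Finset ι) (f : ι → ℤ) :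
    t ^ ∑ i ∈ s, f i = ∏ i ∈ s, t ^ f i := by
  classical
  induction s using Finset.induction_on with
  | empty => simp
  | insert a s ha ih => rw [sum_insert ha, prod_insert ha, _root_.zpow_add, ih]

theorem grd_exp [Infinite L] {a b : ℤ} (h : ∀ t : Lˣ, t ^ a = t ^ b) : a = b := by
  have h1 : (X ^ ((a - b).natAbs + 1) : L[X]) = X := Polynomial.funext fun x => by
    rw [eval_pow, eval_X, pow_succ]
    by_cases hx : x = 0
    · rw [hx, mul_zero]
    have h2 : Units.mk0 x hx ^ (a - b).natAbs = 1 :=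
      pow_natAbs_eq_one.2 (by rw [_root_.zpow_sub, h, mul_inv_cancel])
    have h3 := congrArg Units.val h2
    rw [Units.val_pow_eq_pow_val, Units.val_mk0] at h3
    rw [h3, Units.val_one, one_mul]
  have h2 := congrArg natDegree h1
  rw [natDegree_X_pow, natDegree_X] at h2
  omega

theorem wt_ord [Infinite L]
    (hθ : ∀ (ψ : Kh A L →ₐ[L] Kh A L) (t : Vr A → L), (∀ v, ψ (Xg L v) = t v • Xg L v) →
      ∀ f ∈ T.O, ψ f ∈ T.O ∧ ∀ μ, T.ty (ψ f) μ = (μ.prod fun v m => t v ^ m) * T.ty f μ)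
    {x y : Ix A} {f : Kh A L} (hf : f ∈ Wt L x y) (hO : f ∈ T.O) {μ : Vr A →₀ ℕ}
    (h : T.ty f μ ≠ 0) :
    Finsupp.weight wtV μ + (x.1 + x.2).val ≡ (y.1 + y.2).val [MOD A] := by
  let e : Vr A → ℤ := fun v => (v.1.1 + v.1.2.2).val - (v.1.1 + v.1.2.1).val
  have key : ((x.1 + x.2).val : ℤ) + (μ.sum fun v m => e v * m) = (y.1 + y.2).val := by
    refine grd_exp (L := L) fun t => Units.ext ?_
    obtain ⟨θ, ht⟩ := exists_tor (L := L) fun x : Ix A => t ^ (x.1 + x.2).val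
    have h1 : ∀ v, (θ : Kh A L →ₐ[L] Kh A L) (Xg L v) = ((t ^ e v : Lˣ) : L) • Xg L v := fun v => by
      have h2 := grd_smul (Phig_mem_Wt v.1.1 v.1.2.1 (v.1.1 + v.1.2.2)) ht
      simp only [add_zero] at h2
      rw [mul_comm, ← zpow_natCast, ← zpow_natCast, ← _root_.zpow_sub, Phig_apply] at h2
      change θ _ = _
      split_ifs at h2 with hv
      · simp only [e, hv, sub_self, zpow_zero, Units.val_one, one_smul, map_add, map_one] at h2 ⊢
        exact add_left_cancel h2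
      · rwa [zero_add] at h2
    have h2 := congrArg (fun g => T.ty g μ) (hf _ θ ht)
    simp only [map_smul, Pi.smul_apply, smul_eq_mul] at h2
    rw [show T.ty (θ f) μ = _ from (hθ _ _ h1 f hO).2 μ, ← mul_assoc] at h2
    rw [_root_.zpow_add, zpow_natCast, zpow_natCast, ← mul_right_cancel₀ h h2, Units.val_mul,
      Finsupp.sum, grd_zpow, Finsupp.prod, Units.coe_prod]
    simp only [_root_.zpow_mul, zpow_natCast, Units.val_pow_eq_pow_val]
  have he : ∀ v, ((e v : ℤ) : ZMod A) = (wtV v : ℕ) := fun v => by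
    simp only [e, wtV, Fin.val_add, Int.cast_sub, Int.cast_natCast, ZMod.natCast_mod, Nat.cast_add]
    split_ifs with hv
    · rw [hv, sub_self, ZMod.natCast_self]
    · rw [Nat.cast_sub (show v.1.2.1.val ≤ v.1.2.2.val from v.2.2), add_sub_add_left_eq_sub]
  rw [← ZMod.natCast_eq_natCast_iff, ← Int.cast_natCast (y.1 + y.2).val, ← key, add_comm,
    Finsupp.weight_apply, Finsupp.sum, Finsupp.sum]
  push_cast
  simp only [he, smul_eq_mul, Nat.cast_mul, mul_comm]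

end Vale.Agent.P200.H
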