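import Vale.Agent.P200.G.PDefs
import Vale.Agent.P200.H.RDefs

/-! The interface between the matrix part and the crossed product part of the link. -/

open Finset TensorProduct

namespace Vale.Agent.P200.H

open Vale.Agent.P200.G Vale.Agent.P200.Eq

universe u

variable {A : ℕ} [NeZero A] {F L : Type u} [Field F] [Field L] [Algebra F L]

/-- the action package -/
structure Pk (Z : Cyc F L A) : Type (u + 1) where
  k : Type u
  [fk : Field k]
  [aL : Algebra L k]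
  [aF : Algebra F k]
  [tw : IsScalarTower F L k]
  α : Gw A →* (k ≃ₐ[F] k)
  α_L : ∀ g x, α g (algebraMap L k x) = algebraMap L k (sg Z.σ g.h x)
  α_const : ∀ z : ℤ, α (gn fun _ => z) = 1
  W : Ix A → Ix A → Submodule L k
  W_one : ∀ x, 1 ∈ W x x
  W_mul : ∀ x y z, ∀ f ∈ W x y, ∀ f' ∈ W y z, f * f' ∈ W x z
  W_inv : ∀ x y, ∀ f ∈ W x y, f⁻¹ ∈ W y x
  W_act : ∀ (g : Gw A) x y, ∀ f ∈ W x y, α g f ∈ W (g • x) (g • y)
  W_ne : ∀ x y, ∃ f ∈ W x y, f ≠ 0
  α_A : ∀ (n : Fin A → ℤ) x, ∀ f ∈ W x x, α (gn ((A : ℤ) • n)) f = f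
  b : (Fin A → ℤ) → Fin 2 → Matrix (Fin A) (Fin A) k
  b_W : ∀ n, Pos n → ∀ ε c c', b n ε c c' ∈ W (c, 0) (gu n • (c', 0))
  b_mul : ∀ n n' z z', Pos n → Pos n' → Pos z → Pos z' → n + n' = z + z' →
    mlin (b n) * mlin (fun ε => (b n' ε).map (α (gu n))) =
      mlin (b z) * mlin (fun ε => (b z' ε).map (α (gu z)))
  b_sh : ∀ n, Pos n → ∀ ε c c', b (sh n) ε (c + 1) (c' + 1) = α (gs 1) (b n ε c c')
  b_c0 : ∀ j, b (nw fun _ => j) 0 = Matrix.diagonal fun c => algebraMap L k (cc Z.pt j c)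
  b_c1 : ∀ j, b (nw fun _ => j) 1 =
    Matrix.diagonal fun c => algebraMap L k (-(Z.pt j * cc Z.pt j c))
  α_c : ∀ n j, (∀ j', pd n j' + 1 = if j' = j then (A : ℤ) else 0) → ∀ x y, ∀ f ∈ W x y,
    cc Z.pt j x.1 • α (gu n) f = cc Z.pt j y.1 • f
  V : Type
  [fV : Fintype V]
  T : Tay L k V
  α_fil : ∀ g : Gw A, g.n = 0 → ∀ m, ∀ f ∈ T.Fil m, α g f ∈ T.Fil m
  α_res : ∀ g : Gw A, g.n = 0 → ∀ f ∈ T.O, T.ty (α g f) 0 = sg Z.σ g.h (T.ty f 0)
  den : ∀ x y, ∀ f ∈ W x y, ∃ z ∈ W (ixo A) (ixo A), z ∈ T.O ∧ z ≠ 0 ∧ z * f ∈ T.O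
  ord : ∀ x y, ∀ f ∈ W x y, f ∈ T.O → ∀ μ, T.ty f μ ≠ 0 →
    Finsupp.weight T.wt μ + (x.1 + x.2).val ≡ (y.1 + y.2).val [MOD A]

attribute [instance] Pk.fk Pk.aL Pk.aF Pk.tw Pk.fV

/-- the cyclic algebra in which the link starts -/
structure Inp (Z : Cyc F L A) (E D : Type u) [DivisionRing E] [Algebra F E] [DivisionRing D]
    [Algebra F D] where
  s : F
  s0 : s ≠ 0
  ι : E →ₐ[F] D
  jL : L →ₐ[F] D
  comm : ∀ x e, Commute (jL x) (ι e)
  v : D
  v_ι : ∀ e, Commute v (ι e)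
  vA : v ^ A = algebraMap F D s
  vσ : ∀ x, v * jL (Z.σ x) = jL x * v
  ind : ∀ f : Fin A → L ⊗[F] E,
    ∑ m, Algebra.TensorProduct.lift jL ι comm (f m) * v ^ m.val = 0 → ∀ m, f m = 0

variable {Z : Cyc F L A} (P : Pk Z) (E : Type u) [DivisionRing E] [Algebra F E] (s : F)

/-- the crossed product data -/
noncomputable def Pk.cd : Cd F (Gw A) (P.k ⊗[F] E) where
  α :=
    { toFun := fun g => Algebra.TensorProduct.congr (P.α g) AlgEquiv.refl
      map_one' := by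
        ext x
        induction x using TensorProduct.induction_on with
        | zero => simp
        | add x y hx hy => rw [map_add, map_add, hx, hy]
        | tmul f e => simp
      map_mul' := fun g h => by
        ext x
        induction x using TensorProduct.induction_on with
        | zero => simp
        | add x y hx hy => rw [map_add, map_add, hx, hy]
        | tmul f e => simp }
  τ g g' := s ^ ((g.k.val + g'.k.val) / A)
  τ_one_left g := by simp [Nat.div_eq_of_lt g.k.2]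
  τ_one_right g := by simp [Nat.div_eq_of_lt g.k.2]
  τ_assoc g h k := by
    rw [← pow_add, ← pow_add, Gw.mul_k, Gw.mul_k, carry_assoc]

theorem Pk.cd_α_tmul (g : Gw A) (f : P.k) (e : E) :
    (P.cd E s).α g (f ⊗ₜ e) = P.α g f ⊗ₜ e := rfl

theorem Pk.cd_τ (g g' : Gw A) : (P.cd E s).τ g g' = s ^ ((g.k.val + g'.k.val) / A) := rfl

/-- the crossed product -/
abbrev Pk.X : Type u := CP (P.cd E s)

/-- elements whose coefficient at `g` lies in `N g ⊗ E` -/
noncomputable def Pk.Sub (N : Gw A → Submodule F P.k) : Submodule F (P.X E s) where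
  carrier := {x | ∀ g, x.co g ∈ TE E (N g)}
  add_mem' := fun hx hy g => add_mem (hx g) (hy g)
  zero_mem' := fun _ => zero_mem _
  smul_mem' := fun c _ hx g => Submodule.smul_mem _ c (hx g)

/-- the weight condition -/
noncomputable def Pk.N (g : Gw A) : Submodule F P.k :=
  (P.W (ixo A) (g • ixo A)).restrictScalars F

open Classical in
/-- the weight condition, supported on `n = 0` -/
noncomputable def Pk.N0 (g : Gw A) : Submodule F P.k := if g.n = 0 then P.N g else ⊥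

open Classical in
/-- the weight condition, supported on `n ≥ 0` and `|n| ≥ m` -/
noncomputable def Pk.Np (m : ℕ) (g : Gw A) : Submodule F P.k :=
  if 0 ≤ g.n ∧ (m : ℤ) ≤ ∑ j, g.n j then P.N g else ⊥

open Classical in
/-- order at least `m` at the origin, supported on the elements `gc m` -/
noncomputable def Pk.Nc (m : ℕ) (g : Gw A) : Submodule F P.k :=
  if g.n = 0 ∧ g.k + g.h = 0 then (P.T.Fil m).restrictScalars F else ⊥

/-- the matrix data of a link -/
structure Md (Z : Cyc F L A) (E : Type u) [DivisionRing E] [Algebra F E] (s : F) (R : Type u)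
    [Ring R] [Algebra F R] where
  jL : L →ₐ[F] R
  jE : E →ₐ[F] R
  m : (Fin A → ℤ) → Fin 2 → Matrix (Fin A) (Fin A) R
  β : Fin A → Fin A → R
  jLE : ∀ x e, Commute (jL x) (jE e)
  m_E : ∀ n ε c c' e, Commute (m n ε c c') (jE e)
  m_deg : ∀ n ε c c' x, m n ε c c' * jL x = jL (sg Z.σ (c' - c) x) * m n ε c c'
  m_mul : ∀ n n' z z', Pos n → Pos n' → Pos z → Pos z' → n + n' = z + z' →
    mlin (m n) * mlin (m n') = mlin (m z) * mlin (m z')
  m_sh : ∀ n, Pos n → ∀ ε c c', m (sh n) ε (c + 1) (c' + 1) = m n ε c c'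
  m_c0 : ∀ j, m (nw fun _ => j) 0 = Matrix.diagonal (β j)
  m_c1 : ∀ j, m (nw fun _ => j) 1 = Matrix.diagonal fun c => -(β j c * jL (Z.pt (j - c)))
  β_L : ∀ j c x, Commute (β j c) (jL x)
  β_prod : ∀ c, (List.ofFn fun j => β j c).prod = algebraMap F R s
  β_cent : ∀ x : R, ∃ xs : Fin A → R, x = ∑ h, xs h ∧ ∀ h,
    (∀ y, xs h * jL y = jL (sg Z.σ h y) * xs h) ∧ ∀ j c, β j c * xs h = xs h * β j (c + h)

/-- the element `∑ a ^ i ⊗ x i` -/
noncomputable def Cyc.cmb (Z : Cyc F L A) {R : Type u} [Ring R] [Algebra F R] (x : Fin A → R) :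
    L ⊗[F] R :=
  ∑ i, (Z.a ^ i.val) ⊗ₜ x i

/-- the descended data of a link -/
structure Ld (Z : Cyc F L A) (E : Type u) [DivisionRing E] [Algebra F E] (s : F) (R : Type u)
    [Ring R] [Algebra F R] where
  jE : E →ₐ[F] R
  ω : (Fin A → Fin A) → Fin A → Fin 2 → R
  b : Fin A → Fin A → R
  ω_E : ∀ w i ε e, Commute (ω w i ε) (jE e)
  ω_comm : ∀ w i w' i', Commute (lin (ω w i)) (lin (ω w' i'))
  b_cent : ∀ j i x, Commute (b j i) x
  ver : ∀ w w' z z', ct w + ct w' = ct z + ct z' →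
    (Z.cmb fun i => lin (ω w i)) * (Z.cmb fun i => lin (ω w' i)) =
      (Z.cmb fun i => lin (ω z i)) * (Z.cmb fun i => lin (ω z' i))
  nrm : ∀ j, (Z.cmb fun i => lin (ω (fun _ => j) i)) = (Z.cmb fun i => cst 2 (b j i)) *
    ((1 : L) ⊗ₜ lin ![(1 : R), 0] - Z.pt j ⊗ₜ lin ![(0 : R), 1])
  prd : (List.ofFn fun j => Z.cmb fun i => cst 2 (b j i)).prod =
    algebraMap F (L ⊗[F] Alg R (Fin 2)) s
  yid : ∀ i, i ≠ 0 → ω id i = 0

end Vale.Agent.P200.H
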