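import Vale.Agent.P200.G.StB
import Vale.Agent.P200.G.Loc
import Vale.Agent.P200.H.PDefs

/-! From descended link data to a state in two variables. -/

open MvPolynomial TensorProduct

namespace Vale.Agent.P200.H

open Vale.Agent.P200.G Vale.Agent.P200.Eq

universe u

variable {A : ℕ} [NeZero A] {F L : Type u} [Field F] [Field L] [Algebra F L] {Z : Cyc F L A}
  {E : Type u} [DivisionRing E] [Algebra F E] {s : F} {R : Type u} [Ring R] [Algebra F R]

theorem lf_coord {M : Type u} [Ring M] [Algebra F M] {x : Fin A → M} (h : Z.cmb x = 0)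
    (i : Fin A) : x i = 0 := by
  have := congrArg (fun t => TensorProduct.lid F M (LinearMap.rTensor M (Z.bL.coord i) t)) h
  simp only [Cyc.cmb, map_sum, ← Z.bL_eq, LinearMap.rTensor_tmul, lid_tmul,
    Module.Basis.coord_apply, Module.Basis.repr_self, map_zero] at this
  simpa [Finsupp.single_apply] using this

theorem lf_map_cmb {M M' : Type u} [Ring M] [Algebra F M] [Ring M'] [Algebra F M']
    (f : M →ₐ[F] M') (x : Fin A → M) :
    Algebra.TensorProduct.map (AlgHom.id F L) f (Z.cmb x) = Z.cmb fun i => f (x i) := by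
  simp [Cyc.cmb]

theorem lf_cmb_single {M : Type u} [Ring M] [Algebra F M] {x : Fin A → M}
    (h : ∀ i, i ≠ 0 → x i = 0) : Z.cmb x = (1 : L) ⊗ₜ x 0 := by
  rw [Cyc.cmb, Finset.sum_eq_single 0]
  · simp
  · intro i _ hi
    rw [h i hi, tmul_zero]
  · simp

theorem lf_one_tmul {M : Type u} [Ring M] [Algebra F M] (Z : Cyc F L A) {x : M}
    (h : (1 : L) ⊗ₜ[F] x = 0) : x = 0 := by
  have h1 : Z.cmb (Pi.single 0 x : Fin A → M) = 0 := by
    rw [lf_cmb_single fun i hi => by simp [hi], Pi.single_eq_same, h]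
  simpa using lf_coord h1 0

/-- elements whose coordinates are homogeneous of degree `d` -/
noncomputable def lfK (Z : Cyc F L A) (O : Type) (F' : Type u) [Field F'] [Algebra F F'] (d : ℕ) :
    AddSubgroup (L ⊗[F] MvPolynomial O F') where
  carrier := {t | ∃ q : Fin A → MvPolynomial O F', (∀ i, (q i).IsHomogeneous d) ∧ t = Z.cmb q}
  add_mem' := by
    rintro _ _ ⟨q, hq, rfl⟩ ⟨q', hq', rfl⟩
    exact ⟨q + q', fun i => (hq i).add (hq' i), by
      simp only [Cyc.cmb, Pi.add_apply, tmul_add, Finset.sum_add_distrib]⟩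
  zero_mem' := ⟨0, fun _ => isHomogeneous_zero _ _ _, by simp [Cyc.cmb]⟩
  neg_mem' := by
    rintro _ ⟨q, hq, rfl⟩
    exact ⟨-q, fun i => (hq i).neg, by
      simp only [Cyc.cmb, Pi.neg_apply, tmul_neg, Finset.sum_neg_distrib]⟩

section K

variable {O : Type} {F' : Type u} [Field F'] [Algebra F F'] {d e : ℕ}

theorem lfK_cmb {q : Fin A → MvPolynomial O F'} (hq : ∀ i, (q i).IsHomogeneous d) :
    Z.cmb q ∈ lfK Z O F' d := ⟨q, hq, rfl⟩

theorem lfK_tmul (x : L) {q : MvPolynomial O F'} (hq : q.IsHomogeneous d) :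
    x ⊗ₜ[F] q ∈ lfK Z O F' d := by
  refine ⟨fun i => Z.bL.repr x i • q,
    fun i => (homogeneousSubmodule O F' d).smul_of_tower_mem _ hq, ?_⟩
  conv_lhs => rw [← Z.bL.sum_repr x, sum_tmul]
  simp only [Cyc.cmb, smul_tmul, Z.bL_eq]

theorem lfK_mul {t t' : L ⊗[F] MvPolynomial O F'} (h : t ∈ lfK Z O F' d) (h' : t' ∈ lfK Z O F' e) :
    t * t' ∈ lfK Z O F' (d + e) := by
  obtain ⟨q, hq, rfl⟩ := h
  obtain ⟨q', hq', rfl⟩ := h'
  simp only [Cyc.cmb, Finset.sum_mul_sum, Algebra.TensorProduct.tmul_mul_tmul]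
  exact sum_mem fun i _ => sum_mem fun j _ => lfK_tmul _ ((hq i).mul (hq' j))

theorem lf_g {g : MvPolynomial (Fin 2) F} (xs : Fin 2 → O)
    (hg : map (algebraMap F L) g = C (algebraMap F L s) * ∏ j, (X 0 - C (Z.pt j) * X 1)) :
    (1 : L) ⊗ₜ[F] rename xs (map (algebraMap F F') g) =
      algebraMap F (L ⊗[F] MvPolynomial O F') s *
        ∏ j, ((1 : L) ⊗ₜ[F] X (xs 0) - Z.pt j ⊗ₜ[F] X (xs 1)) := by
  have h1 : ∀ g : MvPolynomial (Fin 2) F, (1 : L) ⊗ₜ[F] rename xs (map (algebraMap F F') g) =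
      aeval (fun ε => ((1 : L) ⊗ₜ[F] X (xs ε) : L ⊗[F] MvPolynomial O F'))
        (map (algebraMap F L) g) := by
    intro g
    induction g using MvPolynomial.induction_on with
    | C a =>
      rw [map_C, map_C, rename_C, aeval_C, ← IsScalarTower.algebraMap_apply,
        Algebra.TensorProduct.algebraMap_apply']
      rfl
    | add p q hp hq => simp only [map_add, tmul_add, hp, hq]
    | mul_X p i hp =>
      simp only [map_mul, ← hp, map_X, rename_X, aeval_X, Algebra.TensorProduct.tmul_mul_tmul,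
        mul_one]
  rw [h1, hg, map_mul, aeval_C, ← IsScalarTower.algebraMap_apply, map_prod]
  simp

end K

/-- the coefficientwise image as an algebra map -/
noncomputable def lfAm {D : Type u} [Ring D] [Algebra F D] (φ : R →ₐ[F] D) :
    Alg R (Fin 2) →ₐ[F] Alg D (Fin 2) :=
  { amap 2 (φ : R →+* D) with
    commutes' := fun c => (amap_cst (φ : R →+* D) _).trans (congrArg (cst 2) (φ.commutes c)) }

theorem lfAm_lin {D : Type u} [Ring D] [Algebra F D] (φ : R →ₐ[F] D) (c : Fin 2 → R) :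
    lfAm φ (lin c) = lin fun i => φ (c i) := amap_lin (φ : R →+* D) c

theorem lfAm_cst {D : Type u} [Ring D] [Algebra F D] (φ : R →ₐ[F] D) (r : R) :
    lfAm φ (cst 2 r) = cst 2 (φ r) := amap_cst (φ : R →+* D) r

theorem lf_pt {n : ℕ} {t : St.{u} n} {Ω : Type u} [Field Ω] [Algebra t.F Ω] {χ : t.O → Ω}
    (h : t.Pt Ω χ) {d : ℕ} (hd : d ≤ 2) {q : MvPolynomial t.O t.F} (hq : q.IsHomogeneous d)
    (h0 : t.ev q = 0) : aeval χ q = 0 := by
  interval_cases d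
  · rw [totalDegree_eq_zero_iff_eq_C.1 (Nat.le_zero.1 hq.totalDegree_le)] at h0 ⊢
    rw [← algebraMap_eq, AlgHom.commutes, algebraMap_alg, cst_apply,
      AddMonoidAlgebra.single_eq_zero, map_eq_zero] at h0
    rw [h0, map_zero, map_zero]
  · exact h.lin hq h0
  · exact h q hq h0

section core

variable (t : St.{u} 2) [Algebra F t.F] [Algebra F t.D] [IsScalarTower F t.F t.D]

variable (L) in
/-- evaluation after extension of scalars -/
noncomputable def lfEV : L ⊗[F] MvPolynomial t.O t.F →ₐ[F] L ⊗[F] Alg t.D (Fin 2) :=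
  Algebra.TensorProduct.map (AlgHom.id F L) (t.ev.restrictScalars F)

theorem lf_key (Λ : Ld Z E s R) (φ : R →ₐ[F] t.D) (e : (Fin A → Fin A) → Fin A → t.O)
    (he : ∀ w i ε, t.ω (e w i) ε = φ (Λ.ω w i ε)) (b : Fin A → Fin A → t.F)
    (hb : ∀ j i, φ (Λ.b j i) = algebraMap t.F t.D (b j i)) {Q : Type*} [CommRing Q]
    (Ξ : L ⊗[F] MvPolynomial t.O t.F →+* Q)
    (hΞ : ∀ d ≤ 2, ∀ x ∈ lfK Z t.O t.F d, lfEV L t x = 0 → Ξ x = 0) :
    (∀ w, ∃ c, Ξ (Z.cmb fun i => X (e w i)) ^ A =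
      c * ∏ p, Ξ ((1 : L) ⊗ₜ[F] X (t.xs 0) - Z.pt (w p) ⊗ₜ[F] X (t.xs 1))) ∧
    Ξ ((1 : L) ⊗ₜ[F] X (e id 0)) ^ A = Ξ (algebraMap F _ s *
      ∏ j, ((1 : L) ⊗ₜ[F] X (t.xs 0) - Z.pt j ⊗ₜ[F] X (t.xs 1))) := by
  set AM := Algebra.TensorProduct.map (AlgHom.id F L) (lfAm φ) with hAM
  set W : (Fin A → Fin A) → L ⊗[F] MvPolynomial t.O t.F :=
    fun w => Z.cmb fun i => X (e w i) with hW
  set β : Fin A → L ⊗[F] MvPolynomial t.O t.F := fun j => Z.cmb fun i => C (b j i) with hβ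
  set l : Fin A → L ⊗[F] MvPolynomial t.O t.F :=
    fun j => (1 : L) ⊗ₜ[F] X (t.xs 0) - Z.pt j ⊗ₜ[F] X (t.xs 1) with hl
  have hev : ∀ w i, t.ev (X (e w i)) = lfAm φ (lin (Λ.ω w i)) := fun w i => by
    rw [t.ev_X, lfAm_lin]
    exact congrArg lin (funext (he w i))
  have eW : ∀ w, lfEV L t (W w) = AM (Z.cmb fun i => lin (Λ.ω w i)) := fun w => by
    rw [lfEV, hW, hAM, lf_map_cmb, lf_map_cmb]
    exact congrArg Z.cmb (funext (hev w))
  have eβ : ∀ j, lfEV L t (β j) = AM (Z.cmb fun i => cst 2 (Λ.b j i)) := fun j => by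
    rw [lfEV, hβ, hAM, lf_map_cmb, lf_map_cmb]
    refine congrArg Z.cmb (funext fun i => ?_)
    rw [lfAm_cst, hb, ← algebraMap_alg, ← algebraMap_eq]
    exact t.ev.commutes _
  have el : ∀ j, lfEV L t (l j) =
      AM ((1 : L) ⊗ₜ lin ![(1 : R), 0] - Z.pt j ⊗ₜ lin ![(0 : R), 1]) := fun j => by
    have h0 : t.ev (X (t.xs 0)) = lfAm φ (lin ![(1 : R), 0]) := by
      rw [t.ev_X, lfAm_lin, t.ω_xs]
      refine congrArg lin (funext fun i => ?_)
      fin_cases i <;> simp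
    have h1 : t.ev (X (t.xs 1)) = lfAm φ (lin ![(0 : R), 1]) := by
      rw [t.ev_X, lfAm_lin, t.ω_xs]
      refine congrArg lin (funext fun i => ?_)
      fin_cases i <;> simp
    simp only [lfEV, hl, hAM, map_sub, Algebra.TensorProduct.map_tmul, AlgHom.restrictScalars_apply,
      h0, h1]
  have kW : ∀ w, W w ∈ lfK Z t.O t.F 1 := fun w => lfK_cmb fun i => isHomogeneous_X _ _
  have kβ : ∀ j, β j ∈ lfK Z t.O t.F 0 := fun j => lfK_cmb fun i => isHomogeneous_C _ _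
  have kl : ∀ j, l j ∈ lfK Z t.O t.F 1 := fun j =>
    sub_mem (lfK_tmul _ (isHomogeneous_X _ _)) (lfK_tmul _ (isHomogeneous_X _ _))
  have hE : ∀ d ≤ 2, ∀ x ∈ lfK Z t.O t.F d, ∀ y ∈ lfK Z t.O t.F d, lfEV L t x = lfEV L t y →
      Ξ x = Ξ y := fun d hd x hx y hy h => by
    rw [← sub_eq_zero, ← map_sub]
    exact hΞ d hd _ (sub_mem hx hy) (by rw [map_sub, h, sub_self])
  have r1 : ∀ w w' z z', ct w + ct w' = ct z + ct z' →
      Ξ (W w) * Ξ (W w') = Ξ (W z) * Ξ (W z') := fun w w' z z' h => by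
    rw [← map_mul, ← map_mul]
    refine hE 2 le_rfl _ (lfK_mul (kW w) (kW w')) _ (lfK_mul (kW z) (kW z')) ?_
    rw [map_mul, map_mul, eW, eW, eW, eW, ← map_mul, ← map_mul, Λ.ver w w' z z' h]
  have r2 : ∀ j, Ξ (W fun _ => j) = Ξ (β j) * Ξ (l j) := fun j => by
    rw [← map_mul]
    refine hE 1 one_le_two _ (kW _) _ (lfK_mul (kβ j) (kl j)) ?_
    rw [map_mul, eW, eβ, el, ← map_mul, Λ.nrm j]
  have r3 : ∏ j, Ξ (β j) = Ξ (algebraMap F _ s) := by
    rw [← map_prod]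
    refine hE 0 zero_le_two _ ?_ _ ?_ ?_
    · exact Finset.prod_induction _ (· ∈ lfK Z t.O t.F 0) (fun _ _ h h' => lfK_mul h h')
        (lfK_tmul 1 (isHomogeneous_one _ _)) fun j _ => kβ j
    · exact lfK_tmul _ (isHomogeneous_one _ _)
    · rw [AlgHom.commutes, ← AM.commutes, ← Λ.prd, ← List.prod_ofFn, map_list_prod, map_list_prod,
        List.map_ofFn, List.map_ofFn]
      exact congrArg (fun f => (List.ofFn f).prod) (funext eβ)
  have r4 : Ξ ((1 : L) ⊗ₜ[F] X (e id 0)) = Ξ (W id) := by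
    refine hE 1 one_le_two _ (lfK_tmul _ (isHomogeneous_X _ _)) _ (kW _) ?_
    rw [eW, lf_cmb_single fun i hi => by rw [Λ.yid i hi, lin_zero]]
    simp only [lfEV, hAM, Algebra.TensorProduct.map_tmul, AlgHom.restrictScalars_apply, hev]
  have hv := veronese (le_trans (by norm_num) Z.hA) (fun w => Ξ (W w)) r1
  refine ⟨fun w => ⟨∏ p, Ξ (β (w p)), ?_⟩, ?_⟩
  · rw [← Finset.prod_mul_distrib]
    exact (hv w).trans (Finset.prod_congr rfl fun p _ => r2 (w p))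
  · rw [r4, hv id, map_mul, ← r3, map_prod, ← Finset.prod_mul_distrib]
    exact Finset.prod_congr rfl fun p _ => r2 p

theorem lf_exists (Z : Cyc F L A) {Ω : Type u} [Field Ω] [Algebra t.F Ω] {χ : t.O → Ω}
    (hχ : t.Pt Ω χ) :
    ∃ (f : Fin A → AlgebraicClosure Ω) (Ξ : Fin A → (L ⊗[F] MvPolynomial t.O t.F →+*
      AlgebraicClosure Ω)), Function.Injective f ∧
      (∀ h q, Ξ h (Z.cmb q) = ∑ i, f h ^ i.val * algebraMap Ω _ (aeval χ (q i))) ∧
      (∀ h x q, ∃ c, Ξ h (x ⊗ₜ q) = c * algebraMap Ω _ (aeval χ q)) ∧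
      (∀ h q, Ξ h (1 ⊗ₜ q) = algebraMap Ω _ (aeval χ q)) ∧
      ∀ h, ∀ d ≤ 2, ∀ x ∈ lfK Z t.O t.F d, lfEV L t x = 0 → Ξ h x = 0 := by
  let : Algebra F Ω := ((algebraMap t.F Ω).comp (algebraMap F t.F)).toAlgebra
  have : IsScalarTower F t.F Ω := IsScalarTower.of_algebraMap_eq fun _ => rfl
  have : Module.Finite F L := Module.Finite.of_basis Z.bL
  let ι : L →ₐ[F] AlgebraicClosure Ω := IsAlgClosed.lift
  let ψ : MvPolynomial t.O t.F →ₐ[F] AlgebraicClosure Ω :=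
    (IsScalarTower.toAlgHom F Ω (AlgebraicClosure Ω)).comp ((aeval χ).restrictScalars F)
  let Ξ : Fin A → (L ⊗[F] MvPolynomial t.O t.F →ₐ[F] AlgebraicClosure Ω) := fun h =>
    Algebra.TensorProduct.productMap (ι.comp (sg Z.σ h : L →ₐ[F] L)) ψ
  have hΞ : ∀ h q, Ξ h (Z.cmb q) =
      ∑ i, ι (sg Z.σ h Z.a) ^ i.val * algebraMap Ω _ (aeval χ (q i)) := fun h q => by
    simp [Ξ, ψ, Cyc.cmb]
  refine ⟨fun h => ι (sg Z.σ h Z.a), fun h => Ξ h, fun h h' hh => ?_, hΞ,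
    fun h x q => ⟨ι (sg Z.σ h x), by simp [Ξ, ψ]⟩, fun h q => by simp [Ξ, ψ], ?_⟩
  · exact Z.a_inj ((ι : L →+* AlgebraicClosure Ω).injective hh)
  · rintro h d hd _ ⟨q, hq, rfl⟩ h0
    rw [lfEV, lf_map_cmb] at h0
    refine (hΞ h q).trans (Finset.sum_eq_zero fun i _ => ?_)
    rw [lf_pt hχ hd (hq i) (lf_coord h0 i), map_zero, mul_zero]

theorem lf_main (Λ : Ld Z E s R) (φ : R →ₐ[F] t.D) (e : (Fin A → Fin A) → Fin A → t.O)
    (he : ∀ w i ε, t.ω (e w i) ε = φ (Λ.ω w i ε)) (b : Fin A → Fin A → t.F)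
    (hb : ∀ j i, φ (Λ.b j i) = algebraMap t.F t.D (b j i))
    (hs : ∀ p, (∃ ε, p = t.xs ε) ∨ ∃ w i, p = e w i) {g : MvPolynomial (Fin 2) F}
    (hg : map (algebraMap F L) g = C (algebraMap F L s) * ∏ j, (X 0 - C (Z.pt j) * X 1)) :
    t.Zero ∧ t.Good (X (e id 0) ^ A - rename t.xs (map (algebraMap F t.F) g)) := by
  have hP : ∀ {Q : Type u} [CommRing Q] (Ξ : L ⊗[F] MvPolynomial t.O t.F →+* Q),
      (∀ d ≤ 2, ∀ x ∈ lfK Z t.O t.F d, lfEV L t x = 0 → Ξ x = 0) →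
      Ξ (1 ⊗ₜ (X (e id 0) ^ A - rename t.xs (map (algebraMap F t.F) g))) = 0 := by
    intro Q _ Ξ hΞ
    rw [tmul_sub, map_sub, lf_g t.xs hg, ← (lf_key t Λ φ e he b hb Ξ hΞ).2, ← map_pow,
      Algebra.TensorProduct.tmul_pow, one_pow, sub_self]
  refine ⟨fun Ω _ _ χ hχ h0 p => ?_, ?_, fun Ω _ _ χ hχ => ?_⟩
  · rcases hs p with ⟨ε, rfl⟩ | ⟨w, i, rfl⟩
    · exact h0 ε
    obtain ⟨f, Ξ, hf, h1, h2, -, h4⟩ := lf_exists t Z hχ
    have := Matrix.eq_zero_of_forall_index_sum_pow_mul_eq_zero hf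
      (v := fun i => algebraMap Ω _ (χ (e w i))) fun h => by
        obtain ⟨c, hc⟩ := (lf_key t Λ φ e he b hb (Ξ h) (h4 h)).1 w
        rw [Finset.prod_eq_zero (Finset.mem_univ 0), mul_zero, h1] at hc
        · simpa using pow_eq_zero_iff (NeZero.ne A) |>.1 hc
        · obtain ⟨c0, hc0⟩ := h2 h 1 (X (t.xs 0))
          obtain ⟨c1, hc1⟩ := h2 h (Z.pt (w 0)) (X (t.xs 1))
          rw [map_sub, hc0, hc1]
          simp [h0]
    simpa using congrFun this i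
  · let I : Ideal (L ⊗[F] MvPolynomial t.O t.F) := RingHom.ker (lfEV (F := F) L t)
    have := hP (Q := (L ⊗[F] MvPolynomial t.O t.F) ⧸ I) (Ideal.Quotient.mk I)
      fun d _ x _ h => Ideal.Quotient.eq_zero_iff_mem.2 (RingHom.mem_ker.2 h)
    rw [Ideal.Quotient.eq_zero_iff_mem, RingHom.mem_ker, lfEV,
      Algebra.TensorProduct.map_tmul] at this
    exact lf_one_tmul Z this
  · obtain ⟨f, Ξ, -, -, -, h3, h4⟩ := lf_exists t Z hχ
    have := hP (Ξ 0) (h4 0)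
    rwa [h3, map_eq_zero] at this

end core

theorem linkFin (Λ : Ld Z E s R) (hR : DomFin R) (g : MvPolynomial (Fin 2) F)
    (hg : map (algebraMap F L) g = C (algebraMap F L s) * ∏ j, (X 0 - C (Z.pt j) * X 1)) :
    ∃ (t : St.{u} 2) (φF : F →+* t.F) (φ : E →+* t.D) (y : MvPolynomial t.O t.F),
      (∀ c, φ (algebraMap F E c) = algebraMap t.F t.D (φF c)) ∧
      (∀ e p i, Commute (φ e) (t.ω p i)) ∧ t.Zero ∧ y.IsHomogeneous 1 ∧
      t.Good (y ^ A - rename t.xs (map φF g)) := by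
  obtain ⟨F', D, _, _, _, _, φF, φ, -, hφ, hz⟩ := exists_loc (F := F) hR
  choose b hb using fun j i => hz (Λ.b j i) (Λ.b_cent j i)
  let ω : Fin 2 ⊕ (Fin A → Fin A) × Fin A → Fin 2 → D :=
    Sum.elim (fun ε => Pi.single ε 1) fun p ε => φ (Λ.ω p.1 p.2 ε)
  have h1 : ∀ (ε i : Fin 2) (x : D), Commute ((Pi.single ε 1 : Fin 2 → D) i) x := fun ε i x => by
    rw [Pi.single_apply]
    split_ifs
    exacts [Commute.one_left x, Commute.zero_left x]
  obtain ⟨ev, hev⟩ := exists_aeval (K := F') (fun p => lin (ω p)) fun p q => by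
    rcases p with ε | p
    · exact commute_lin fun i j => h1 ε i _
    rcases q with ε | q
    · exact commute_lin fun i j => (h1 ε j _).symm
    have := (Λ.ω_comm p.1 p.2 q.1 q.2).map (amap 2 φ)
    rwa [amap_lin, amap_lin] at this
  let t : St.{u} 2 :=
    { F := F', D := D, O := Fin 2 ⊕ (Fin A → Fin A) × Fin A, ω := ω, ev := ev, ev_X := hev,
      xs := Sum.inl, ω_xs := fun _ => rfl }
  let : Algebra F t.F := φF.toAlgebra
  let : Algebra F t.D := Algebra.compHom D φF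
  have : IsScalarTower F t.F t.D := IsScalarTower.of_algebraMap_eq fun _ => rfl
  obtain ⟨h2, h3⟩ := lf_main t Λ { φ with commutes' := hφ } (fun w i => Sum.inr (w, i))
    (fun _ _ _ => rfl) b hb (by
      rintro (ε | p)
      exacts [Or.inl ⟨ε, rfl⟩, Or.inr ⟨p.1, p.2, rfl⟩]) hg
  refine ⟨t, φF, φ.comp (Λ.jE : E →+* R), X (Sum.inr (id, 0)), fun c => ?_, ?_, h2,
    isHomogeneous_X _ _, h3⟩
  · exact (congrArg φ (Λ.jE.commutes c)).trans (hφ c)
  · rintro x (ε | p) i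
    · exact (h1 ε i _).symm
    · exact ((Λ.ω_E p.1 p.2 i x).map φ).symm

end Vale.Agent.P200.H
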