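import Vale.Agent.P200.G.StB
import Vale.Agent.P200.H.PDefs
import Vale.Agent.P200.H.Vdm

/-! Descent of the matrix data. -/

open Finset TensorProduct

namespace Vale.Agent.P200.H

open Vale.Agent.P200.G Vale.Agent.P200.Eq

universe u

variable {A : ℕ} [NeZero A] {F L : Type u} [Field F] [Field L] [Algebra F L] {Z : Cyc F L A}
  {E : Type u} [DivisionRing E] [Algebra F E] {s : F} {R : Type u} [Ring R] [Algebra F R]

namespace Th

section idem

variable (Z)

/-- the dual basis -/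
noncomputable def bd : Fin A → L := Classical.choose Z.exists_bd

theorem bd_tr (i j : Fin A) :
    ∑ h : Fin A, sg Z.σ h (bd Z i * Z.a ^ j.val) = if i = j then 1 else 0 :=
  (Classical.choose_spec Z.exists_bd).1 i j

theorem bd_or (h h' : Fin A) :
    ∑ i : Fin A, sg Z.σ h (Z.a ^ i.val) * sg Z.σ h' (bd Z i) = if h = h' then 1 else 0 :=
  (Classical.choose_spec Z.exists_bd).2 h h'

/-- the twisted multiplication maps -/
noncomputable def ps (h : Fin A) : L ⊗[F] L →ₐ[F] L :=
  Algebra.TensorProduct.lift (sg Z.σ h : L →ₐ[F] L) (AlgHom.id F L) fun _ _ => Commute.all _ _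

theorem ps_tmul (h : Fin A) (x y : L) : ps Z h (x ⊗ₜ y) = sg Z.σ h x * y := rfl

theorem exists_cmb (t : L ⊗[F] L) : ∃ y : Fin A → L, t = Z.cmb y := by
  induction t using TensorProduct.induction_on with
  | zero => exact ⟨0, by simp [Cyc.cmb]⟩
  | add x y hx hy =>
    obtain ⟨x, rfl⟩ := hx
    obtain ⟨y, rfl⟩ := hy
    exact ⟨x + y, by simp only [Cyc.cmb, Pi.add_apply, tmul_add, Finset.sum_add_distrib]⟩
  | tmul x y =>
    refine ⟨fun i => Z.bL.repr x i • y, ?_⟩
    conv_lhs => rw [← Z.bL.sum_repr x]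
    simp only [Cyc.cmb, sum_tmul, Z.bL_eq, smul_tmul]

theorem ps_ext {t t' : L ⊗[F] L} (h : ∀ g, ps Z g t = ps Z g t') : t = t' := by
  rw [← sub_eq_zero]
  obtain ⟨y, hy⟩ := exists_cmb Z (t - t')
  have h1 : ∀ g, ∑ i : Fin A, sg Z.σ g (Z.a ^ i.val) * y i = 0 := fun g => by
    have h2 := sub_eq_zero.2 (h g)
    rw [← map_sub, hy, Cyc.cmb, map_sum] at h2
    exact h2
  have h3 : ∀ j, y j = 0 := fun j => by
    have h4 : ∑ g : Fin A, sg Z.σ g (bd Z j) * ∑ i : Fin A, sg Z.σ g (Z.a ^ i.val) * y i = 0 := by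
      simp only [h1, mul_zero, Finset.sum_const_zero]
    simp only [Finset.mul_sum, ← mul_assoc, ← map_mul] at h4
    rw [Finset.sum_comm] at h4
    simp only [← Finset.sum_mul, bd_tr, ite_mul, one_mul, zero_mul, Finset.sum_ite_eq,
      Finset.mem_univ, if_true] at h4
    exact h4
  rw [hy, Cyc.cmb]
  simp only [h3, tmul_zero, Finset.sum_const_zero]

/-- the idempotents of `L ⊗ L` -/
noncomputable def e0 (c : Fin A) : L ⊗[F] L := ∑ i, (Z.a ^ i.val) ⊗ₜ sg Z.σ (-c) (bd Z i)

theorem ps_e0 (h c : Fin A) : ps Z h (e0 Z c) = if h = -c then 1 else 0 := by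
  rw [e0, map_sum, ← bd_or Z]
  rfl

theorem e0_mul (c c' : Fin A) : e0 Z c * e0 Z c' = if c' = c then e0 Z c else 0 := by
  refine ps_ext Z fun h => ?_
  rw [map_mul, apply_ite (ps Z h), map_zero, ps_e0, ps_e0]
  by_cases h1 : c' = c
  · subst h1
    rw [if_pos rfl]
    split_ifs <;> simp
  · rw [if_neg h1]
    by_cases h2 : h = -c
    · rw [if_neg (fun h3 : h = -c' => h1 (neg_injective (h3.symm.trans h2))), mul_zero]
    · rw [if_neg h2, zero_mul]

theorem sum_e0 : ∑ c, e0 Z c = 1 := by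
  refine ps_ext Z fun h => ?_
  rw [map_sum, map_one, Finset.sum_eq_single (-h)]
  · rw [ps_e0, if_pos (neg_neg h).symm]
  · intro c _ hc
    rw [ps_e0, if_neg fun h1 => hc (by rw [h1, neg_neg])]
  · simp

theorem e0_left (c : Fin A) (y : L) :
    e0 Z c * (y ⊗ₜ 1) = e0 Z c * (1 ⊗ₜ sg Z.σ (-c) y) := by
  refine ps_ext Z fun h => ?_
  rw [map_mul, map_mul, ps_e0, ps_tmul, ps_tmul]
  split_ifs with h1
  · rw [h1, map_one, mul_one, one_mul, one_mul]
  · rw [zero_mul, zero_mul]

theorem e0_eq (c : Fin A) : e0 Z c = ∑ i, sg Z.σ c (Z.a ^ i.val) ⊗ₜ bd Z i := by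
  refine ps_ext Z fun h => ?_
  have h1 := bd_or Z (h + c) 0
  simp only [Z.sg_zero, Z.sg_add, add_eq_zero_iff_eq_neg] at h1
  rw [ps_e0, map_sum, ← h1]
  rfl

theorem sg_neg_add (h c : Fin A) (y : L) :
    sg Z.σ h (sg Z.σ (-(c + h)) y) = sg Z.σ (-c) y := by
  rw [← Z.sg_add]
  congr 2
  abel

variable {S : Type u} [Ring S] [Algebra F S] (j : L →ₐ[F] S)

/-- the idempotents -/
noncomputable def ee (c : Fin A) : L ⊗[F] S :=
  Algebra.TensorProduct.map (AlgHom.id F L) j (e0 Z c)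

theorem ee_eq (c : Fin A) :
    ee Z j c = ∑ i, (Z.a ^ i.val) ⊗ₜ j (sg Z.σ (-c) (bd Z i)) := by
  rw [ee, e0, map_sum]
  rfl

theorem ee_mul_ee (c c' : Fin A) : ee Z j c * ee Z j c' = if c' = c then ee Z j c else 0 := by
  rw [ee, ee, ← map_mul, e0_mul]
  split_ifs
  · rfl
  · rw [map_zero]

theorem sum_ee : ∑ c, ee Z j c = 1 := by
  simp only [ee]
  rw [← map_sum, sum_e0, map_one]

theorem ee_mul_left (c : Fin A) (y : L) :
    ee Z j c * (y ⊗ₜ 1) = ee Z j c * (1 ⊗ₜ j (sg Z.σ (-c) y)) := by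
  have h := congrArg (Algebra.TensorProduct.map (AlgHom.id F L) j) (e0_left Z c y)
  rw [map_mul, map_mul, Algebra.TensorProduct.map_tmul, Algebra.TensorProduct.map_tmul,
    map_one j] at h
  exact h

theorem tmul_mul_ee {x : S} {h : Fin A} (hx : ∀ y, x * j y = j (sg Z.σ h y) * x) (c : Fin A) :
    ((1 : L) ⊗ₜ x) * ee Z j (c + h) = ee Z j c * (1 ⊗ₜ x) := by
  rw [ee_eq, ee_eq, Finset.mul_sum, Finset.sum_mul]
  refine Finset.sum_congr rfl fun i _ => ?_
  rw [Algebra.TensorProduct.tmul_mul_tmul, Algebra.TensorProduct.tmul_mul_tmul,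
    one_mul, mul_one, hx, sg_neg_add]

/-- the descent map on matrices -/
noncomputable def th (M : Matrix (Fin A) (Fin A) S) : L ⊗[F] S :=
  ∑ c, ∑ c', ee Z j c * (1 ⊗ₜ M c c')

theorem th_mul (M N : Matrix (Fin A) (Fin A) S)
    (hM : ∀ c c' y, M c c' * j y = j (sg Z.σ (c' - c) y) * M c c') :
    th Z j M * th Z j N = th Z j (M * N) := by
  have h1 : ∀ c c' d, ee Z j c * (1 ⊗ₜ M c c') * ee Z j d =
      if d = c' then ee Z j c * (1 ⊗ₜ M c c') else 0 := fun c c' d => by
    have h2 := tmul_mul_ee Z j (hM c c') (d - (c' - c))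
    rw [sub_add_cancel] at h2
    rw [mul_assoc, h2, ← mul_assoc, ee_mul_ee]
    by_cases h : d = c'
    · rw [if_pos h, if_pos (by rw [h, sub_sub_cancel])]
    · rw [if_neg h, if_neg, zero_mul]
      intro h3
      refine h ?_
      rw [← sub_add_cancel d (c' - c), h3, add_sub_cancel]
  have h4 : ∀ c, ∑ c', ee Z j c * (1 ⊗ₜ (M * N) c c') =
      ∑ c', ∑ d', ee Z j c * (1 ⊗ₜ M c c') * ((1 : L) ⊗ₜ[F] N c' d') := fun c => by
    rw [Finset.sum_comm]
    refine Finset.sum_congr rfl fun d' _ => ?_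
    rw [Matrix.mul_apply, tmul_sum, Finset.mul_sum]
    refine Finset.sum_congr rfl fun c' _ => ?_
    rw [mul_assoc, Algebra.TensorProduct.tmul_mul_tmul, mul_one]
  rw [th, th, th, Finset.sum_mul]
  refine Finset.sum_congr rfl fun c _ => ?_
  rw [h4, Finset.sum_mul]
  refine Finset.sum_congr rfl fun c' _ => ?_
  rw [Finset.mul_sum, Finset.sum_eq_single c']
  · rw [Finset.mul_sum]
    refine Finset.sum_congr rfl fun d' _ => ?_
    rw [← mul_assoc, h1, if_pos rfl]
  · intro d _ hd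
    rw [Finset.mul_sum]
    refine Finset.sum_eq_zero fun d' _ => ?_
    rw [← mul_assoc, h1, if_neg hd, zero_mul]
  · simp

theorem th_diag (d : Fin A → S) :
    th Z j (Matrix.diagonal d) = ∑ c, ee Z j c * (1 ⊗ₜ d c) := by
  refine Finset.sum_congr rfl fun c _ => ?_
  rw [Finset.sum_eq_single c]
  · rw [Matrix.diagonal_apply_eq]
  · intro c' _ h
    rw [Matrix.diagonal_apply_ne _ h.symm, tmul_zero, mul_zero]
  · simp

theorem th_eq_cmb (M : Matrix (Fin A) (Fin A) S) :
    th Z j M = Z.cmb fun i => ∑ c, ∑ c', j (sg Z.σ (-c) (bd Z i)) * M c c' := by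
  simp only [th, Cyc.cmb, ee_eq, Finset.sum_mul, tmul_sum,
    Algebra.TensorProduct.tmul_mul_tmul, mul_one]
  symm
  rw [Finset.sum_comm]
  exact Finset.sum_congr rfl fun c _ => Finset.sum_comm

theorem th_prod (l : List (Fin A → S)) (hl : ∀ d ∈ l, ∀ c y, Commute (d c) (j y)) :
    (l.map fun d => th Z j (Matrix.diagonal d)).prod =
      th Z j (Matrix.diagonal fun c => (l.map fun d => d c).prod) := by
  induction l with
  | nil =>
    rw [th_diag]
    simp only [List.map_nil, List.prod_nil, ← Algebra.TensorProduct.one_def, mul_one, sum_ee]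
  | cons d l ih =>
    rw [List.map_cons, List.prod_cons, ih fun d' hd' => hl d' (List.mem_cons_of_mem _ hd'),
      th_mul, Matrix.diagonal_mul_diagonal]
    · simp only [List.map_cons, List.prod_cons]
    · intro c c' y
      by_cases h : c = c'
      · subst h
        rw [Matrix.diagonal_apply_eq, sub_self, Z.sg_zero]
        exact hl d List.mem_cons_self c y
      · rw [Matrix.diagonal_apply_ne _ h, zero_mul, mul_zero]

end idem

section main

variable (M : Md Z E s R)

/-- the scalars of the extension as constants -/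
noncomputable def jj : L →ₐ[F] Alg R (Fin 2) := AddMonoidAlgebra.singleZeroAlgHom.comp M.jL

theorem jj_apply (y : L) : jj M y = cst 2 (M.jL y) := rfl

/-- the descended coefficients, for an arbitrary element of the extension -/
noncomputable def og (n : Fin A → ℤ) (y : L) (ε : Fin 2) : R :=
  ∑ c, ∑ c', M.jL (sg Z.σ (-c) y) * M.m n ε c c'

/-- the descended coefficients -/
noncomputable def om (n : Fin A → ℤ) (i : Fin A) : Fin 2 → R := og M n (bd Z i)

/-- the descended constants -/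
noncomputable def bb (k i : Fin A) : R := ∑ c, M.jL (sg Z.σ (-c) (bd Z i)) * M.β k c

theorem lin_og (n : Fin A → ℤ) (y : L) :
    lin (og M n y) = ∑ c, ∑ c', jj M (sg Z.σ (-c) y) * mlin (M.m n) c c' := by
  have h : og M n y = ∑ c, ∑ c', fun ε => M.jL (sg Z.σ (-c) y) * M.m n ε c c' := by
    funext ε
    simp only [og, Finset.sum_apply]
  rw [h]
  simp only [lin_sum, jj_apply, mlin, Matrix.of_apply, cst_mul_lin]

/-- the linear map given by `og` -/
noncomputable def ogL (n : Fin A → ℤ) : L →ₗ[F] Alg R (Fin 2) where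
  toFun y := lin (og M n y)
  map_add' y y' := by simp only [lin_og, map_add, add_mul, Finset.sum_add_distrib]
  map_smul' a y := by
    simp only [lin_og, map_smul, smul_mul_assoc, Finset.smul_sum, RingHom.id_apply]

theorem cmb_om (n : Fin A → ℤ) :
    (Z.cmb fun i => lin (om M n i)) = th Z (jj M) (mlin (M.m n)) := by
  rw [th_eq_cmb]
  congr 1
  funext i
  exact lin_og M n _

theorem cmb_bb (k : Fin A) :
    (Z.cmb fun i => cst 2 (bb M k i)) =
      th Z (jj M) (Matrix.diagonal fun c => cst 2 (M.β k c)) := by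
  rw [th_eq_cmb]
  congr 1
  funext i
  rw [bb, map_sum]
  refine Finset.sum_congr rfl fun c _ => ?_
  rw [Finset.sum_eq_single c]
  · rw [Matrix.diagonal_apply_eq, map_mul, jj_apply]
  · intro c' _ h
    rw [Matrix.diagonal_apply_ne _ h.symm, mul_zero]
  · simp

theorem mlin_deg (n : Fin A → ℤ) (c c' : Fin A) (y : L) :
    mlin (M.m n) c c' * jj M y = jj M (sg Z.σ (c' - c) y) * mlin (M.m n) c c' := by
  simp only [jj_apply, mlin, Matrix.of_apply, cst_mul_lin, lin_mul_cst, M.m_deg]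

theorem om_ver {n n' z z' : Fin A → ℤ} (hn : G.Pos n) (hn' : G.Pos n') (hz : G.Pos z)
    (hz' : G.Pos z') (h : n + n' = z + z') :
    (Z.cmb fun i => lin (om M n i)) * (Z.cmb fun i => lin (om M n' i)) =
      (Z.cmb fun i => lin (om M z i)) * (Z.cmb fun i => lin (om M z' i)) := by
  simp only [cmb_om]
  rw [th_mul _ _ _ _ (mlin_deg M n), th_mul _ _ _ _ (mlin_deg M z),
    M.m_mul n n' z z' hn hn' hz hz' h]

theorem og_sh {n : Fin A → ℤ} (hn : G.Pos n) (y : L) : og M (sh n) (Z.σ y) = og M n y := by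
  funext ε
  rw [og, og, ← Equiv.sum_comp (Equiv.addRight 1)]
  refine Finset.sum_congr rfl fun c _ => ?_
  rw [← Equiv.sum_comp (Equiv.addRight 1)]
  refine Finset.sum_congr rfl fun c' _ => ?_
  simp only [Equiv.coe_addRight]
  rw [M.m_sh n hn, ← Z.sg_one, ← Z.sg_add]
  congr 4
  abel

theorem pos_iter {n : Fin A → ℤ} (hn : G.Pos n) (k : ℕ) : G.Pos (sh^[k] n) := by
  induction k with
  | zero => exact hn
  | succ k ih => rw [Function.iterate_succ_apply']; exact ih.sh

theorem og_iter {n : Fin A → ℤ} (hn : G.Pos n) (k : ℕ) (y : L) :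
    og M (sh^[k] n) ((Z.σ ^ k) y) = og M n y := by
  induction k with
  | zero => simp
  | succ k ih =>
    rw [Function.iterate_succ_apply', pow_succ', AlgEquiv.mul_apply, og_sh M (pos_iter hn k), ih]

theorem cmb_iter {n : Fin A → ℤ} (hn : G.Pos n) (h : Fin A) :
    (Z.cmb fun i => lin (om M (sh^[h.val] n) i)) =
      ∑ i, sg Z.σ h (Z.a ^ i.val) ⊗ₜ[F] lin (om M n i) := by
  have h1 := congrArg (TensorProduct.map LinearMap.id (ogL M n)) (e0_eq Z h)
  rw [e0, map_sum, map_sum] at h1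
  refine Eq.trans (Finset.sum_congr rfl fun i _ => ?_) h1
  have h2 := og_iter M hn h.val (sg Z.σ (-h) (bd Z i))
  have h3 : (Z.σ ^ h.val) (sg Z.σ (-h) (bd Z i)) = bd Z i := by
    have h4 := Z.sg_add h (-h) (bd Z i)
    rw [add_neg_cancel, Z.sg_zero] at h4
    exact h4.symm
  rw [h3] at h2
  exact congrArg (fun t => (Z.a ^ i.val) ⊗ₜ[F] lin t) h2

theorem one_tmul_om {n : Fin A → ℤ} (hn : G.Pos n) (i : Fin A) :
    (1 : L) ⊗ₜ[F] lin (om M n i) =
      ∑ h : Fin A, (sg Z.σ h (bd Z i) ⊗ₜ[F] (1 : Alg R (Fin 2))) *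
        Z.cmb fun i => lin (om M (sh^[h.val] n) i) := by
  simp only [cmb_iter M hn, Finset.mul_sum, Algebra.TensorProduct.tmul_mul_tmul, one_mul,
    ← map_mul]
  rw [Finset.sum_comm]
  simp only [← sum_tmul, bd_tr]
  rw [Finset.sum_eq_single i]
  · rw [if_pos rfl]
  · intro i' _ h
    rw [if_neg h.symm, zero_tmul]
  · simp

omit [NeZero A] in
theorem tmul_one_comm {S : Type u} [Ring S] [Algebra F S] (y : L) (t : L ⊗[F] S) :
    Commute (y ⊗ₜ[F] (1 : S)) t := by
  induction t using TensorProduct.induction_on with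
  | zero => exact Commute.zero_right _
  | add x y hx hy => exact hx.add_right hy
  | tmul x z =>
    rw [Commute, SemiconjBy, Algebra.TensorProduct.tmul_mul_tmul,
      Algebra.TensorProduct.tmul_mul_tmul, one_mul, mul_one, mul_comm]

theorem om_comm {n n' : Fin A → ℤ} (hn : G.Pos n) (hn' : G.Pos n') (i i' : Fin A) :
    Commute (lin (om M n i)) (lin (om M n' i')) := by
  have h2 : Commute ((1 : L) ⊗ₜ[F] lin (om M n i)) ((1 : L) ⊗ₜ[F] lin (om M n' i')) := by
    rw [one_tmul_om M hn, one_tmul_om M hn']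
    refine Commute.sum_left _ _ _ fun h _ => Commute.sum_right _ _ _ fun h' _ => ?_
    refine (tmul_one_comm _ _).mul_left ((tmul_one_comm _ _).symm.mul_right ?_)
    exact om_ver M (pos_iter hn _) (pos_iter hn' _) (pos_iter hn' _) (pos_iter hn _)
      (add_comm _ _)
  have h3 := h2.eq
  simp only [Algebra.TensorProduct.tmul_mul_tmul, one_mul] at h3
  exact Algebra.TensorProduct.includeRight_injective (A := L) (algebraMap F L).injective h3

theorem om_zero {i : Fin A} (hi : i ≠ 0) : om M (nw id) i = 0 := by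
  have h := one_tmul_om M (pos_nw (id : Fin A → Fin A)) i
  have h0 : sh (nw (id : Fin A → Fin A)) = nw id := by
    rw [nw_id]
    rfl
  have h1 := bd_tr Z i 0
  rw [if_neg hi, Fin.val_zero, pow_zero, mul_one] at h1
  simp only [Function.iterate_fixed h0] at h
  rw [← Finset.sum_mul, ← sum_tmul, h1, zero_tmul, zero_mul,
    ← tmul_zero (R := F) (Alg R (Fin 2)) (1 : L)] at h
  have h2 : lin (om M (nw id) i) = 0 :=
    Algebra.TensorProduct.includeRight_injective (A := L) (algebraMap F L).injective h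
  exact lin_injective (h2.trans lin_zero.symm)

theorem om_E (n : Fin A → ℤ) (i : Fin A) (ε : Fin 2) (e : E) : Commute (om M n i ε) (M.jE e) := by
  rw [om, og]
  exact Commute.sum_left _ _ _ fun c _ =>
    Commute.sum_left _ _ _ fun c' _ => (M.jLE _ e).mul_left (M.m_E _ ε c c' e)

theorem bb_cent (k i : Fin A) (x : R) : Commute (bb M k i) x := by
  obtain ⟨xs, rfl, hx⟩ := M.β_cent x
  refine Commute.sum_right _ _ _ fun h _ => ?_
  rw [Commute, SemiconjBy, bb, Finset.sum_mul, Finset.mul_sum]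
  symm
  rw [← Equiv.sum_comp (Equiv.addRight h)]
  refine Finset.sum_congr rfl fun c _ => ?_
  rw [Equiv.coe_addRight, ← mul_assoc, (hx h).1, sg_neg_add, mul_assoc, mul_assoc, (hx h).2]

theorem om_nrm (k : Fin A) :
    (Z.cmb fun i => lin (om M (nw fun _ => k) i)) = (Z.cmb fun i => cst 2 (bb M k i)) *
      ((1 : L) ⊗ₜ lin ![(1 : R), 0] - Z.pt k ⊗ₜ lin ![(0 : R), 1]) := by
  have h : mlin (M.m (nw fun _ => k)) =
      Matrix.diagonal fun c => lin ![M.β k c, -(M.β k c * M.jL (Z.pt (k - c)))] := by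
    ext1 c c'
    rw [mlin, Matrix.of_apply]
    by_cases h : c = c'
    · subst h
      rw [Matrix.diagonal_apply_eq]
      congr 1
      funext ε
      fin_cases ε
      · simp [M.m_c0]
      · simp [M.m_c1]
    · rw [Matrix.diagonal_apply_ne _ h, ← lin_zero]
      congr 1
      funext ε
      fin_cases ε
      · simp [M.m_c0, h]
      · simp [M.m_c1, h]
  rw [cmb_om, cmb_bb, h, th_diag, th_diag, Finset.sum_mul]
  refine Finset.sum_congr rfl fun c _ => ?_
  have h2 : (1 ⊗ₜ cst 2 (M.β k c) : L ⊗[F] Alg R (Fin 2)) * (Z.pt k ⊗ₜ lin ![(0 : R), 1]) =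
      (Z.pt k ⊗ₜ 1) * (1 ⊗ₜ (cst 2 (M.β k c) * lin ![(0 : R), 1])) := by
    simp only [Algebra.TensorProduct.tmul_mul_tmul, mul_one, one_mul]
  rw [mul_assoc, mul_sub, mul_sub, h2, ← mul_assoc _ (Z.pt k ⊗ₜ 1), ee_mul_left, mul_assoc,
    ← mul_sub, Algebra.TensorProduct.tmul_mul_tmul, Algebra.TensorProduct.tmul_mul_tmul, mul_one,
    ← tmul_sub, jj_apply, Z.sg_pt, cst_mul_lin, cst_mul_lin, cst_mul_lin]
  congr 2
  rw [eq_sub_iff_add_eq, ← lin_add]
  congr 1
  funext ε
  fin_cases ε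
  · simp
  · simp [sub_eq_add_neg, (M.β_L k c _).eq]

theorem bb_prd : (List.ofFn fun k => Z.cmb fun i => cst 2 (bb M k i)).prod =
    algebraMap F (L ⊗[F] Alg R (Fin 2)) s := by
  have h := th_prod Z (jj M) (List.ofFn fun k c => cst 2 (M.β k c)) fun d hd c y => by
    obtain ⟨k, rfl⟩ := List.mem_ofFn.1 hd
    exact (M.β_L k c y).map (cst 2)
  have h2 : ∀ c, ((List.ofFn fun k c => cst 2 (M.β k c)).map fun d => d c).prod =
      algebraMap F (Alg R (Fin 2)) s := fun c => by
    rw [algebraMap_alg, ← M.β_prod c, map_list_prod, List.map_ofFn, List.map_ofFn]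
    rfl
  simp only [h2] at h
  rw [List.map_ofFn] at h
  simp only [cmb_bb]
  refine Eq.trans h ?_
  rw [th_diag, ← Finset.sum_mul, sum_ee, one_mul, Algebra.algebraMap_eq_smul_one,
    Algebra.algebraMap_eq_smul_one, tmul_smul, Algebra.TensorProduct.one_def]

end main

end Th

theorem exists_ld (M : Md Z E s R) : Nonempty (Ld Z E s R) :=
  ⟨{ jE := M.jE
     ω := fun w => Th.om M (nw w)
     b := Th.bb M
     ω_E := fun w i ε e => Th.om_E M (nw w) i ε e
     ω_comm := fun w i w' i' => Th.om_comm M (pos_nw w) (pos_nw w') i i'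
     b_cent := Th.bb_cent M
     ver := fun w w' z z' h =>
       Th.om_ver M (pos_nw w) (pos_nw w') (pos_nw z) (pos_nw z') (nw_add h)
     nrm := Th.om_nrm M
     prd := Th.bb_prd M
     yid := fun _ hi => Th.om_zero M hi }⟩

end Vale.Agent.P200.H
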