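import Vale.Agent.P200.H.Defs
import Vale.Agent.P200.H.PDefs
import Vale.Agent.P200.H.Vdm
import Vale.Agent.P200.G.MkL

/-! The cyclic field generated by the element of a block. -/

open MvPolynomial TensorProduct

namespace Vale.Agent.P200.H

open Vale.Agent.P200.G Vale.Agent.P200.Eq

universe u

theorem hmkl_conj {F L D : Type u} [Field F] [Field L] [Algebra F L] [FiniteDimensional F L]
    [DivisionRing D] [Algebra F D] (jL : L →ₐ[F] D) {γ v : D}
    (hL : ∀ x, (∃ y, jL y = x) ↔ x ∈ Algebra.adjoin F {γ}) (hv : v ≠ 0)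
    (h : v⁻¹ * γ * v ∈ Algebra.adjoin F {γ}) :
    ∃ σ : L ≃ₐ[F] L, ∀ x, v * jL (σ x) = jL x * v := by
  have key : ∀ x ∈ Algebra.adjoin F {γ}, v⁻¹ * x * v ∈ Algebra.adjoin F {γ} := by
    intro x hx
    induction hx using Algebra.adjoin_induction with
    | mem x hx =>
      rw [Set.mem_singleton_iff.1 hx]
      exact h
    | algebraMap r =>
      rw [mul_assoc, Algebra.commutes, ← mul_assoc, inv_mul_cancel₀ hv, one_mul]
      exact Subalgebra.algebraMap_mem _ r
    | add x y _ _ hx hy =>
      rw [mul_add, add_mul]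
      exact add_mem hx hy
    | mul x y _ _ hx hy =>
      have : v⁻¹ * (x * y) * v = (v⁻¹ * x * v) * (v⁻¹ * y * v) := by
        simp only [mul_assoc, mul_inv_cancel_left₀ hv]
      rw [this]
      exact mul_mem hx hy
  have hex : ∀ x : L, ∃ y, jL y = v⁻¹ * jL x * v := fun x =>
    (hL _).2 (key _ ((hL _).1 ⟨x, rfl⟩))
  choose s hs using hex
  have hj : Function.Injective jL := jL.toRingHom.injective
  let σ0 : L →ₐ[F] L :=
    { toFun := s
      map_one' := hj (by rw [hs, map_one, mul_one, inv_mul_cancel₀ hv])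
      map_mul' := fun x y => hj (by
        rw [map_mul, hs, hs, hs, map_mul]
        simp only [mul_assoc, mul_inv_cancel_left₀ hv])
      map_zero' := hj (by rw [hs, map_zero, mul_zero, zero_mul])
      map_add' := fun x y => hj (by rw [map_add, hs, hs, hs, map_add, mul_add, add_mul])
      commutes' := fun r => hj (by
        rw [hs, AlgHom.commutes, mul_assoc, Algebra.commutes, ← mul_assoc, inv_mul_cancel₀ hv,
          one_mul]) }
  refine ⟨AlgEquiv.ofBijective σ0 σ0.bijective, fun x => ?_⟩
  show v * jL (s x) = _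
  rw [hs, mul_assoc, mul_inv_cancel_left₀ hv]

theorem hmkl_span {F L : Type u} [Field F] [Field L] [Algebra F L] {A : ℕ} [NeZero A]
    {g : MvPolynomial (Fin 2) F} {s : F} (hs : s ≠ 0) {pt : Fin A → L}
    (hg : map (algebraMap F L) g = C (algebraMap F L s) * ∏ j, (X 0 - C (pt j) * X 1))
    (q : Polynomial F) :
    Polynomial.aeval (pt 0) q ∈ Submodule.span F (Set.range fun i : Fin A => pt 0 ^ i.val) := by
  let p : Polynomial F := aeval ![Polynomial.X, 1] g
  have h1 : (Polynomial.mapRingHom (algebraMap F L)).comp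
      (aeval ![Polynomial.X, (1 : Polynomial F)] : MvPolynomial (Fin 2) F →ₐ[F] _).toRingHom =
      (aeval ![Polynomial.X, (1 : Polynomial L)] :
        MvPolynomial (Fin 2) L →ₐ[L] _).toRingHom.comp (map (algebraMap F L)) := by
    refine MvPolynomial.ringHom_ext (fun r => by simp) fun i => ?_
    fin_cases i <;> simp
  have h2 : p.map (algebraMap F L) =
      Polynomial.C (algebraMap F L s) * ∏ j, (Polynomial.X - Polynomial.C (pt j)) := by
    have h3 := RingHom.congr_fun h1 g
    simp only [RingHom.comp_apply, hg, Polynomial.coe_mapRingHom, AlgHom.toRingHom_eq_coe,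
      RingHom.coe_coe, map_mul, map_prod, map_sub, aeval_C, aeval_X, Matrix.cons_val_zero,
      Matrix.cons_val_one, mul_one, Polynomial.algebraMap_eq] at h3
    exact h3
  have hs' : algebraMap F L s ≠ 0 := (map_ne_zero _).2 hs
  have h3 : p.natDegree = A := by
    rw [← Polynomial.natDegree_map (algebraMap F L), h2, Polynomial.natDegree_C_mul hs',
      Polynomial.natDegree_finsetProd_X_sub_C_eq_card, Finset.card_univ, Fintype.card_fin]
  have h4 : Polynomial.aeval (pt 0) p = 0 := by
    rw [Polynomial.aeval_def, ← Polynomial.eval_map, h2, Polynomial.eval_mul,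
      Polynomial.eval_prod, Finset.prod_eq_zero (Finset.mem_univ (0 : Fin A)) (by simp), mul_zero]
  have h5 : (q % p).natDegree < A := by
    rw [← h3]
    exact Polynomial.natDegree_mod_lt _ (by rw [h3]; exact NeZero.ne A)
  have h6 : Polynomial.aeval (pt 0) q = Polynomial.aeval (pt 0) (q % p) := by
    conv_lhs => rw [← EuclideanDomain.div_add_mod q p]
    rw [map_add, map_mul, h4, zero_mul, zero_add]
  rw [h6, Polynomial.aeval_eq_sum_range' h5]
  exact Submodule.sum_mem _ fun i hi => Submodule.smul_mem _ _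
    (Submodule.subset_span ⟨⟨i, Finset.mem_range.1 hi⟩, rfl⟩)

theorem mkL {F E D : Type u} [Field F] [Infinite F] [DivisionRing E] [Algebra F E]
    [DivisionRing D] [Algebra F D] [FiniteDimensional F D] (ι : E →ₐ[F] D) {A A' M : ℕ} [NeZero A]
    (hA : 3 ≤ A) {ζ : F} (B : Blk F D ζ A A' M) (r : Fin M)
    (ha : ∀ e, Commute (B.a r) (ι e)) (hv : ∀ e, Commute (B.v r) (ι e)) :
    ∃ (L : Type u) (_ : Field L) (_ : Algebra F L) (Z : Cyc F L A) (I : Inp Z E D),
      map (algebraMap F L) (B.g r) =
        C (algebraMap F L I.s) * ∏ j, (X 0 - C (Z.pt j) * X 1) := by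
  obtain ⟨L, fL, aL, fd, jL, hL⟩ := mkl_field (F := F) (B.a r)
  obtain ⟨σ, hσ⟩ := hmkl_conj jL hL (B.v0 r) (B.va r)
  have hj : Function.Injective jL := jL.toRingHom.injective
  obtain ⟨a, haL⟩ := (hL _).2 (Algebra.self_mem_adjoin_singleton F (B.a r))
  obtain ⟨s, hs⟩ := B.vA r
  have hs0 : s ≠ 0 := by
    rintro rfl
    exact pow_ne_zero A (B.v0 r) (by rw [hs, map_zero])
  have hσA : σ ^ A = 1 := AlgEquiv.ext fun x => hj (mul_left_cancel₀ (pow_ne_zero A (B.v0 r)) (by
    rw [mkl_pow hσ, hs, Algebra.commutes, AlgEquiv.one_apply]))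
  have hlt : ∀ j k : ℕ, j < k → k < A → (σ ^ j) a ≠ (σ ^ k) a := by
    intro j k hjk hk he
    obtain ⟨d, rfl⟩ := Nat.exists_eq_add_of_lt hjk
    rw [add_assoc, pow_add, AlgEquiv.mul_apply] at he
    have h2 := (σ ^ j).injective he
    have h3 := mkl_pow hσ (d + 1) a
    rw [← h2, haL] at h3
    exact B.av r (d + 1) (by omega) (by omega) h3.symm
  have hinj : Function.Injective fun j : Fin A => sg σ j a := by
    intro j k hjk
    rcases lt_trichotomy j k with h | h | h
    · exact absurd hjk (hlt _ _ h k.2)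
    · exact h
    · exact absurd hjk.symm (hlt _ _ h j.2)
  have hg : map (algebraMap F L) (B.g r) =
      C (algebraMap F L s) * ∏ j : Fin A, (X 0 - C (sg σ j a) * X 1) := by
    have hP : (∏ j : Fin A, (X 0 - C (sg σ j a) * X 1) : MvPolynomial (Fin 2) L) =
        ∏ j ∈ Finset.range A, (X 0 - C ((σ ^ (j + 1)) a) * X 1) := by
      have h1 : (∏ j : Fin A, (X 0 - C (sg σ j a) * X 1) : MvPolynomial (Fin 2) L) =
          ∏ j ∈ Finset.range A, (X 0 - C ((σ ^ j) a) * X 1) :=
        Fin.prod_univ_eq_prod_range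
          (fun j => (X 0 - C ((σ ^ j) a) * X 1 : MvPolynomial (Fin 2) L)) A
      obtain ⟨A₁, hA₁⟩ : ∃ A₁, A = A₁ + 1 := ⟨A - 1, by omega⟩
      have h2 : (σ ^ (A₁ + 1)) a = (σ ^ 0) a := by rw [← hA₁, hσA, pow_zero]
      rw [h1, hA₁, Finset.prod_range_succ', Finset.prod_range_succ, h2]
    apply amap_injective (n := 2) (φ := jL.toRingHom) hj
    have h1 := mkl_prod hσ a A
    rw [haL, B.hg, hs] at h1
    have h2 : amap 2 jL.toRingHom (C (algebraMap F L s) : MvPolynomial (Fin 2) L) =
        cst 2 (algebraMap F D s) := by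
      rw [← jL.commutes s]
      exact amap_cst jL.toRingHom _
    rw [hP, map_mul, h2, ← h1]
    refine AddMonoidAlgebra.ext (Finsupp.ext fun m => ?_)
    rw [coeff_amap]
    have h3 : (inc F D (Fin 2) (B.g r)).coeff m = algebraMap F D (coeff m (B.g r)) := by
      simp only [inc, AddMonoidAlgebra.coeff_mapRingHom]; rfl
    rw [h3, ← jL.commutes, ← coeff_map]
    rfl
  have h0 : sg σ (0 : Fin A) a = a := by
    rw [sg, Fin.val_zero, pow_zero, AlgEquiv.one_apply]
  have hli : LinearIndependent F fun i : Fin A => a ^ i.val := by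
    rw [Fintype.linearIndependent_iff]
    intro g hg i
    refine (algebraMap F L).injective ?_
    rw [map_zero]
    refine vdm_right (Fintype.card_fin A) _ hinj (fun _ _ => Commute.all _ _)
      (fun i => algebraMap F L (g i)) (fun k => ?_) i
    have h1 := congrArg (sg σ k) hg
    simpa only [map_sum, map_smul, map_pow, map_zero, Algebra.smul_def, map_mul,
      AlgEquiv.commutes] using h1
  have hsp : ⊤ ≤ Submodule.span F (Set.range fun i : Fin A => a ^ i.val) := by
    intro x _
    have h1 := (hL _).1 ⟨x, rfl⟩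
    rw [Algebra.adjoin_singleton_eq_range_aeval] at h1
    obtain ⟨q, hq⟩ := h1
    have h2 : x = Polynomial.aeval a q := hj (by
      rw [← Polynomial.aeval_algHom_apply, haL]
      exact hq.symm)
    have h3 := hmkl_span hs0 hg q
    rw [h0] at h3
    rwa [h2]
  let Z : Cyc F L A :=
    { hA := hA
      inf := Infinite.of_injective _ (algebraMap F L).injective
      σ := σ
      σ_pow_A := hσA
      a := a
      a_inj := hinj
      bL := Module.Basis.mk hli hsp
      bL_eq := fun i => Module.Basis.mk_apply hli hsp i }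
  have hcomm : ∀ x e, Commute (jL x) (ι e) := fun x e =>
    (Algebra.commute_of_mem_adjoin_singleton_of_commute ((hL _).1 ⟨x, rfl⟩) (ha e).symm).symm
  have hμc : ∀ x f, Commute (jL x) (Algebra.TensorProduct.lift jL ι hcomm f) := by
    intro y f
    induction f using TensorProduct.induction_on with
    | zero => simp
    | add x y hx hy => rw [map_add]; exact hx.add_right hy
    | tmul x e =>
      rw [Algebra.TensorProduct.lift_tmul]
      exact Commute.mul_right ((Commute.all _ _).map jL) (hcomm y e)
  have hμ : ∀ f, Algebra.TensorProduct.lift jL ι hcomm f = 0 → f = 0 := by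
    intro f hf
    obtain ⟨g, rfl⟩ := TensorProduct.eq_repr_basis_left Z.bL f
    rw [Finsupp.sum_fintype _ _ (fun i => by simp)] at hf ⊢
    simp only [map_sum, Algebra.TensorProduct.lift_tmul, Z.bL_eq] at hf
    have h2 := vdm_left (Fintype.card_fin A) (fun k => jL (sg σ k a)) (hj.comp hinj)
      (fun _ _ => (Commute.all _ _).map jL) (fun i => ι (g i)) fun k => by
        refine mul_left_cancel₀ (pow_ne_zero k.val (B.v0 r)) ?_
        have h3 := congrArg (· * B.v r ^ k.val) hf
        simp only [Finset.sum_mul, zero_mul] at h3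
        rw [mul_zero, Finset.mul_sum, ← h3]
        refine Finset.sum_congr rfl fun i _ => ?_
        rw [← map_pow, ← map_pow, ← mul_assoc, sg, mkl_pow hσ, mul_assoc, mul_assoc,
          ((hv _).pow_left _).eq]
    refine Finset.sum_eq_zero fun i _ => ?_
    have h4 : g i = 0 := ι.toRingHom.injective (by rw [map_zero]; exact h2 i)
    rw [h4, TensorProduct.tmul_zero]
  have hinj' : Function.Injective fun m : Fin A => (σ ^ m.val).symm a := by
    intro m k hmk
    have h1 : (σ ^ m.val) ((σ ^ k.val).symm a) = a := by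
      rw [← show (σ ^ m.val).symm a = (σ ^ k.val).symm a from hmk, AlgEquiv.apply_symm_apply]
    apply hinj
    show (σ ^ m.val) a = (σ ^ k.val) a
    conv_rhs => rw [← h1, ← AlgEquiv.mul_apply, pow_mul_comm, AlgEquiv.mul_apply,
      AlgEquiv.apply_symm_apply]
  let I : Inp Z E D :=
    { s := s
      s0 := hs0
      ι := ι
      jL := jL
      comm := hcomm
      v := B.v r
      v_ι := hv
      vA := hs
      vσ := hσ
      ind := fun f hf m => by
        have h2 := vdm_tr (Fintype.card_fin A) (fun m => jL ((σ ^ m.val).symm a)) (hj.comp hinj')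
          (fun _ _ => (Commute.all _ _).map jL)
          (fun m => Algebra.TensorProduct.lift jL ι hcomm (f m) * B.v r ^ m.val) (fun i => by
            have h3 := congrArg (· * jL (a ^ i.val)) hf
            simp only [Finset.sum_mul, zero_mul] at h3
            rw [← h3]
            refine Finset.sum_congr rfl fun k _ => ?_
            have h4 := mkl_pow hσ k.val ((σ ^ k.val).symm (a ^ i.val))
            rw [AlgEquiv.apply_symm_apply] at h4
            rw [mul_assoc, h4, ← map_pow, ← map_pow, ← mul_assoc, ← mul_assoc, (hμc _ _).eq]) m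
        exact hμ _ ((mul_eq_zero.1 h2).resolve_right (pow_ne_zero _ (B.v0 r))) }
  exact ⟨L, fL, aL, Z, I, hg⟩

end Vale.Agent.P200.H
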