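import Vale.Agent.P200.H.Raw2
import Vale.Agent.P200.H.PDefs
import Vale.Agent.P200.H.Grd
import Vale.Agent.P200.G.Loc1

/-! The local data at the cyclic point. -/

open Finset Polynomial Matrix

namespace Vale.Agent.P200.H

open Vale.Agent.P200.G Vale.Agent.P200.Eq

universe u

variable {A : ℕ} [NeZero A] {F L : Type u} [Field F] [Field L] [Algebra F L] {Z : Cyc F L A}

private theorem pl_wt_pos (v : Vr A) : 0 < wtV v := by
  unfold wtV
  split_ifs with h
  · exact Nat.pos_of_ne_zero (NeZero.ne A)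
  · have : v.1.2.1 < v.1.2.2 := lt_of_le_of_ne v.2.2 h
    exact Nat.sub_pos_of_lt this

private theorem pl_weight {V : Type} {wt : V → ℕ} (hwt : ∀ v, 0 < wt v) {μ : V →₀ ℕ}
    (h : Finsupp.weight wt μ = 0) : μ = 0 := by
  rw [Finsupp.weight_apply, Finsupp.sum, Finset.sum_eq_zero_iff] at h
  ext v
  by_contra hv
  have := h v (Finsupp.mem_support_iff.2 hv)
  rw [smul_eq_mul, Nat.mul_eq_zero] at this
  exact this.elim hv (hwt v).ne'

private theorem pl_s (R : Raw Z) (v : Vr A) :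
    R.s (Xg L v) = Xg L ⟨(v.1.1 + 1, v.1.2), v.2⟩ := by
  have h1 := R.s_Φ v.1.1 v.1.2.1 (v.1.1 + v.1.2.2)
  have h2 := Phig_apply (L := L) (⟨(v.1.1 + 1, v.1.2), v.2⟩ : Vr A)
  rw [Phig_apply, add_right_comm, map_add] at h1
  rw [h2] at h1
  refine add_left_cancel (Eq.trans ?_ h1)
  congr 1
  split_ifs <;> simp

section tay

variable (T : Tay L (Kh A L) (Vr A))
  (hp : ∀ p : MvPolynomial (Vr A) L, algebraMap _ (Kh A L) p ∈ T.O ∧
    ∀ μ, T.ty (algebraMap _ (Kh A L) p) μ = p.coeff μ)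

private noncomputable def pl_eps : T.O →+* L where
  toFun f := T.ty f 0
  map_one' := T.ty_one
  map_mul' f g := T.ty_mul_zero _ f.2 _ g.2
  map_zero' := by simp
  map_add' f g := by simp

include hp

omit [NeZero A] in
private theorem pl_XFil (hw : T.wt = wtV) (v : Vr A) : Xg L v ∈ T.Fil (wtV v) := by
  classical
  refine (T.mem_Fil _ _).2 ⟨(hp _).1, fun μ hμ => ?_⟩
  rw [Xg, (hp _).2, MvPolynomial.coeff_X, if_neg]
  rintro rfl
  rw [Finsupp.weight_single, hw, one_smul] at hμ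
  exact lt_irrefl _ hμ

private theorem pl_rho (hi : ∀ f ∈ T.O, T.ty f 0 ≠ 0 → f⁻¹ ∈ T.O) (R : Raw Z) (j i c : Fin A) :
    R.ρ 1 (Phig A L j i c) ∈ T.O ∧
      T.ty (R.ρ 1 (Phig A L j i c)) 0 = if c = j + i then 1 else 0 := by
  have ha : ∀ x : L, pl_eps T (algebraMap L T.O x) = x := fun x => by
    change T.ty (algebraMap L (Kh A L) x) 0 = x
    rw [Algebra.algebraMap_eq_smul_one, map_smul, Pi.smul_apply, T.ty_one, smul_eq_mul, mul_one]
  obtain ⟨B, Φ', h1, h2, h3⟩ := rel_one_local (A := A) (T.O.val : T.O →+* Kh A L) (pl_eps T)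
    (fun x hx => by
      have h0 : (x : Kh A L) ≠ 0 := fun h => hx (by
        change T.ty (x : Kh A L) 0 = 0
        rw [h, map_zero, Pi.zero_apply])
      exact IsUnit.of_mul_eq_one ⟨_, hi _ x.2 hx⟩ (Subtype.ext (mul_inv_cancel₀ h0)))
    (fun j => algebraMap L T.O (Z.pt j)) (by simpa only [ha] using Z.pt_inj)
    (fun j => Matrix.of fun i c => ⟨Phig A L j i c, (hp _).1⟩)
    (fun j c => Subtype.ext (by
      rw [Matrix.of_apply, apply_ite Subtype.val]
      exact ((nf_Phig (L := L)) j).1 c))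
    (by
      funext j
      ext i c
      change T.ty (algebraMap _ (Kh A L) (Phip A L j i c)) 0 = if c = j + i then 1 else 0
      rw [(hp _).2, Phip, Matrix.of_apply, MvPolynomial.coeff_add]
      split_ifs <;> simp)
  have hd : ∑ j, (1 : Fin A → ℕ) j = A * 1 := by simp
  have h4 := (Rel.unique Z.ph_inj (R.rel 1 1 hd) h3 (nf_Phig.det_ne)
    (nf_Phig.map (R.ρ fun j => ((1 : Fin A → ℕ) j : ℤ) : Kh A L →+* Kh A L)) h2 hd).2
  have h5 : R.ρ 1 (Phig A L j i c) = (Φ' j i c : Kh A L) :=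
    congrFun (congrFun (congrFun h4 j) i) c
  rw [h5]
  exact ⟨(Φ' j i c).2, congrFun (congrFun (congrFun h1 j) i) c⟩

end tay

private theorem pl_cong {j i c : Fin A} {w : ℕ}
    (h : w + (j + (i + 1)).val ≡ (j + c + (0 + 1)).val [MOD A]) : w + i.val ≡ c.val [MOD A] := by
  have h1 : ∀ a b : Fin A, (a + b).val ≡ a.val + b.val [MOD A] := fun a b => by
    rw [Fin.val_add]
    exact Nat.mod_modEq _ _
  have h2 : (j + (i + 1)).val ≡ i.val + (j + 1).val [MOD A] := by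
    rw [add_left_comm]
    exact h1 _ _
  have h3 : (j + c + (0 + 1)).val ≡ c.val + (j + 1).val [MOD A] := by
    rw [zero_add, add_comm j c, add_assoc]
    exact h1 _ _
  have h4 := ((h2.add_left w).symm.trans h).trans h3
  rw [← add_assoc] at h4
  exact Nat.ModEq.add_right_cancel' _ h4

theorem Raw.exists_local (R : Raw Z) :
    ∃ T : Tay L (Kh A L) (Vr A),
      (∀ m, ∀ f ∈ T.Fil m, R.ρ 1 f ∈ T.Fil m) ∧ (∀ f ∈ T.O, T.ty (R.ρ 1 f) 0 = T.ty f 0) ∧
      (∀ m, ∀ f ∈ T.Fil m, R.s f ∈ T.Fil m) ∧ (∀ f ∈ T.O, T.ty (R.s f) 0 = Z.σ (T.ty f 0)) ∧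
      (∀ x y, ∀ f ∈ Wt L x y, ∃ z ∈ Wt L (ixo A) (ixo A), z ∈ T.O ∧ z ≠ 0 ∧ z * f ∈ T.O) ∧
      ∀ x y, ∀ f ∈ Wt L x y, f ∈ T.O → ∀ μ, T.ty f μ ≠ 0 →
        Finsupp.weight T.wt μ + (x.1 + x.2).val ≡ (y.1 + y.2).val [MOD A] := by
  obtain ⟨T, hw, hp, hi, hψ, hθ⟩ := exists_tay' L (Vr A) wtV pl_wt_pos
  have := Z.inf
  have hρ := hψ (RingHom.id L) (R.ρ 1 : Kh A L →+* Kh A L) (fun x => (R.ρ 1).commutes x) fun v => by
    obtain ⟨h1, h2⟩ := pl_rho T hp hi R v.1.1 v.1.2.1 (v.1.1 + v.1.2.2)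
    have hW := fun μ => wt_ord T hθ (μ := μ)
      (R.Wt_ρ (e := 1) (by simp) (Phig_mem_Wt v.1.1 v.1.2.1 (v.1.1 + v.1.2.2))) h1
    simp only [ixs, Pi.one_apply, one_smul] at hW
    rw [Phig_apply, map_add] at h1 h2 hW
    have h3 : R.ρ 1 (if v.1.2.1 = v.1.2.2 then 1 else 0) ∈ T.O := by
      split_ifs
      · rw [map_one]; exact one_mem _
      · rw [map_zero]; exact zero_mem _
    have h4 : R.ρ 1 (Xg L v) ∈ T.O := by simpa using sub_mem h1 h3
    have h5 : T.ty (R.ρ 1 (Xg L v)) 0 = 0 := by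
      rw [map_add, Pi.add_apply] at h2
      by_cases hv : v.1.2.1 = v.1.2.2
      · rw [if_pos hv, if_pos (by rw [hv]), map_one, T.ty_one] at h2
        simpa using h2
      · rw [if_neg hv, if_neg (fun h => hv (add_left_cancel h).symm), map_zero, map_zero] at h2
        simpa using h2
    refine (T.mem_Fil _ _).2 ⟨h4, fun μ hμ => ?_⟩
    by_contra hne
    have h0 : μ ≠ 0 := fun h => hne (by rw [h]; exact h5)
    have h8 : Finsupp.weight wtV μ ≠ 0 := fun h => h0 (pl_weight pl_wt_pos h)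
    have h6 : T.ty (R.ρ 1 (if v.1.2.1 = v.1.2.2 then 1 else 0)) μ = 0 := by
      split_ifs
      · have := (hp 1).2 μ
        rw [map_one] at this ⊢
        classical
        rw [this, MvPolynomial.coeff_one, if_neg h0.symm]
      · rw [map_zero, map_zero, Pi.zero_apply]
    have h7 := pl_cong (hW μ (by rw [map_add, Pi.add_apply, h6, zero_add]; exact hne))
    rw [hw] at hμ
    unfold wtV at hμ
    split_ifs at hμ with hv
    · rw [hv] at h7
      have h9 : Finsupp.weight wtV μ ≡ 0 [MOD A] :=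
        Nat.ModEq.add_right_cancel' _ (by rwa [zero_add])
      exact h8 (Nat.eq_zero_of_dvd_of_lt (Nat.modEq_zero_iff_dvd.1 h9) hμ)
    · have h9 := v.1.2.2.2
      have hμ' : Finsupp.weight wtV μ < v.1.2.2.val - v.1.2.1.val := hμ
      have := Nat.ModEq.eq_of_lt_of_lt h7 (by omega) h9
      omega
  have hs := hψ (Z.σ : L →+* L) (R.s : Kh A L →+* Kh A L) R.s_L fun v => by
    change R.s (Xg L v) ∈ _
    rw [pl_s]
    exact pl_XFil T hp hw ⟨(v.1.1 + 1, v.1.2), v.2⟩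
  refine ⟨T, hρ.1, hρ.2, hs.1, hs.2, fun x y f hf => wt_den T Z.hA hp hi hf,
    fun x y f hf hO μ h => ?_⟩
  rw [hw]
  exact wt_ord T hθ hf hO h

end Vale.Agent.P200.H
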