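import Vale.Agent.P200.H.Defs
import Vale.Agent.P200.G.PlGen

/-! Pencils in general position, in any characteristic. -/

open MvPolynomial Finset Matrix

namespace Vale.Agent.P200.H

open Vale.Agent.P200.G Vale.Agent.P200.Eq

universe u

/-- the linear form with given coefficients -/
noncomputable def plgL {Ω : Type u} [Field Ω] {N : ℕ} (p : Fin N → Ω) :
    MvPolynomial (Fin N) Ω := ∑ x, C (p x) * X x

theorem plg_res {Ω : Type u} [Field Ω] {N : ℕ} (R : (Fin N →₀ ℕ) → Ω)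
    (P : Fin 2 → Fin N → Ω) (β : Fin 2 →₀ ℕ) :
    res R P β = fn R (plgL (P 0) ^ β 0 * plgL (P 1) ^ β 1) := by
  rw [res, pen, Fin.prod_univ_two, plgL, plgL]

theorem plg_evL {Ω : Type u} [Field Ω] {N : ℕ} (η p : Fin N → Ω) :
    eval η (plgL p) = ∑ i, p i * η i := by
  simp [plgL]

theorem plg_rel {Ω : Type u} [Field Ω] {N b : ℕ} {R : (Fin N →₀ ℕ) → Ω}
    (h : ∀ P, Rk1 (res R P) b) (x y : Fin N → Ω) {k m : ℕ} (hk : k ≤ b) (hm : m ≤ b) :
    fn R (plgL x ^ (b + 1 - k) * plgL y ^ k) * fn R (plgL x ^ (b + 1 - (m + 1)) * plgL y ^ (m + 1)) =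
      fn R (plgL x ^ (b + 1 - (k + 1)) * plgL y ^ (k + 1)) *
        fn R (plgL x ^ (b + 1 - m) * plgL y ^ m) := by
  have h3 := h ![x, y] 0 1 (Finsupp.single 0 (b - k) + Finsupp.single 1 k)
    (Finsupp.single 0 (b - m) + Finsupp.single 1 m)
    (by rw [map_add, Finsupp.degree_single, Finsupp.degree_single]; omega)
    (by rw [map_add, Finsupp.degree_single, Finsupp.degree_single]; omega)
  simp only [plg_res, Finsupp.add_apply, Finsupp.single_eq_same, Matrix.cons_val_zero,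
    Matrix.cons_val_one, Finsupp.single_eq_of_ne (show (0 : Fin 2) ≠ 1 by decide),
    Finsupp.single_eq_of_ne (show (1 : Fin 2) ≠ 0 by decide), add_zero, zero_add] at h3
  rw [show b + 1 - k = b - k + 1 by omega, show b + 1 - m = b - m + 1 by omega,
    show b + 1 - (k + 1) = b - k by omega, show b + 1 - (m + 1) = b - m by omega]
  exact h3

theorem plg_zero {Ω : Type u} [Field Ω] {N b : ℕ} {R : (Fin N →₀ ℕ) → Ω}
    (h : ∀ P, Rk1 (res R P) b) {x : Fin N → Ω} (hx : fn R (plgL x ^ (b + 1)) = 0)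
    (y : Fin N → Ω) (k : ℕ) (hk : k ≤ b) : fn R (plgL x ^ (b + 1 - k) * plgL y ^ k) = 0 := by
  induction k with
  | zero => rw [Nat.sub_zero, pow_zero, mul_one, hx]
  | succ k ih =>
    have h1 := plg_rel h x y (k := k) (m := k + 1) (by omega) hk
    rw [ih (by omega), zero_mul] at h1
    exact mul_self_eq_zero.1 h1.symm

theorem plg_ne {Ω : Type u} [Field Ω] {N b : ℕ} {R : (Fin N →₀ ℕ) → Ω}
    (h : ∀ P, Rk1 (res R P) b) {x : Fin N → Ω} (hx : fn R (plgL x ^ (b + 1)) ≠ 0) :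
    ∃ η : Fin N → Ω, ∑ i, x i * η i = 1 ∧ ∀ y, ∀ k ≤ b + 1,
      fn R (plgL x ^ (b + 1 - k) * plgL y ^ k) =
        fn R (plgL x ^ (b + 1)) * (∑ i, y i * η i) ^ k := by
  obtain ⟨ρ, hρ⟩ : ∃ ρ, ρ = fn R (plgL x ^ (b + 1)) := ⟨_, rfl⟩
  rw [← hρ] at hx ⊢
  obtain ⟨η, hη⟩ : ∃ η : Fin N → Ω, ∀ i, η i = fn R (plgL x ^ b * X i) / ρ := ⟨_, fun _ => rfl⟩
  have h1 : ∀ y, fn R (plgL x ^ b * plgL y) = ρ * ∑ i, y i * η i := by
    intro y
    rw [plgL, plgL, mul_sum, map_sum, mul_sum]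
    refine sum_congr rfl fun i _ => ?_
    rw [mul_left_comm, ← smul_eq_C_mul, map_smul, smul_eq_mul, hη, plgL]
    field_simp
  refine ⟨η, ?_, fun y k hk => ?_⟩
  · have h2 := h1 x
    rw [← pow_succ, ← hρ] at h2
    exact (mul_right_inj' hx).1 (h2.symm.trans (mul_one ρ).symm)
  · induction k with
    | zero => rw [Nat.sub_zero, pow_zero, pow_zero, mul_one, mul_one, hρ]
    | succ k ih =>
      have h3 := plg_rel h x y (k := k) (m := 0) (by omega) (Nat.zero_le b)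
      rw [ih (by omega), Nat.sub_zero, pow_zero, mul_one, ← hρ, zero_add, pow_one,
        Nat.add_sub_cancel, h1] at h3
      refine mul_right_cancel₀ hx (h3.symm.trans ?_)
      ring

theorem rk1_of_pencils' {Ω : Type u} [Field Ω] {N a : ℕ} (ha : 1 ≤ a) (R : (Fin N →₀ ℕ) → Ω)
    (h : ∀ P, Rk1 (res R P) (a - 1)) :
    ∃ (η : Fin N → Ω) (ρ : Ω), ∀ (P : Fin 2 → Fin N → Ω) (β : Fin 2 →₀ ℕ), β.degree = a →
      res R P β = ρ * eval η (pen P β) := by
  obtain ⟨b, rfl⟩ : ∃ b, a = b + 1 := ⟨a - 1, by omega⟩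
  rw [Nat.add_sub_cancel] at h
  suffices H : ∃ (η : Fin N → Ω) (ρ : Ω), ∀ (x y : Fin N → Ω), ∀ k ≤ b + 1,
      fn R (plgL x ^ (b + 1 - k) * plgL y ^ k) =
        ρ * ((∑ i, x i * η i) ^ (b + 1 - k) * (∑ i, y i * η i) ^ k) by
    obtain ⟨η, ρ, H⟩ := H
    refine ⟨η, ρ, fun P β hβ => ?_⟩
    rw [Finsupp.degree_eq_sum, Fin.sum_univ_two] at hβ
    have h1 := H (P 0) (P 1) (β 1) (by omega)
    rw [show b + 1 - β 1 = β 0 by omega] at h1
    rw [plg_res, h1, pen, Fin.prod_univ_two, map_mul, map_pow, map_pow, ← plg_evL, ← plg_evL]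
    rfl
  by_cases h0 : ∀ p, fn R (plgL p ^ (b + 1)) = 0
  · refine ⟨0, 0, fun x y k hk => ?_⟩
    rw [zero_mul]
    rcases hk.eq_or_lt with rfl | hk
    · rw [Nat.sub_self, pow_zero, one_mul, h0]
    · exact plg_zero h (h0 x) y k (by omega)
  obtain ⟨x₀, hx₀⟩ := not_forall.1 h0
  obtain ⟨η, -, hη⟩ := plg_ne h hx₀
  obtain ⟨ρ, hρ⟩ : ∃ ρ, ρ = fn R (plgL x₀ ^ (b + 1)) := ⟨_, rfl⟩
  rw [← hρ] at hx₀ hη
  have h1 : ∀ y, fn R (plgL y ^ (b + 1)) = ρ * (∑ i, y i * η i) ^ (b + 1) := fun y => by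
    have h2 := hη y (b + 1) le_rfl
    rwa [Nat.sub_self, pow_zero, one_mul] at h2
  have h2 : ∀ y, fn R (plgL y ^ (b + 1)) = 0 → ∑ i, y i * η i = 0 := fun y hy => by
    rw [h1] at hy
    exact pow_eq_zero_iff (Nat.succ_ne_zero b) |>.1 ((mul_eq_zero.1 hy).resolve_left hx₀)
  refine ⟨η, ρ, fun x y k hk => ?_⟩
  by_cases hx : fn R (plgL x ^ (b + 1)) = 0
  · rcases hk.eq_or_lt with rfl | hk
    · rw [Nat.sub_self, pow_zero, pow_zero, one_mul, one_mul, h1]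
    · rw [plg_zero h hx y k (by omega), h2 x hx, zero_pow (by omega), zero_mul, mul_zero]
  · obtain ⟨θ, hθ1, hθ⟩ := plg_ne h hx
    have h3 : ∀ (ξ : Fin N → Ω) (c : Ω), ∑ i, (y i - c * x i) * ξ i =
        ∑ i, y i * ξ i - c * ∑ i, x i * ξ i := fun ξ c => by
      rw [mul_sum, ← sum_sub_distrib]
      exact sum_congr rfl fun i _ => by ring
    have h4 := hθ (fun i => y i - (∑ i, y i * θ i) * x i) (b + 1) le_rfl
    rw [Nat.sub_self, pow_zero, one_mul, h3, hθ1, mul_one, sub_self, zero_pow (Nat.succ_ne_zero b),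
      mul_zero] at h4
    have h5 := h2 _ h4
    rw [h3, sub_eq_zero] at h5
    obtain ⟨j, hj⟩ : ∃ j, b + 1 = j + k := ⟨b + 1 - k, by omega⟩
    rw [hθ y k hk, h1, h5, hj, Nat.add_sub_cancel]
    ring

theorem gp_pencils' (K : Type u) [Field K] [Infinite K] (N : ℕ) {a : ℕ} (ha : 1 ≤ a) :
    ∃ b : ℕ, ∀ M : ℕ, ∃ P : Fin M → Fin 2 → Fin N → K, ∀ (Ω : Type u) [Field Ω] [Algebra K Ω]
      (R : (Fin N →₀ ℕ) → Ω),
      ((∃ P', ¬ Rk1 (res R P') (a - 1)) →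
        Few b fun s => Rk1 (res R fun ε x => algebraMap K Ω (P s ε x)) (a - 1)) ∧
      ((∃ (P' : Fin 2 → Fin N → Ω) (β : Fin 2 →₀ ℕ), β.degree = a ∧ res R P' β ≠ 0) →
        Few b fun s => ∀ β : Fin 2 →₀ ℕ, β.degree = a →
          res R (fun ε x => algebraMap K Ω (P s ε x)) β = 0) := by
  obtain ⟨b, hb⟩ := gp_points K (Fin 2 × Fin N) (2 * a)
  refine ⟨b, fun M => ?_⟩
  obtain ⟨p, hp⟩ := hb M
  refine ⟨fun s ε x => p s (ε, x), fun Ω _ _ R => ?_⟩
  let Q : (Fin 2 →₀ ℕ) → MvPolynomial (Fin 2 × Fin N) Ω :=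
    res (fun γ => C (R γ)) (fun ε x => X (ε, x))
  have hQ : ∀ β q, eval q (Q β) = res R (fun ε x => q (ε, x)) β := fun β q => plg_eval R β q
  refine ⟨fun ⟨P, hP⟩ => ?_, fun ⟨P, β, hβ, hP⟩ => ?_⟩
  · unfold Rk1 at hP
    push Not at hP
    obtain ⟨i, j, β, γ, hβ, hγ, hne⟩ := hP
    have hd : ∀ (δ : Fin 2 →₀ ℕ) (k : Fin 2), δ.degree = a - 1 →
        (Q (δ + Finsupp.single k 1)).totalDegree ≤ a := fun δ k hδ =>
      (plg_deg R _).trans (by rw [map_add, hδ, Finsupp.degree_single]; omega)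
    intro S hS
    refine hp Ω (Q (β + Finsupp.single i 1) * Q (γ + Finsupp.single j 1) -
      Q (β + Finsupp.single j 1) * Q (γ + Finsupp.single i 1)) (fun h0 => hne ?_) ?_ S
      fun s hs => ?_
    · have h1 := congrArg (eval fun q : Fin 2 × Fin N => P q.1 q.2) h0
      simpa only [map_sub, map_mul, hQ, map_zero, sub_eq_zero] using h1
    · refine (totalDegree_sub _ _).trans (max_le ?_ ?_) <;>
        refine (totalDegree_mul _ _).trans ?_
      · linarith [hd β i hβ, hd γ j hγ]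
      · linarith [hd β j hβ, hd γ i hγ]
    · simp only [map_sub, map_mul, hQ, sub_eq_zero]
      exact hS s hs i j β γ hβ hγ
  · intro S hS
    refine hp Ω (Q β) (fun h0 => hP ?_) ?_ S fun s hs => ?_
    · have h1 := congrArg (eval fun q : Fin 2 × Fin N => P q.1 q.2) h0
      simpa only [hQ, map_zero] using h1
    · exact (plg_deg R _).trans (by omega)
    · exact (hQ _ _).trans (hS s hs β hβ)

end Vale.Agent.P200.H
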