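import Vale.Agent.P200.H.Defs
import Vale.Agent.P200.G.PlMat
import Vale.Agent.P200.G.PlMem

/-! Identities for the diagonal matrices. -/

open MvPolynomial Finset Matrix

namespace Vale.Agent.P200.H

open Vale.Agent.P200.G Vale.Agent.P200.Eq

universe u

variable {M a : ℕ} [NeZero a] {K E : Type u} [Field K] [DivisionRing E] [Algebra K E] {ζ : K}

theorem Dm_zero (hζ : ζ ^ a = 1) (s : Fin M) :
    Dm K s (0 : ZMod a) = Vm ζ s 1 * Vm ζ s 0 ^ (a - 1) := by
  obtain ⟨b, hb⟩ : ∃ b, a = b + 1 := Nat.exists_eq_succ_of_ne_zero (NeZero.ne a)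
  have hb' : a - 1 = b := by omega
  have hc : (1 : ZMod a) + (b : ZMod a) = 0 := by
    rw [add_comm, ← Nat.cast_succ, Nat.succ_eq_add_one, ← hb, ZMod.natCast_self]
  rw [Vm, Vm, ymat_pow, ymat_eq, ypw_mul, hb', ← Pi.single_add, hc, Pi.single_zero]
  ext1 g g'
  simp only [Dm, Matrix.diagonal_apply, ypw, Matrix.of_apply, add_zero]
  by_cases h : g = g'
  · subst h
    rw [if_pos rfl, if_pos rfl]
    have h3 := pm_prod_range (fun k => (X (s, k, indw (g s) k) : MvPolynomial (Var M a 2) K)) (g s)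
    have h4 : ∏ u ∈ range a, (X (s, g s + u, indw (g s) (g s + u)) : MvPolynomial (Var M a 2) K) =
        ∏ u ∈ range (b + 1), X (s, g s + u, indw (g s) (g s + u)) := by rw [← hb]
    have h5 : (C (chi ζ (∑ t ∈ Iio s, g t)) : MvPolynomial (Var M a 2) K) *
        C (chi ζ (∑ t ∈ Iio s, g t)) ^ b = 1 := by
      rw [← pow_succ', ← hb, ← map_pow, pm_chi_pow hζ, map_one]
    rw [← h3, h4, prod_range_succ', ypw_sum_out le_rfl, Pi.add_apply, Pi.single_eq_same,
      mul_mul_mul_comm, h5, one_mul, mul_comm]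
    congr 1
    · simp [indw]
    · refine prod_congr rfl fun u hu => ?_
      have h6 : ((u + 1 : ℕ) : ZMod a) ≠ 0 := by
        rw [Ne, ZMod.natCast_eq_zero_iff]
        exact Nat.not_dvd_of_pos_of_lt (Nat.succ_pos u) (by have := mem_range.1 hu; omega)
      rw [indw, if_neg fun h => h6 (add_eq_left.1 h), Nat.cast_succ, add_assoc, add_comm 1]
  · rw [if_neg h, if_neg (Ne.symm h)]

theorem Vm_Dm (s : Fin M) (m : ZMod a) : Vm ζ s 0 * Dm K s m = Dm K s (m + 1) * Vm ζ s 0 := by
  rw [Vm, ymat_eq, Dm, Dm]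
  ext1 g g'
  simp only [Matrix.mul_diagonal, Matrix.diagonal_mul, ypw, Matrix.of_apply]
  split_ifs with h
  · rw [h, Pi.add_apply, Pi.single_eq_same, add_assoc, add_comm 1 m, mul_comm]
  · simp

theorem Dm_Dm (s : Fin M) (m m' : ZMod a) : Dm K s m * Dm K s m' = Dm K s m' * Dm K s m := by
  rw [Dm, Dm, Matrix.diagonal_mul_diagonal, Matrix.diagonal_mul_diagonal]
  congr 1
  funext g
  exact mul_comm _ _

theorem Gm_eq (hζ : ζ ^ a = 1) (s : Fin M) (i : ZMod a) :
    Gm ζ s i = ∑ m, chi ζ (-(i * m)) • Dm K s m := by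
  ext1 g g'
  simp only [Gm, Dm, Matrix.sum_apply, Matrix.diagonal_apply, Matrix.smul_apply]
  by_cases h : g = g'
  · subst h
    simp only [if_true, pm_psi_rsv, mul_sum]
    refine (Fintype.sum_equiv (Equiv.addLeft (g s)) _ _ fun m => ?_).symm
    rw [Equiv.coe_addLeft, ← mul_assoc, ← map_mul, ← chi_add hζ, smul_eq_C_mul]
    congr 3
    ring
  · simp [h]

theorem plmat_D (s : Fin M) (m : ZMod a) (g g' : Gp M a) :
    (inc K E (Var M a 2)).mapMatrix (Dm K s m) g g' =
      if g = g' then AddMonoidAlgebra.single (mon s (indw (g s + m))) 1 else 0 := by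
  rw [RingHom.mapMatrix_apply, Matrix.map_apply, Dm, Matrix.diagonal_apply]
  split_ifs
  · simp only [X]
    rw [← monomial_sum_one, ← mon, ← single_eq_monomial, inc, AddMonoidAlgebra.mapRingHom_single,
      map_one]
  · exact map_zero _

theorem Dm_mem (ζ : K) (s : Fin M) (m : ZMod a) :
    (inc K E (Var M a 2)).mapMatrix (Dm K s m) ∈ cB E M a 2 ζ a := by
  refine ⟨fun g g' => ?_, fun t g g' => ?_⟩
  · rw [plmat_D]
    split_ifs with h
    · rw [h, add_sub_cancel_right]
      exact CMem.hom_single (CMem.wt_mon _ _) _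
    · exact CMem.hom_zero _
  · rw [plmat_D, plmat_D]
    by_cases h : g = g'
    · subst h
      rw [if_pos rfl, if_pos rfl, CMem.sgB_single]
      congr 2
      unfold mon
      rw [Finsupp.mapDomain_finsetSum, Pi.add_apply, Pi.single_apply]
      refine (Fintype.sum_equiv (Equiv.addRight (if s = t then 1 else 0 : ZMod a)) _ _
        fun k => ?_).symm
      rw [Finsupp.mapDomain_single, Equiv.coe_addRight]
      have h1 : ∀ c : ZMod a, indw (g s + c + m) (k + c) = indw (g s + m) k := fun c => by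
        rw [indw, indw, add_right_comm]
        exact if_congr (add_left_inj c) rfl rfl
      rw [h1]
      by_cases hst : s = t <;> simp [piB, hst]
    · rw [if_neg h, if_neg (fun h' => h (add_right_cancel h')), map_zero, smul_zero, smul_zero]

end Vale.Agent.P200.H
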