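import Vale.Agent.P200.H.Blocks
import Vale.Agent.P200.H.PlGen
import Vale.Agent.P200.H.PlTri
import Vale.Agent.P200.H.Dual
import Vale.Agent.P200.H.Bin

/-! The plain step inside the binary span. -/

open MvPolynomial Finset Matrix

namespace Vale.Agent.P200.H

open Vale.Agent.P200.G Vale.Agent.P200.Eq

universe u

theorem aeval_pen {F F₁ : Type u} [Field F] [Field F₁] (φ : F →+* F₁) {N : ℕ}
    (P : Fin 2 → Fin N → F) (β : Fin 2 →₀ ℕ) (c : F₁) :
    aeval (fun ε => map φ (∑ x, C (P ε x) * X x)) (monomial β c) = C c * map φ (pen P β) := by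
  rw [aeval_monomial, pen, map_prod, Finsupp.prod_fintype _ _ fun _ => pow_zero _]
  simp only [map_pow, algebraMap_eq]

theorem map_pen {F F₁ : Type u} [Field F] [Field F₁] (φ : F →+* F₁) {N : ℕ}
    (P : Fin 2 → Fin N → F) (β : Fin 2 →₀ ℕ) :
    map φ (pen P β) = pen (fun ε x => φ (P ε x)) β := by
  simp [pen]

theorem fn_sum {A ι : Type*} [CommRing A] {N : ℕ} (s : Finset ι) (c : ι → A)
    (R : ι → (Fin N →₀ ℕ) → A) (f : MvPolynomial (Fin N) A) :
    fn (fun γ => ∑ j ∈ s, c j * R j γ) f = ∑ j ∈ s, c j * fn (R j) f := by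
  induction f using MvPolynomial.induction_on' with
  | monomial γ d => simp only [fn_monomial, mul_sum, mul_left_comm]
  | add f g hf hg => simp only [map_add, hf, hg, mul_add, sum_add_distrib]

theorem plain_few {F : Type u} [Field F] {N a b M q : ℕ} [NeZero a]
    (P : Fin M → Fin 2 → Fin N → F)
    (hP : ∀ R : (Fin N →₀ ℕ) → F,
      (∃ (P' : Fin 2 → Fin N → F) (β : Fin 2 →₀ ℕ), β.degree = a ∧ res R P' β ≠ 0) →
        Few b fun s => ∀ β : Fin 2 →₀ ℕ, β.degree = a → res R (P s) β = 0)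
    (ρ : Fin q → (Fin N →₀ ℕ) → F)
    (hρ : ∀ c : Fin q → F, (∀ f ∈ Bin (Fin N) F a, ∑ j, c j * fn (ρ j) f = 0) → c = 0)
    (c : Fin q → F) (hc : c ≠ 0) :
    Few b fun s => ∀ f, ∑ j, c j * up a (fun s => res (ρ j) (P s)) s f = 0 := by
  intro S hS
  refine hP (fun γ => ∑ j, c j * ρ j γ) ?_ S fun s hs β hβ => ?_
  · by_contra hn
    push Not at hn
    refine hc (hρ c fun f hf => ?_)
    rw [← fn_sum]
    refine (Submodule.span_le (p := LinearMap.ker (fn fun γ => ∑ j, c j * ρ j γ))).2 ?_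
      (Bin_le_span hf)
    rintro _ ⟨P', β, hβ, rfl⟩
    exact hn P' β hβ
  · obtain ⟨f, rfl⟩ := philead_exists β hβ
    exact (res_sum _ _ _ _ _).trans (hS s hs f)

theorem plain_rk {F : Type u} [Field F] {N a r : ℕ} (ha : 1 ≤ a)
    (T : Set (MvPolynomial (Fin N) F)) (hT : ∀ u ∈ T, u ∈ Bin (Fin N) F a)
    (h0 : ∀ (Ω : Type u) [Field Ω] [Algebra F Ω] (χ : Fin N → Ω),
      (∀ u ∈ T, aeval χ u = 0) → ∀ x, χ x = 0)
    (lam : Fin r → (Fin N →₀ ℕ) → F) (β : Fin r → MvPolynomial (Fin N) F)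
    (hβ : ∀ j, β j ∈ Bin (Fin N) F a)
    (hdual : ∀ j j', fn (lam j) (β j') = if j = j' then 1 else 0)
    (hkill : ∀ j, ∀ u ∈ T, fn (lam j) u = 0)
    (Ω : Type u) [Field Ω] [Algebra F Ω] (c : Fin r → Ω) (hc : c ≠ 0) :
    ∃ P', ¬ Rk1 (res (fun γ => ∑ j, c j * algebraMap F Ω (lam j γ)) P') (a - 1) := by
  by_contra hn
  push Not at hn
  obtain ⟨η, ρ, hη⟩ := rk1_of_pencils' ha _ hn
  have h1 : ∀ f ∈ Bin (Fin N) F a,
      ∑ j, c j * algebraMap F Ω (fn (lam j) f) = ρ * aeval η f := by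
    intro f hf
    have hf' := Bin_le_span hf
    clear hf
    induction hf' using Submodule.span_induction with
    | mem f hf =>
      obtain ⟨P, γ, hγ, rfl⟩ := hf
      have h2 := hη (fun ε x => algebraMap F Ω (P ε x)) γ hγ
      rw [res, fn_sum, ← map_pen, eval_map, ← aeval_def] at h2
      simp only [map_fn]
      exact h2
    | zero => simp
    | add f g _ _ hf hg => simp only [map_add, mul_add, sum_add_distrib, hf, hg]
    | smul x f _ hf =>
      simp only [map_smul, smul_eq_mul, map_mul]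
      rw [Algebra.smul_def, mul_left_comm, ← hf, mul_sum]
      exact sum_congr rfl fun _ _ => mul_left_comm _ _ _
  have h2 : ∀ j, ρ * aeval η (β j) = 0 := fun j => by
    by_cases hρ : ρ = 0
    · rw [hρ, zero_mul]
    have h3 : η = fun _ => 0 := funext (h0 Ω η fun u hu => by
      have h4 := h1 u (hT u hu)
      simp only [hkill _ u hu, map_zero, mul_zero, sum_const_zero] at h4
      exact (mul_eq_zero.1 h4.symm).resolve_left hρ)
    rw [h3, aeval_zero', constantCoeff_eq, (hom_of_mem_Bin (hβ j)).coeff_eq_zero (by simp; omega),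
      map_zero, mul_zero]
  refine hc (funext fun j => ?_)
  have h3 := (h1 _ (hβ j)).trans (h2 j)
  simpa [hdual, apply_ite (algebraMap F Ω)] using h3

theorem plain {F : Type u} (E : Type u) [Field F] [Infinite F] [DivisionRing E] [Algebra F E]
    [FiniteDimensional F E] {N a a' q e : ℕ} (ha : 2 ≤ a) [ExpChar F q] (hq : a = q ^ e * a')
    {ζ : F} (hζ : IsPrimitiveRoot ζ a') (U : Submodule F (MvPolynomial (Fin N) F))
    (hU : U ≤ Bin (Fin N) F a) {b : MvPolynomial (Fin N) F} (hb : b ∈ Bin (Fin N) F a)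
    (hbU : b ∉ U)
    (h0 : ∀ (Ω : Type u) [Field Ω] [Algebra F Ω] (χ : Fin N → Ω),
      (∀ u ∈ U, aeval χ u = 0) → aeval χ b = 0 → ∀ x, χ x = 0) :
    ∃ (F₁ D : Type u) (_ : Field F₁) (_ : DivisionRing D) (_ : Algebra F₁ D)
      (_ : FiniteDimensional F₁ D) (φF : F →+* F₁) (φ : E →+* D) (M : ℕ)
      (B : Blk F₁ D (φF ζ) a a' M) (l : Fin M → Fin 2 → MvPolynomial (Fin N) F₁) (τ : F₁),
      (∀ c, φ (algebraMap F E c) = algebraMap F₁ D (φF c)) ∧
      (∀ r x, Commute (B.a r) (φ x)) ∧ (∀ r x, Commute (B.v r) (φ x)) ∧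
      (∀ r ε, (l r ε).IsHomogeneous 1) ∧ τ ≠ 0 ∧
      ∑ r, aeval (l r) (B.g r) - C τ * map φF b ∈
        Submodule.span F₁ (map φF '' (U : Set (MvPolynomial (Fin N) F))) := by
  classical
  have : NeZero a := ⟨by omega⟩
  have := finite_Bin (σ := Fin N) (F := F) (d := a)
  obtain ⟨r, lam, θ, β, hβ, hdual, hθβ, hlb, hθb, hkill, hexp⟩ := exists_dual' _ U hU hb hbU
  obtain ⟨b₀, hP⟩ := gp_pencils' F N (a := a) (by omega)
  obtain ⟨P, hP⟩ := hP (r + 2 * b₀ + 1)
  have hfew := fun {q : ℕ} => plain_few (q := q) (b := b₀) P fun R => (hP F R).2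
  have hlam0 : ∀ c : Fin r → F, (∀ f ∈ Bin (Fin N) F a, ∑ j, c j * fn (lam j) f = 0) → c = 0 :=
    fun c hc => funext fun j => by simpa [hdual] using hc _ (hβ j)
  obtain ⟨F₁, D, _, _, _, _, φF, φ, B, c, h1, h2, h3, hBg, h5, hT1⟩ := exists_blocks E ha hq hζ
    (Nat.lt_succ_self (r + 2 * b₀)) (fun j s => res (lam j) (P s)) (fun Ω _ _ c hc S hS =>
      (hP Ω fun γ => ∑ j, c j * algebraMap F Ω (lam j γ)).1 (plain_rk (by omega)
        (insert b (U : Set _)) (by
          rintro u (rfl | hu)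
          exacts [hb, hU hu])
        (fun Ω _ _ χ h => h0 Ω χ (fun u hu => h u (Or.inr hu)) (h b (Or.inl rfl))) lam β hβ hdual
        (by
          rintro j u (rfl | hu)
          exacts [hlb j, hkill j u hu]) Ω c hc) S fun s hs => by
          have := hS s hs
          simp only [map_res] at this
          beta_reduce
          rwa [show res (fun γ => ∑ j, c j * algebraMap F Ω (lam j γ))
            (fun ε x => algebraMap F Ω (P s ε x)) = _ from funext (res_sum _ _ _ _)])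
    (tri_of' (by omega) _ (hfew lam hlam0))
    (fun s R h0 h1 => tri_one' (by omega) _ (hfew lam hlam0) s R h0 h1)
  refine ⟨F₁, D, inferInstance, inferInstance, inferInstance, inferInstance, φF, φ, _, B,
    fun s ε => map φF (∑ x, C (P s ε x) * X x),
    ∑ s, ∑ γ ∈ finsuppAntidiag univ a, φF (res θ (P s) γ) * c s γ, h1, h2, h3,
    fun s ε => IsHomogeneous.map ?_ _, ?_, ?_⟩
  · exact IsHomogeneous.sum _ _ _ fun x _ => (isHomogeneous_X F x).C_mul _
  · refine hT1 (fun s => res θ (P s)) ?_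
    have h6 := tri_of' (M := r + 2 * b₀ + 1) (p := r + 1) (b := b₀) (by omega) _
      (hfew (Fin.cons θ lam) fun c hc => by
        have h6 : ∀ j, c (Fin.succ j) = 0 := fun j => by
          simpa [Fin.sum_univ_succ, hdual, hθβ] using hc _ (hβ j)
        have h7 : c 0 = 0 := by simpa [Fin.sum_univ_succ, hlb, hθb] using hc _ hb
        exact funext (Fin.cases h7 h6))
    rwa [Fin.range_fin_succ] at h6
  · have h6 : ∑ s, ∑ γ ∈ finsuppAntidiag (univ : Finset (Fin 2)) a, c s γ • map φF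
        (pen (P s) γ - fn θ (pen (P s) γ) • b - ∑ j, fn (lam j) (pen (P s) γ) • β j) ∈
        Submodule.span F₁ (map φF '' (U : Set (MvPolynomial (Fin N) F))) :=
      Submodule.sum_mem _ fun s _ => Submodule.sum_mem _ fun γ hγ => Submodule.smul_mem _ _
        (Submodule.subset_span ⟨_, hexp _ (pen_mem_Bin _ (plblk_mem.1 hγ)), rfl⟩)
    have h7 : ∑ s, ∑ γ ∈ finsuppAntidiag (univ : Finset (Fin 2)) a, ∑ j,
        C (φF (res (lam j) (P s) γ) * c s γ) * map φF (β j) = 0 := by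
      rw [sum_congr rfl fun s _ => sum_comm, sum_comm]
      refine sum_eq_zero fun i _ => ?_
      simp only [← sum_mul, ← map_sum, h5, map_zero, zero_mul]
    have h8 : ∑ s, aeval (fun ε => map φF (∑ x, C (P s ε x) * X x)) (B.g s) -
        C (∑ s, ∑ γ ∈ finsuppAntidiag univ a, φF (res θ (P s) γ) * c s γ) * map φF b =
        ∑ s, ∑ γ ∈ finsuppAntidiag (univ : Finset (Fin 2)) a, c s γ • map φF
          (pen (P s) γ - fn θ (pen (P s) γ) • b - ∑ j, fn (lam j) (pen (P s) γ) • β j) := by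
      rw [← sub_zero (_ - _), ← h7]
      simp only [hBg, map_sum (aeval _), aeval_pen, map_sum (C : F₁ →+* MvPolynomial (Fin N) F₁),
        sum_mul, ← sum_sub_distrib]
      refine sum_congr rfl fun s _ => sum_congr rfl fun γ _ => ?_
      simp only [map_sub, map_sum, smul_eq_C_mul, map_mul, map_C, mul_sub, mul_sum, res]
      congr 1
      · ring
      · exact sum_congr rfl fun _ _ => by ring
    rw [h8]
    exact h6

end Vale.Agent.P200.H
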