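import Vale.Agent.P200.H.Plain
import Vale.Agent.P200.H.Merge

/-! The step for forms in the binary span. -/

open MvPolynomial Finset

namespace Vale.Agent.P200.H

open Vale.Agent.P200.G Vale.Agent.P200.Eq

universe u

/-- forms that are congruent to a combination avoiding the index `i₀` -/
def stepbW {n : ℕ} (s : St.{u} n) {J ι : Type} [Fintype ι] (κ : J → s.O)
    (w : ι → MvPolynomial s.O s.F) (i₀ : ι) : Submodule s.F (MvPolynomial J s.F) where
  carrier := {f | ∃ c : ι → s.F, c i₀ = 0 ∧ rename κ f - ∑ i, C (c i) * w i ∈ s.gd}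
  add_mem' := by
    rintro f g ⟨c, c0, hc⟩ ⟨c', c0', hc'⟩
    refine ⟨c + c', by simp [c0, c0'], ?_⟩
    convert s.gd.add_mem hc hc' using 1
    simp only [map_add, Pi.add_apply, add_mul, sum_add_distrib]
    ring
  zero_mem' := ⟨0, rfl, by simp⟩
  smul_mem' := by
    rintro a f ⟨c, c0, hc⟩
    refine ⟨a • c, by simp [c0], ?_⟩
    convert s.gd.mul_mem_left (C a) hc using 1
    simp only [smul_eq_C_mul, map_mul, rename_C, Pi.smul_apply, smul_eq_mul, mul_sub, mul_sum,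
      mul_assoc]

theorem stepb_fin {n d : ℕ} {s : St.{u} n} (hp : Prep s d) :
    ∃ (s' : St.{u} n) (μ : Mor s s') (N : ℕ) (κ : Fin N → s'.O) (e : s.O → Fin N),
      (∀ p, κ (e p) = μ.e p) ∧
      ∀ (Ω : Type u) [Field Ω] [Algebra s'.F Ω] (η : Fin N → Ω), BPt s' κ d η →
        (∀ Q : MvPolynomial s.O s.F, Q.IsHomogeneous 2 → s.ev Q = 0 →
          aeval η (rename e (map μ.φF Q)) = 0) ∧ ((∀ p, η (e p) = 0) → ∀ j, η j = 0) := by
  obtain ⟨s', μ, J, _, κ, e, hκ, h⟩ := hp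
  let ε := Fintype.equivFin J
  refine ⟨s', μ, _, κ ∘ ε.symm, ε ∘ e, fun p => by simp [hκ], fun Ω _ _ η hη => ?_⟩
  obtain ⟨h1, h2⟩ := h Ω (η ∘ ε) fun Q hQ hg => by
    rw [← aeval_rename]
    refine hη _ (rename_mem_Bin _ hQ) ?_
    rwa [rename_rename, Function.comp_assoc, Equiv.symm_comp_self, Function.comp_id]
  refine ⟨fun Q hQ h0 => ?_, fun h0 j => ?_⟩
  · rw [← rename_rename, aeval_rename]
    exact h1 Q hQ h0
  · simpa using h2 h0 (ε.symm j)

theorem stepb_sum {R A ι : Type*} [CommRing R] [CommRing A] [Fintype ι] [DecidableEq ι]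
    (f : R →+* A) (c : ι → R) (i₀ : ι) (τ : R) (w : ι → A) :
    ∑ i, f ((c + Pi.single i₀ τ : ι → R) i) * w i = ∑ i, f (c i) * w i + f τ * w i₀ := by
  simp only [Pi.add_apply, map_add, add_mul, sum_add_distrib]
  rw [Finset.sum_eq_single i₀ (f := fun i => f ((Pi.single i₀ τ : ι → R) i) * w i)
    (fun i _ hi => by simp [hi]) (by simp), Pi.single_eq_same]

theorem step_bin {n d : ℕ} (hd : 2 ≤ d) (s : St.{u} n) (hs : Rich s.F) (hp : Prep s d)
    {ι : Type} [Fintype ι] (b : ι → MvPolynomial s.O s.F) (hb : ∀ i, b i ∈ Bin s.O s.F d)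
    (h0 : ∀ (Ω : Type u) [Field Ω] [Algebra s.F Ω] (χ : s.O → Ω), s.Pt Ω χ →
      (∀ i, aeval χ (b i) = 0) → ∀ p, χ p = 0) (i₀ : ι) :
    ∃ (s' : St.{u} n) (μ : Mor s s') (y : MvPolynomial s'.O s'.F) (τ : ι → s'.F),
      y.IsHomogeneous 1 ∧ τ i₀ ≠ 0 ∧ s'.Good (y ^ d - ∑ i, C (τ i) * μ.push (b i)) := by
  classical
  obtain ⟨s₁, μ, N, κ, e, hκ, hpt⟩ := stepb_fin hp
  have hs₁ := hs.map μ.φF
  have := hs₁.1
  obtain ⟨q, k, d', ζ, _, hq, hζ⟩ := hs₁.exists_deg (d := d) (by omega)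
  have hb1 : ∀ i, rename e (map μ.φF (b i)) ∈ Bin (Fin N) s₁.F d := fun i =>
    rename_mem_Bin _ (map_mem_Bin _ (hb i))
  have hb2 : ∀ i, rename κ (rename e (map μ.φF (b i))) = μ.push (b i) := fun i => by
    rw [rename_rename, Mor.push_apply, show κ ∘ e = μ.e from funext hκ]
  by_cases hbU : rename e (map μ.φF (b i₀)) ∈
      Bin (Fin N) s₁.F d ⊓ stepbW s₁ κ (fun i => μ.push (b i)) i₀
  · obtain ⟨c, c0, hc⟩ := hbU.2
    refine ⟨s₁, μ, 0, c + Pi.single i₀ (-1), isHomogeneous_zero _ _ _, by simp [c0],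
      St.mem_gd.1 ?_⟩
    rw [stepb_sum, zero_pow (by omega)]
    convert hc using 1
    rw [hb2, map_neg, map_one]
    ring
  obtain ⟨F₁, D, _, _, _, _, φF, φ, M, B, l, τ, halg, hγ, hv, hl, hτ, hsum⟩ :=
    plain s₁.D hd hq hζ _ inf_le_left (hb1 i₀) hbU fun Ω _ _ χ hχ hχ' => by
      obtain ⟨h1, h2⟩ := hpt Ω χ fun Q hQ hg =>
        hχ Q ⟨hQ, 0, rfl, St.mem_gd.2 (by simpa using hg)⟩
      let : Algebra s.F Ω := ((algebraMap s₁.F Ω).comp μ.φF).toAlgebra
      have h3 : ∀ P : MvPolynomial s.O s.F,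
          aeval (χ ∘ e) P = aeval χ (rename e (map μ.φF P)) := fun P => by
        rw [aeval_rename, aeval_def, aeval_def, eval₂_map]
        rfl
      refine h2 (h0 Ω (χ ∘ e) (fun Q hQ hQ0 => by rw [h3]; exact h1 Q hQ hQ0) fun i => ?_)
      rw [h3]
      by_cases hi : i = i₀
      · rwa [hi]
      · refine hχ _ ⟨hb1 i, 0 + Pi.single i 1, by simp [Ne.symm hi], ?_⟩
        rw [stepb_sum, hb2]
        simp
  obtain ⟨E₁, _, _, _, ι₁, hι⟩ := exists_cent (F := F₁) (Set.range B.a ∪ Set.range B.v)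
  obtain ⟨ψ, hψ⟩ := exists_cores (ι₁ : E₁ →+* D) φ fun x => (hι (φ x)).2 (by
    rintro z (⟨r, rfl⟩ | ⟨r, rfl⟩)
    · exact (hγ r x).symm
    · exact (hv r x).symm)
  have halg' : ∀ c, ψ (algebraMap s₁.F s₁.D c) = algebraMap F₁ E₁ (φF c) := fun c =>
    (ι₁ : E₁ →+* D).injective (by
      rw [hψ, halg]
      exact (ι₁.commutes _).symm)
  have : Infinite F₁ := Infinite.of_injective φF φF.injective
  have : ExpChar F₁ q := expChar_of_injective_ringHom φF.injective q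
  obtain ⟨s', μ', y, hy, hg⟩ := merge (by omega) hq M (s₁.bc F₁ ψ)
    (hζ.map_of_injective φF.injective) ι₁ B
    (fun r x => ((hι _).1 ⟨x, rfl⟩ _ (Or.inl ⟨r, rfl⟩)).symm)
    (fun r x => ((hι _).1 ⟨x, rfl⟩ _ (Or.inr ⟨r, rfl⟩)).symm)
    (fun r ε => rename κ (l r ε)) fun r ε => (hl r ε).rename_isHomogeneous
  have hν : ∀ P, (s₁.toBc ψ φF halg').push P = map φF P := fun P => rename_id_apply _
  obtain ⟨c, c0, hc⟩ := (Submodule.span_le (p := stepbW (s₁.bc F₁ ψ) κ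
      (fun i => map φF (μ.push (b i))) i₀)).2 (by
    rintro _ ⟨f, ⟨-, c, c0, hc⟩, rfl⟩
    refine ⟨fun i => φF (c i), by simp [c0], St.mem_gd.2 ?_⟩
    have h1 := (s₁.toBc ψ φF halg').good_push hc
    rw [hν] at h1
    simpa only [map_sub, map_sum, map_mul, map_C, map_rename] using h1) hsum
  refine ⟨s', (μ.trans (s₁.toBc ψ φF halg')).trans μ', y,
    fun i => μ'.φF ((c + Pi.single i₀ τ : ι → F₁) i), hy,
    (map_ne_zero μ'.φF).2 (by simpa [c0] using hτ), St.mem_gd.1 ?_⟩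
  have h1 : (rename κ (∑ r, aeval (l r) (B.g r) - C τ * map φF (rename e (map μ.φF (b i₀)))) :
      MvPolynomial s₁.O F₁) = ∑ r, aeval (fun ε => rename κ (l r ε)) (B.g r) -
        C τ * map φF (μ.push (b i₀)) := by
    rw [map_sub, map_sum, map_mul, rename_C, ← map_rename, hb2]
    congr 1
    refine Finset.sum_congr rfl fun r _ => ?_
    rw [← AlgHom.comp_apply, comp_aeval]
  have h2 := s'.gd.add_mem (St.mem_gd.2 hg) (St.mem_gd.2 (μ'.good_push (h1 ▸ hc)))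
  have h3 : ∑ i, C (μ'.φF ((c + Pi.single i₀ τ : ι → F₁) i)) *
      ((μ.trans (s₁.toBc ψ φF halg')).trans μ').push (b i) =
      μ'.push (∑ i, C ((c + Pi.single i₀ τ : ι → F₁) i) * map φF (μ.push (b i))) := by
    rw [map_sum]
    refine Finset.sum_congr rfl fun i _ => ?_
    rw [map_mul, Mor.push_trans, Mor.push_trans, hν]
    exact congrArg₂ (· * ·) (μ'.push_C _).symm rfl
  rw [h3, stepb_sum]
  convert h2 using 1
  simp only [map_sub, map_add]
  ring

end Vale.Agent.P200.H
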